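import Mathlib

/-!
# P230: covering densities of convex bodies (definitions of the problem)
-/

namespace Vale.Agent.P230

open MeasureTheory Filter
open scoped ENNReal Pointwise

/-- Euclidean space `ℝ^n`. -/
abbrev EE (n : ℕ) := EuclideanSpace ℝ (Fin n)

/-- Convex body: compact convex set with nonempty interior. -/
def IsConvexBody {n : ℕ} (K : Set (EE n)) : Prop :=
  IsCompact K ∧ Convex ℝ K ∧ (interior K).Nonempty

/-- Locally finite set: every bounded set contains finitely many points of `X`. -/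
def LocFin {n : ℕ} (X : Set (EE n)) : Prop :=
  ∀ s : Set (EE n), Bornology.IsBounded s → (X ∩ s).Finite

/-- The cube `[-R,R]^n`. -/
def cube (n : ℕ) (R : ℝ) : Set (EE n) := {x | ∀ i, |x i| ≤ R}

/-- Upper density of a point set: `limsup_{R → ∞} #(X ∩ [-R,R]^n) / (2R)^n`. -/
noncomputable def updens {n : ℕ} (X : Set (EE n)) : ℝ≥0∞ :=
  limsup (fun R : ℝ => ((X ∩ cube n R).encard : ℝ≥0∞) / ENNReal.ofReal ((2 * R) ^ n)) atTop

/-- Translative covering density `θ_T(K)`: the infimum of `vol(K)` times the upper density of `X`,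
over all locally finite `X` with `K + X = ℝ^n`. -/
noncomputable def thetaT {n : ℕ} (K : Set (EE n)) : ℝ≥0∞ :=
  ⨅ (X : Set (EE n)) (_ : LocFin X) (_ : K + X = Set.univ), volume K * updens X

/-- `Θ_T(n)`: the supremum of `θ_T(K)` over all convex bodies in `ℝ^n`. -/
noncomputable def ThetaT (n : ℕ) : ℝ≥0∞ :=
  ⨆ (K : Set (EE n)) (_ : IsConvexBody K), thetaT K

end Vale.Agent.P230
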