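import Mathlib
import Vale.Agent.P230.Defs

/-!
# P230: interface statements for the proof of `Θ_T(n) ≥ c n log n`.

PartP (probability), PartG (geometry of random facets), PartD (averaging) and the final statement.
-/

namespace Vale.Agent.P230

open Finset MeasureTheory Metric Filter
open scoped ENNReal Pointwise RealInnerProductSpace

/-! ### Part P : probability -/

/-- product Bernoulli weight of the subset `U` -/
noncomputable def bw {J : Type} [Fintype J] [DecidableEq J] (p : J → ℝ) (U : Finset J) : ℝ :=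
  ∏ j, if j ∈ U then p j else 1 - p j

/-- Part P: abstract probabilistic statement. `Γ` = groups, `Y g` = points of the group `g`,
`M y` = members of `y`, `A y k` = the set of facets which kill the member `k` of `y`,
`w y k` = the cost of the member `k`. The event `E_y` is: all members of `y` are killed. -/
def PartP : Prop :=
  ∀ (J Γ Υ ι : Type) [Fintype J] [DecidableEq J] [Fintype Γ] [DecidableEq Υ] [DecidableEq ι]
    (p : J → ℝ) (Y : Γ → Finset Υ) (M : Υ → Finset ι) (A : Υ → ι → Finset J)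
    (w : Υ → ι → ℝ) (L : ℝ),
    (∀ j, 0 ≤ p j) → (∀ j, p j ≤ 1) → 0 ≤ L →
    -- costs are nonnegative and the hitting probability of `A y k` is at least `exp (-cost)`
    (∀ g, ∀ y ∈ Y g, ∀ k ∈ M y, 0 ≤ w y k) →
    (∀ g, ∀ y ∈ Y g, ∀ k ∈ M y, Real.exp (-(w y k)) ≤ 1 - ∏ j ∈ A y k, (1 - p j)) →
    -- each facet hits members of total cost at most `L`
    (∀ g, ∀ y ∈ Y g, ∀ j, ∑ k ∈ (M y).filter (fun k => j ∈ A y k), w y k ≤ L) →
    -- different groups use disjoint sets of facets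
    (∀ g g', g ≠ g' → ∀ y ∈ Y g, ∀ y' ∈ Y g', ∀ k ∈ M y, ∀ k' ∈ M y',
      Disjoint (A y k) (A y' k')) →
    -- pairs in the same group have small overlap
    (∀ g, ∀ y ∈ Y g, ∀ y' ∈ Y g, y ≠ y' →
      ∑ j ∈ ((M y).biUnion (A y)) ∩ ((M y').biUnion (A y')), p j ≤ Real.exp (-2 * L) / 2) →
    -- enough points in each group
    (∀ g, 1 ≤ ∑ y ∈ Y g, Real.exp (- ∑ k ∈ M y, w y k)) →
    ∑ U ∈ univ.filter (fun U : Finset J => ∀ g, ∀ y ∈ Y g, ∃ k ∈ M y, Disjoint (A y k) U),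
      bw p U ≤ (2 / 3 : ℝ) ^ Fintype.card Γ

/-! ### Part G : geometry -/

/-- the level of the facets -/
noncomputable def tau : ℝ := 1 - 1 / 10 ^ 6

/-- Part G: finite set of candidate facets `u i` with intensities `q i`. -/
def PartG : Prop :=
  ∃ A κ : ℝ, 0 < A ∧ 0 < κ ∧ ∀ᶠ n : ℕ in atTop, ∀ η : ℝ, 0 < η → η ≤ 1 / (n : ℝ) ^ 3 →
    ∃ (N : ℕ) (u : Fin N → EE n) (q : Fin N → ℝ),
      (∀ i, ‖u i‖ ≤ 1) ∧ (∀ i, 0 ≤ q i) ∧ (∀ i, q i ≤ 1 / 2) ∧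
      (∀ v : EE n, ‖v‖ ≤ 1 → ∑ i ∈ univ.filter (fun i => tau < ⟪u i, v⟫), q i ≤ 2) ∧
      (∀ (v : EE n) (a : ℝ), 0 ≤ a → ‖v‖ ≤ 1 + η → (1 + η - ‖v‖) + a ≤ 1 / 10 ^ 7 →
        Real.exp (-(A * (1 + n * (1 + η - ‖v‖) + n * a)))
          ≤ ∑ i ∈ univ.filter (fun i => tau + η + a < ⟪u i, v⟫), q i) ∧
      (∀ v v' : EE n, ‖v‖ ≤ 1 + η → ‖v'‖ ≤ 1 + η →
        ∑ i ∈ univ.filter (fun i => tau + η < ⟪u i, v⟫ ∧ tau + η < ⟪u i, v'⟫), q i
          ≤ Real.exp (-(κ * n * ‖v - v'‖ ^ 2))) ∧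
      (∀ v v' : EE n, ‖v‖ ≤ 1 + η → ‖v'‖ ≤ 1 + η → 1 / 256 ≤ ‖v - v'‖ →
        ∀ i, ¬ (tau + η < ⟪u i, v⟫ ∧ tau + η < ⟪u i, v'⟫))

/-! ### Part D : averaging -/

/-- Part D: averaging of ball counts over translates of a finite set. -/
def PartD : Prop :=
  ∀ (n : ℕ) (X : Set (EE n)) (ρ : ℝ), 1 ≤ n → 0 < ρ → LocFin X → updens X < ENNReal.ofReal ρ →
    ∀ (D : Finset (EE n)) (K : ℕ) (r c : Fin K → ℝ), (∀ d ∈ D, ‖d‖ ≤ 1) →
      (∀ k, 0 ≤ r k) → (∀ k, r k ≤ 3) → (∀ k, 0 ≤ c k) →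
      ∃ z : EE n, ∑ d ∈ D, ∑ k, c k * ((X ∩ closedBall (z + d) (r k)).ncard : ℝ)
        ≤ 2 * ρ * D.card * ∑ k, c k * (volume (closedBall (0 : EE n) (r k))).toReal

/-- Final statement. -/
def FinalStatement : Prop :=
  ∃ c : ℝ, 0 < c ∧ ∀ᶠ n : ℕ in atTop, ∃ K : Set (EE n), IsConvexBody K ∧
    ENNReal.ofReal (c * n * Real.log n) ≤ thetaT K

end Vale.Agent.P230
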