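import Mathlib
import Vale.Agent.P230.Interface

/-!
# P230 : combinatorial lemmas
-/

namespace Vale.Agent.P230.Comb

open Finset MeasureTheory Metric Vale.Agent.P230

/-- heavy / light decomposition -/
lemma heavy_light {ι : Type} [DecidableEq ι] (W : ι → ℝ) (hW : ∀ i, 0 ≤ W i)
    (near : ι → ι → Prop) [∀ i k, Decidable (near i k)] (hrefl : ∀ i, near i i)
    (Λ : ℝ) :
    ∀ (N : ℕ) (R : Finset ι), R.card ≤ N →
      ∃ H R0 : Finset ι, H ⊆ R ∧ R0 ⊆ R ∧ (∀ k ∈ R, k ∉ R0 → ∃ h ∈ H, near h k) ∧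
        (H.card : ℝ) * Λ ≤ ∑ k ∈ R, W k ∧
        ∀ i ∈ R0, ∑ k ∈ R0.filter (fun k => near i k), W k ≤ Λ := by
  intro N
  induction N with
  | zero =>
    intro R hR
    have : R = ∅ := card_eq_zero.1 (by omega)
    subst this
    exact ⟨∅, ∅, by simp, by simp, by simp, by simp, by simp⟩
  | succ N ih =>
    intro R hR
    by_cases h : ∃ i ∈ R, Λ < ∑ k ∈ R.filter (fun k => near i k), W k
    · obtain ⟨i, hi, hlt⟩ := h
      have hlt' : (R.filter (fun k => ¬ near i k)).card < R.card := by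
        apply card_lt_card
        rw [Finset.filter_ssubset]
        exact ⟨i, hi, by simpa using hrefl i⟩
      obtain ⟨H, R0, hH, hR0, hcov, hcard, hlight⟩ :=
        ih (R.filter (fun k => ¬ near i k)) (by omega)
      have hiH : i ∉ H := by
        intro hc
        have := hH hc
        rw [mem_filter] at this
        exact this.2 (hrefl i)
      refine ⟨insert i H, R0, ?_, ?_, ?_, ?_, hlight⟩
      · intro k hk
        rw [mem_insert] at hk
        rcases hk with rfl | hk
        · exact hi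
        · exact (mem_filter.1 (hH hk)).1
      · intro k hk
        exact (mem_filter.1 (hR0 hk)).1
      · intro k hk hk0
        by_cases hn : near i k
        · exact ⟨i, mem_insert_self _ _, hn⟩
        · obtain ⟨h, hh, hhk⟩ := hcov k (mem_filter.2 ⟨hk, hn⟩) hk0
          exact ⟨h, mem_insert_of_mem hh, hhk⟩
      · rw [card_insert_of_notMem hiH]
        push_cast
        have hs := sum_filter_add_sum_filter_not R (fun k => near i k) W
        rw [← hs, add_mul, one_mul]
        linarith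
    · push Not at h
      refine ⟨∅, R, by simp, Subset.refl _, ?_, ?_, h⟩
      · intro k hk hk'
        exact absurd hk hk'
      · simp only [card_empty, Nat.cast_zero, zero_mul]
        exact sum_nonneg fun k _ => hW k

/-- independent set lemma -/
lemma exists_indep {α : Type} [DecidableEq α] (V : Finset α) (adj : α → α → Prop)
    [∀ a b, Decidable (adj a b)] (hsymm : ∀ a b, adj a b → adj b a) (Δ : ℝ)
    (hdeg : ∀ v ∈ V, ((V.filter (fun w => adj v w ∨ w = v)).card : ℝ) ≤ Δ) :
    ∃ I ⊆ V, (∀ a ∈ I, ∀ b ∈ I, a ≠ b → ¬ adj a b) ∧ (V.card : ℝ) ≤ I.card * Δ := by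
  classical
  -- independent sets
  set 𝓘 : Finset (Finset α) := V.powerset.filter
    (fun I => ∀ a ∈ I, ∀ b ∈ I, a ≠ b → ¬ adj a b) with h𝓘
  have hne : 𝓘.Nonempty := ⟨∅, by simp [h𝓘]⟩
  obtain ⟨I, hI, hmax⟩ := exists_max_image 𝓘 card hne
  rw [h𝓘, mem_filter, mem_powerset] at hI
  refine ⟨I, hI.1, hI.2, ?_⟩
  have hcover : V ⊆ I.biUnion (fun v => V.filter (fun w => adj v w ∨ w = v)) := by
    intro w hw
    rw [mem_biUnion]
    by_contra hcon
    push Not at hcon
    have hwI : w ∉ I := by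
      intro hwI
      exact hcon w hwI (mem_filter.2 ⟨hw, Or.inr rfl⟩)
    have hnadj : ∀ v ∈ I, ¬ adj v w := by
      intro v hv hadj
      exact hcon v hv (mem_filter.2 ⟨hw, Or.inl hadj⟩)
    have hins : insert w I ∈ 𝓘 := by
      rw [h𝓘, mem_filter, mem_powerset]
      refine ⟨insert_subset hw hI.1, ?_⟩
      intro a ha b hb hab
      rw [mem_insert] at ha hb
      rcases ha with rfl | ha
      · rcases hb with rfl | hb
        · exact absurd rfl hab
        · intro hc
          exact hnadj b hb (hsymm _ _ hc)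
      · rcases hb with rfl | hb
        · exact hnadj a ha
        · exact hI.2 a ha b hb hab
    have := hmax _ hins
    rw [card_insert_of_notMem hwI] at this
    omega
  calc (V.card : ℝ) ≤ ((I.biUnion (fun v => V.filter (fun w => adj v w ∨ w = v))).card : ℝ) := by
        exact_mod_cast card_le_card hcover
    _ ≤ ∑ v ∈ I, ((V.filter (fun w => adj v w ∨ w = v)).card : ℝ) := by
        exact_mod_cast card_biUnion_le
    _ ≤ ∑ v ∈ I, Δ := sum_le_sum fun v hv => hdeg v (hI.1 hv)
    _ = I.card * Δ := by rw [sum_const, nsmul_eq_mul]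

/-- volume of the unit ball -/
noncomputable def om (n : ℕ) : ℝ := (volume (closedBall (0 : EE n) 1)).toReal

lemma om_pos {n : ℕ} (_hn : 1 ≤ n) : 0 < om n := by
  apply ENNReal.toReal_pos
  · exact (measure_closedBall_pos volume _ one_pos).ne'
  · exact measure_closedBall_lt_top.ne

lemma vol_ball {n : ℕ} (x : EE n) {r : ℝ} (hr : 0 ≤ r) :
    (volume (closedBall x r)).toReal = r ^ n * om n := by
  rw [Measure.addHaar_closedBall' volume x hr, ENNReal.toReal_mul, om,
    ENNReal.toReal_ofReal (by positivity)]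
  simp

/-- packing bound -/
lemma packing {n : ℕ} (hn : 1 ≤ n) (S : Finset (EE n)) (c : EE n) {ε ρ : ℝ} (hε : 0 < ε)
    (hρ : 0 ≤ ρ) (hsep : ∀ a ∈ S, ∀ b ∈ S, a ≠ b → ε ≤ dist a b)
    (hin : ∀ a ∈ S, dist a c ≤ ρ) : (S.card : ℝ) ≤ (1 + 2 * ρ / ε) ^ n := by
  have hom := om_pos hn
  have hdisj : (S : Set (EE n)).PairwiseDisjoint (fun a => ball a (ε / 2)) := by
    intro a ha b hb hab
    apply ball_disjoint_ball
    have := hsep a ha b hb hab
    linarith
  have h1 : volume (⋃ a ∈ S, ball a (ε / 2)) = ∑ a ∈ S, volume (ball a (ε / 2)) :=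
    measure_biUnion_finset hdisj (fun a _ => measurableSet_ball)
  have h2 : (⋃ a ∈ S, ball a (ε / 2)) ⊆ closedBall c (ρ + ε / 2) := by
    intro x hx
    simp only [Set.mem_iUnion] at hx
    obtain ⟨a, ha, hxa⟩ := hx
    rw [mem_ball] at hxa
    rw [mem_closedBall]
    have := hin a ha
    calc dist x c ≤ dist x a + dist a c := dist_triangle _ _ _
      _ ≤ ρ + ε / 2 := by linarith
  have h3 : ∀ a : EE n, volume (ball a (ε / 2)) = ENNReal.ofReal ((ε / 2) ^ n * om n) := by
    intro a
    have : Nonempty (Fin n) := ⟨⟨0, hn⟩⟩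
    rw [← Measure.addHaar_closedBall_eq_addHaar_ball, ← vol_ball a (by positivity),
      ENNReal.ofReal_toReal measure_closedBall_lt_top.ne]
  have h4 : (S.card : ℝ) * ((ε / 2) ^ n * om n) ≤ (ρ + ε / 2) ^ n * om n := by
    have h5 := measure_mono (μ := volume) h2
    rw [h1] at h5
    simp only [h3, sum_const, nsmul_eq_mul] at h5
    have h6 : volume (closedBall c (ρ + ε / 2)) = ENNReal.ofReal ((ρ + ε / 2) ^ n * om n) := by
      rw [← vol_ball c (by positivity), ENNReal.ofReal_toReal measure_closedBall_lt_top.ne]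
    rw [h6, ← ENNReal.ofReal_natCast, ← ENNReal.ofReal_mul (Nat.cast_nonneg _)] at h5
    exact (ENNReal.ofReal_le_ofReal_iff (by positivity)).1 h5
  have h7 : (S.card : ℝ) * (ε / 2) ^ n ≤ (ρ + ε / 2) ^ n := by
    rw [← mul_assoc] at h4
    exact le_of_mul_le_mul_right h4 hom
  have h8 : (1 + 2 * ρ / ε) ^ n = (ρ + ε / 2) ^ n / (ε / 2) ^ n := by
    rw [← div_pow]
    congr 1
    field_simp
    ring
  rw [h8, le_div_iff₀ (by positivity)]
  exact h7

/-- existence of a maximal separated set in a ball, with its cardinality and covering property -/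
lemma exists_net {n : ℕ} (hn : 1 ≤ n) {ε ρ : ℝ} (hε : 0 < ε) (hρ : 0 ≤ ρ) :
    ∃ S : Finset (EE n), (∀ a ∈ S, ‖a‖ ≤ ρ) ∧ (∀ a ∈ S, ∀ b ∈ S, a ≠ b → ε ≤ dist a b) ∧
      (∀ x : EE n, ‖x‖ ≤ ρ → ∃ a ∈ S, dist x a ≤ ε) ∧ (ρ / ε) ^ n ≤ (S.card : ℝ) ∧
      (S.card : ℝ) ≤ (1 + 2 * ρ / ε) ^ n := by
  classical
  -- cardinalities of separated sets
  set P : ℕ → Prop := fun k => ∃ S : Finset (EE n), S.card = k ∧ (∀ a ∈ S, ‖a‖ ≤ ρ) ∧
    (∀ a ∈ S, ∀ b ∈ S, a ≠ b → ε ≤ dist a b) with hP
  have hbound : ∀ k, P k → k ≤ ⌊(1 + 2 * ρ / ε) ^ n⌋₊ := by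
    rintro k ⟨S, rfl, hS1, hS2⟩
    apply Nat.le_floor
    exact packing hn S 0 hε hρ hS2 (fun a ha => by rw [dist_zero_right]; exact hS1 a ha)
  have hP0 : P 0 := ⟨∅, by simp, by simp, by simp⟩
  obtain ⟨k, hk, hkmax⟩ : ∃ k, P k ∧ ∀ k', P k' → k' ≤ k := by
    classical
    refine ⟨Nat.findGreatest P ⌊(1 + 2 * ρ / ε) ^ n⌋₊,
      Nat.findGreatest_spec (P := P) (Nat.zero_le _) hP0, ?_⟩
    intro k' hk'
    exact Nat.le_findGreatest (hbound k' hk') hk'
  obtain ⟨S, hScard, hS1, hS2⟩ := hk
  have hcov : ∀ x : EE n, ‖x‖ ≤ ρ → ∃ a ∈ S, dist x a ≤ ε := by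
    intro x hx
    by_contra hcon
    push Not at hcon
    have hxS : x ∉ S := by
      intro hxS
      have := hcon x hxS
      rw [dist_self] at this
      linarith
    have : P (k + 1) := by
      refine ⟨insert x S, ?_, ?_, ?_⟩
      · rw [card_insert_of_notMem hxS, hScard]
      · intro a ha
        rw [mem_insert] at ha
        rcases ha with rfl | ha
        · exact hx
        · exact hS1 a ha
      · intro a ha b hb hab
        rw [mem_insert] at ha hb
        rcases ha with rfl | ha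
        · rcases hb with rfl | hb
          · exact absurd rfl hab
          · exact (hcon b hb).le
        · rcases hb with rfl | hb
          · rw [dist_comm]; exact (hcon a ha).le
          · exact hS2 a ha b hb hab
    have := hkmax _ this
    omega
  refine ⟨S, hS1, hS2, hcov, ?_, ?_⟩
  · have hom := om_pos hn
    have h2 : closedBall (0 : EE n) ρ ⊆ ⋃ a ∈ S, closedBall a ε := by
      intro x hx
      rw [mem_closedBall, dist_zero_right] at hx
      obtain ⟨a, ha, hxa⟩ := hcov x hx
      simp only [Set.mem_iUnion]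
      exact ⟨a, ha, hxa⟩
    have h3 : ∀ a : EE n, volume (closedBall a ε) = ENNReal.ofReal (ε ^ n * om n) := by
      intro a
      rw [← vol_ball a hε.le, ENNReal.ofReal_toReal measure_closedBall_lt_top.ne]
    have h4 : ρ ^ n * om n ≤ (S.card : ℝ) * (ε ^ n * om n) := by
      have h5 := (measure_mono (μ := volume) h2).trans (measure_biUnion_finset_le S _)
      simp only [h3, sum_const, nsmul_eq_mul] at h5
      have h6 : volume (closedBall (0 : EE n) ρ) = ENNReal.ofReal (ρ ^ n * om n) := by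
        rw [← vol_ball 0 hρ, ENNReal.ofReal_toReal measure_closedBall_lt_top.ne]
      rw [h6, ← ENNReal.ofReal_natCast, ← ENNReal.ofReal_mul (Nat.cast_nonneg _)] at h5
      exact (ENNReal.ofReal_le_ofReal_iff (by positivity)).1 h5
    rw [← mul_assoc] at h4
    have h7 := le_of_mul_le_mul_right h4 hom
    rw [div_pow, div_le_iff₀ (by positivity)]
    exact h7
  · exact packing hn S 0 hε hρ hS2 (fun a ha => by rw [dist_zero_right]; exact hS1 a ha)

end Vale.Agent.P230.Comb
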