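import Mathlib
import Vale.Agent.P230.Interface
import Vale.Agent.P230.Comb

/-!
# P230 : application of the probabilistic lemma for a fixed finite set of centers
-/

namespace Vale.Agent.P230.Kill

open Finset MeasureTheory Metric Filter Vale.Agent.P230 Vale.Agent.P230.Comb
open scoped RealInnerProductSpace

/-- The facet data given by Part G. -/
structure Facets (n : ℕ) (A κ η : ℝ) where
  N : ℕ
  u : Fin N → EE n
  q : Fin N → ℝ
  hu : ∀ i, ‖u i‖ ≤ 1
  hq0 : ∀ i, 0 ≤ q i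
  hq1 : ∀ i, q i ≤ 1 / 2
  hin : ∀ v : EE n, ‖v‖ ≤ 1 → ∑ i ∈ univ.filter (fun i => tau < ⟪u i, v⟫), q i ≤ 2
  hlow : ∀ (v : EE n) (a : ℝ), 0 ≤ a → ‖v‖ ≤ 1 + η → (1 + η - ‖v‖) + a ≤ 1 / 10 ^ 7 →
        Real.exp (-(A * (1 + n * (1 + η - ‖v‖) + n * a)))
          ≤ ∑ i ∈ univ.filter (fun i => tau + η + a < ⟪u i, v⟫), q i
  hov : ∀ v v' : EE n, ‖v‖ ≤ 1 + η → ‖v'‖ ≤ 1 + η →
        ∑ i ∈ univ.filter (fun i => tau + η < ⟪u i, v⟫ ∧ tau + η < ⟪u i, v'⟫), q i
          ≤ Real.exp (-(κ * n * ‖v - v'‖ ^ 2))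
  hdis : ∀ v v' : EE n, ‖v‖ ≤ 1 + η → ‖v'‖ ≤ 1 + η → 1 / 256 ≤ ‖v - v'‖ →
        ∀ i, ¬ (tau + η < ⟪u i, v⟫ ∧ tau + η < ⟪u i, v'⟫)

/-- parameters -/
structure Params (n m : ℕ) (A κ η S : ℝ) : Prop where
  hn : 2 ≤ n
  hm : 1 ≤ m
  hA : 1 ≤ A
  hκ : 0 < κ
  hη : 0 < η
  hη1 : η ≤ 1 / (n : ℝ) ^ 3
  hS : 0 ≤ S
  p2 : 1 + (m : ℝ) ≤ n / (m : ℝ) ^ 3
  p2' : Real.log (4 * n) ≤ n / (m : ℝ) ^ 3
  p3 : (m : ℝ) / n + 1 / (m : ℝ) ^ 3 ≤ 1 / 10 ^ 7
  p4 : S * Real.exp (-(κ * n / (m : ℝ) ^ 6)) ≤ 1 / 2 * Real.exp (-(A * (1 + m)))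
  p5 : S ^ 2 * Real.exp (-(κ * n / (m : ℝ) ^ 2))
        ≤ Real.exp (-2 * ((3 * A + 6) * (n / (m : ℝ) ^ 3))) / 2
  p6 : S ≤ n * (n / (m : ℝ) ^ 3)

open Classical in
/-- the intensity of the facets in the layers -/
noncomputable def pp {n : ℕ} {A κ η : ℝ} (F : Facets n A κ η) : Fin F.N × Fin (n + 1) → ℝ :=
  fun j => if j.2 = 0 then F.q j.1 / 2 else F.q j.1 / (2 * n)

open Classical in
/-- integer weight of a member at position `v` -/
noncomputable def WW (n : ℕ) (η : ℝ) (v : EE n) : ℝ :=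
  (((range (n + 1)).filter (fun k : ℕ => ‖v‖ ≤ 1 + η - k / n)).card : ℝ)

lemma WW_nonneg (n : ℕ) (η : ℝ) (v : EE n) : 0 ≤ WW n η v := Nat.cast_nonneg _

lemma WW_ge_one {n : ℕ} {η : ℝ} {v : EE n} (h : ‖v‖ ≤ 1 + η) : 1 ≤ WW n η v := by
  classical
  unfold WW
  have : 0 < ((range (n + 1)).filter (fun k : ℕ => ‖v‖ ≤ 1 + η - k / n)).card := by
    apply card_pos.2
    exact ⟨0, by simp [h]⟩
  exact_mod_cast this

lemma WW_ge {n : ℕ} {η : ℝ} {v : EE n} (hn : 1 ≤ n) (hη : n * η < 1) (h : ‖v‖ ≤ 1 + η) :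
    n * (1 + η - ‖v‖) ≤ WW n η v := by
  classical
  have hn0 : (0 : ℝ) < n := by exact_mod_cast hn
  set β := n * (1 + η - ‖v‖) with hβ
  have hβ0 : 0 ≤ β := mul_nonneg hn0.le (by linarith)
  have hβ1 : β < n + 1 := by
    have := norm_nonneg v
    have : β ≤ n * (1 + η) := mul_le_mul_of_nonneg_left (by linarith) hn0.le
    linarith
  have hsub : range (⌊β⌋₊ + 1) ⊆ (range (n + 1)).filter (fun k : ℕ => ‖v‖ ≤ 1 + η - k / n) := by
    intro k hk
    rw [mem_range, Nat.lt_succ_iff] at hk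
    have hk1 : (k : ℝ) ≤ β := (Nat.cast_le.2 hk).trans (Nat.floor_le hβ0)
    rw [mem_filter, mem_range]
    constructor
    · have : (k : ℝ) < n + 1 := by linarith
      exact_mod_cast this
    · have : (k : ℝ) / n ≤ 1 + η - ‖v‖ := by
        rw [div_le_iff₀ hn0]; linarith
      linarith
  have hc := card_le_card hsub
  rw [card_range] at hc
  unfold WW
  have h1 : ((⌊β⌋₊ + 1 : ℕ) : ℝ)
      ≤ (((range (n + 1)).filter (fun k : ℕ => ‖v‖ ≤ 1 + η - k / n)).card : ℝ) := by
    exact_mod_cast hc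
  have h2 := Nat.lt_floor_add_one β
  push_cast at h1
  linarith

lemma hit_lower {J : Type} (T : Finset J) (p : J → ℝ) (hp1 : ∀ j, p j ≤ 1)
    {x : ℝ} (hx0 : 0 ≤ x) (hx1 : x ≤ 1) (hx : x ≤ ∑ j ∈ T, p j) :
    x / 2 ≤ 1 - ∏ j ∈ T, (1 - p j) := by
  have h1 : ∏ j ∈ T, (1 - p j) ≤ Real.exp (-x) := by
    calc ∏ j ∈ T, (1 - p j) ≤ ∏ j ∈ T, Real.exp (-(p j)) := by
          apply Finset.prod_le_prod
          · intro j _; linarith [hp1 j]
          · intro j _
            have := Real.add_one_le_exp (-(p j))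
            linarith
      _ = Real.exp (-∑ j ∈ T, p j) := by
          rw [← Real.exp_sum, sum_neg_distrib]
      _ ≤ Real.exp (-x) := Real.exp_le_exp.2 (by linarith)
  have h2 : Real.exp (-x) ≤ 1 - x / 2 := by
    rw [Real.exp_neg]
    have h3 := Real.add_one_le_exp x
    have h4 : (Real.exp x)⁻¹ ≤ (x + 1)⁻¹ := inv_anti₀ (by linarith) h3
    have h5 : (x + 1)⁻¹ ≤ 1 - x / 2 := by
      rw [inv_le_iff_one_le_mul₀ (by linarith)]
      nlinarith
    linarith
  linarith

lemma sum_biUnion_le_sum {α β : Type} [DecidableEq β] (s : Finset α) (t : α → Finset β)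
    (f : β → ℝ) (hf : ∀ b, 0 ≤ f b) : ∑ b ∈ s.biUnion t, f b ≤ ∑ a ∈ s, ∑ b ∈ t a, f b := by
  classical
  induction s using Finset.induction_on with
  | empty => simp
  | insert a s ha ih =>
    rw [biUnion_insert, sum_insert ha]
    have h1 := sum_union_inter (s₁ := t a) (s₂ := s.biUnion t) (f := f)
    have h2 : 0 ≤ ∑ b ∈ t a ∩ s.biUnion t, f b := sum_nonneg fun b _ => hf b
    linarith

open Classical in
lemma exists_lab' {α : Type} (H : Finset α) (n : ℕ) (h : H.card ≤ n) :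
    ∃ lab : α → Fin (n + 1), (∀ x ∈ H, lab x ≠ 0) ∧ Set.InjOn lab H := by
  refine ⟨fun x => if hx : x ∈ H then ⟨(H.equivFin ⟨x, hx⟩).val + 1, by
    have := (H.equivFin ⟨x, hx⟩).isLt
    omega⟩ else 0, ?_, ?_⟩
  · intro x hx
    beta_reduce
    rw [dif_pos hx]
    intro hc
    have := congrArg Fin.val hc
    simp at this
  · intro x hx y hy hxy
    have hx' : x ∈ H := hx
    have hy' : y ∈ H := hy
    simp only [dif_pos hx', dif_pos hy'] at hxy
    have h1 := congrArg Fin.val hxy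
    simp only [Nat.add_right_cancel_iff] at h1
    have h2 : H.equivFin ⟨x, hx'⟩ = H.equivFin ⟨y, hy'⟩ := Fin.ext h1
    have h3 := H.equivFin.injective h2
    exact congrArg Subtype.val h3

section

variable {n m : ℕ} {A κ η S : ℝ} (F : Facets n A κ η) (P : Params n m A κ η S)

include P in
lemma neta : (n : ℝ) * η < 1 := by
  have hn := P.hn
  have hn2 : (2 : ℝ) ≤ n := by exact_mod_cast hn
  have h1 := P.hη1
  have h2 : (n : ℝ) * (1 / (n : ℝ) ^ 3) = 1 / (n : ℝ) ^ 2 := by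
    have : (n : ℝ) ≠ 0 := by positivity
    field_simp
  have h3 : 1 / (n : ℝ) ^ 2 < 1 := by
    rw [div_lt_one (by positivity)]
    nlinarith
  calc (n : ℝ) * η ≤ n * (1 / (n : ℝ) ^ 3) := mul_le_mul_of_nonneg_left h1 (by positivity)
    _ < 1 := by rw [h2]; exact h3

include P in
lemma pp_nonneg (j) : 0 ≤ pp F j := by
  unfold pp
  have := F.hq0 j.1
  have hn := P.hn
  have hn2 : (2 : ℝ) ≤ n := by exact_mod_cast hn
  split_ifs
  · positivity
  · positivity

include P in
lemma pp_le (j) : pp F j ≤ 1 / 2 := by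
  unfold pp
  have h0 := F.hq0 j.1
  have h1 := F.hq1 j.1
  have hn := P.hn
  have hn2 : (2 : ℝ) ≤ n := by exact_mod_cast hn
  split_ifs
  · linarith
  · rw [div_le_iff₀ (by positivity)]
    nlinarith

lemma sum_pp_layer0 (T : Finset (Fin F.N)) :
    ∑ j ∈ T ×ˢ {(0 : Fin (n + 1))}, pp F j = (∑ i ∈ T, F.q i) / 2 := by
  rw [sum_product, sum_div]
  apply sum_congr rfl
  intro i _
  simp [pp]

lemma sum_pp_layer (T : Finset (Fin F.N)) {l : Fin (n + 1)} (hl : l ≠ 0) :
    ∑ j ∈ T ×ˢ {l}, pp F j = (∑ i ∈ T, F.q i) / (2 * n) := by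
  rw [sum_product, sum_div]
  apply sum_congr rfl
  intro i _
  simp [pp, hl]

include P in
lemma sum_pp_all (T : Finset (Fin F.N)) :
    ∑ j ∈ T ×ˢ (univ : Finset (Fin (n + 1))), pp F j = ∑ i ∈ T, F.q i := by
  rw [sum_product]
  apply sum_congr rfl
  intro i _
  have hn := P.hn
  have hn2 : (2 : ℝ) ≤ n := by exact_mod_cast hn
  rw [Fin.sum_univ_succ]
  simp only [pp, if_true]
  have : ∀ l : Fin n, (if (l.succ : Fin (n + 1)) = 0 then F.q i / 2 else F.q i / (2 * n))
      = F.q i / (2 * n) := by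
    intro l
    rw [if_neg (Fin.succ_ne_zero l)]
  simp only [this, sum_const, card_univ, Fintype.card_fin, nsmul_eq_mul]
  have hn0 : (n : ℝ) ≠ 0 := by positivity
  field_simp
  ring

open Classical in
/-- killing set of a light member -/
noncomputable def Lset (ε₁ : ℝ) (y : EE n) (R0 : Finset (EE n)) (x : EE n) : Finset (Fin F.N) :=
  univ.filter (fun i => tau + η < ⟪F.u i, y - x⟫ ∧
    ∀ x' ∈ R0, ε₁ ≤ dist x x' → ¬ tau + η < ⟪F.u i, y - x'⟫)

open Classical in
/-- killing set of a heavy member -/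
noncomputable def Hset (ε₁ : ℝ) (y : EE n) (x : EE n) : Finset (Fin F.N) :=
  univ.filter (fun i => tau + η + ε₁ < ⟪F.u i, y - x⟫)

open Classical in
/-- killing set -/
noncomputable def AA (ε₁ : ℝ) (R0 : EE n → Finset (EE n)) (y : EE n) (k : EE n × Fin (n + 1)) :
    Finset (Fin F.N × Fin (n + 1)) :=
  if k.2 = 0 then Lset F ε₁ y (R0 y) k.1 ×ˢ {0} else Hset F ε₁ y k.1 ×ˢ {k.2}

/-- cost -/
noncomputable def ww (n m : ℕ) (A η : ℝ) (y : EE n) (k : EE n × Fin (n + 1)) : ℝ :=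
  if k.2 = 0 then (2 * A + 6) * WW n η (y - k.1) else 3 * A * (n / (m : ℝ) ^ 3)

open Classical in
/-- members -/
noncomputable def MM (R0 H : EE n → Finset (EE n)) (lab : EE n → EE n → Fin (n + 1)) (y : EE n) :
    Finset (EE n × Fin (n + 1)) :=
  (R0 y).image (fun x => (x, 0)) ∪ (H y).image (fun x => (x, lab y x))

include P in
/-- light members are hit with good probability -/
lemma light_hit {y : EE n} {R0 : Finset (EE n)} {x : EE n}
    (hR0 : ∀ x' ∈ R0, ‖y - x'‖ ≤ 1 + η) (hx : x ∈ R0)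
    (hdeep : 1 + η - m / n < ‖y - x‖) (hS : ∑ x' ∈ R0, WW n η (y - x') ≤ S) :
    Real.exp (-((2 * A + 6) * WW n η (y - x)))
      ≤ 1 - ∏ j ∈ Lset F (1 / (m : ℝ) ^ 3) y R0 x ×ˢ {(0 : Fin (n + 1))}, (1 - pp F j) := by
  classical
  have hn2 : (2 : ℝ) ≤ n := by exact_mod_cast P.hn
  have hm1 : (1 : ℝ) ≤ m := by exact_mod_cast P.hm
  have hA := P.hA
  have hvx := hR0 x hx
  set β := n * (1 + η - ‖y - x‖) with hβ
  have hβ0 : 0 ≤ β := mul_nonneg (by linarith) (by linarith)
  have hβm : β ≤ m := by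
    have h1 : 1 + η - ‖y - x‖ ≤ m / n := by linarith
    calc β ≤ n * (m / n) := mul_le_mul_of_nonneg_left h1 (by linarith)
      _ = m := by field_simp
  have hW := WW_ge (by have := P.hn; omega : 1 ≤ n) (neta P) hvx
  have hW1 := WW_ge_one hvx
  -- lower bound for the sum of q
  have hlow := F.hlow (y - x) 0 le_rfl hvx (by
    have h1 : 1 + η - ‖y - x‖ ≤ m / n := by linarith
    have h2 := P.p3
    have h3 : 0 < 1 / (m : ℝ) ^ 3 := by positivity
    linarith)
  simp only [add_zero, mul_zero] at hlow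
  rw [← hβ] at hlow
  -- card R0 ≤ S
  have hcard : (R0.card : ℝ) ≤ S := by
    calc (R0.card : ℝ) = ∑ x' ∈ R0, (1 : ℝ) := by simp
      _ ≤ ∑ x' ∈ R0, WW n η (y - x') := sum_le_sum fun x' hx' => WW_ge_one (hR0 x' hx')
      _ ≤ S := hS
  have hsplit : ∑ i ∈ univ.filter (fun i => tau + η < ⟪F.u i, y - x⟫), F.q i
      ≤ ∑ i ∈ Lset F (1 / (m : ℝ) ^ 3) y R0 x, F.q i
        + ∑ x' ∈ R0.filter (fun x' => 1 / (m : ℝ) ^ 3 ≤ dist x x'),
          ∑ i ∈ univ.filter (fun i => tau + η < ⟪F.u i, y - x⟫ ∧ tau + η < ⟪F.u i, y - x'⟫),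
            F.q i := by
    have h1 : univ.filter (fun i => tau + η < ⟪F.u i, y - x⟫)
        ⊆ Lset F (1 / (m : ℝ) ^ 3) y R0 x ∪
          (R0.filter (fun x' => 1 / (m : ℝ) ^ 3 ≤ dist x x')).biUnion
            (fun x' => univ.filter (fun i => tau + η < ⟪F.u i, y - x⟫ ∧
              tau + η < ⟪F.u i, y - x'⟫)) := by
      intro i hi
      rw [mem_filter] at hi
      rw [mem_union]
      by_cases h : ∀ x' ∈ R0, 1 / (m : ℝ) ^ 3 ≤ dist x x' → ¬ tau + η < ⟪F.u i, y - x'⟫
      · left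
        unfold Lset
        rw [mem_filter]
        exact ⟨mem_univ _, hi.2, h⟩
      · right
        push Not at h
        obtain ⟨x', hx', hd, hlt⟩ := h
        rw [mem_biUnion]
        exact ⟨x', mem_filter.2 ⟨hx', hd⟩, mem_filter.2 ⟨mem_univ _, hi.2, hlt⟩⟩
    calc _ ≤ ∑ i ∈ Lset F (1 / (m : ℝ) ^ 3) y R0 x ∪
          (R0.filter (fun x' => 1 / (m : ℝ) ^ 3 ≤ dist x x')).biUnion
            (fun x' => univ.filter (fun i => tau + η < ⟪F.u i, y - x⟫ ∧
              tau + η < ⟪F.u i, y - x'⟫)), F.q i :=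
          sum_le_sum_of_subset_of_nonneg h1 (fun i _ _ => F.hq0 i)
      _ ≤ ∑ i ∈ Lset F (1 / (m : ℝ) ^ 3) y R0 x, F.q i +
          ∑ i ∈ (R0.filter (fun x' => 1 / (m : ℝ) ^ 3 ≤ dist x x')).biUnion
            (fun x' => univ.filter (fun i => tau + η < ⟪F.u i, y - x⟫ ∧
              tau + η < ⟪F.u i, y - x'⟫)), F.q i := by
          rw [← sum_union_inter]
          have : 0 ≤ ∑ i ∈ Lset F (1 / (m : ℝ) ^ 3) y R0 x ∩
            (R0.filter (fun x' => 1 / (m : ℝ) ^ 3 ≤ dist x x')).biUnion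
            (fun x' => univ.filter (fun i => tau + η < ⟪F.u i, y - x⟫ ∧
              tau + η < ⟪F.u i, y - x'⟫)), F.q i := sum_nonneg fun i _ => F.hq0 i
          linarith
      _ ≤ _ := by
          apply add_le_add le_rfl
          exact sum_biUnion_le_sum _ _ _ F.hq0
  have hover : ∑ x' ∈ R0.filter (fun x' => 1 / (m : ℝ) ^ 3 ≤ dist x x'),
          ∑ i ∈ univ.filter (fun i => tau + η < ⟪F.u i, y - x⟫ ∧ tau + η < ⟪F.u i, y - x'⟫),
            F.q i ≤ 1 / 2 * Real.exp (-(A * (1 + m))) := by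
    calc _ ≤ ∑ x' ∈ R0.filter (fun x' => 1 / (m : ℝ) ^ 3 ≤ dist x x'),
            Real.exp (-(κ * n / (m : ℝ) ^ 6)) := by
          apply sum_le_sum
          intro x' hx'
          rw [mem_filter] at hx'
          refine (F.hov (y - x) (y - x') hvx (hR0 x' hx'.1)).trans ?_
          apply Real.exp_le_exp.2
          have e1 : ‖y - x - (y - x')‖ = dist x x' := by
            rw [dist_eq_norm, ← norm_neg]
            congr 1
            abel
          rw [e1]
          have e2 : (1 / (m : ℝ) ^ 3) ^ 2 ≤ dist x x' ^ 2 :=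
            pow_le_pow_left₀ (by positivity) hx'.2 2
          have e3 : κ * n / (m : ℝ) ^ 6 = κ * n * (1 / (m : ℝ) ^ 3) ^ 2 := by
            field_simp
          rw [e3]
          have hκ := P.hκ
          have : κ * n * (1 / (m : ℝ) ^ 3) ^ 2 ≤ κ * n * dist x x' ^ 2 :=
            mul_le_mul_of_nonneg_left e2 (by positivity)
          linarith
      _ = ((R0.filter (fun x' => 1 / (m : ℝ) ^ 3 ≤ dist x x')).card : ℝ)
            * Real.exp (-(κ * n / (m : ℝ) ^ 6)) := by
          rw [sum_const, nsmul_eq_mul]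
      _ ≤ S * Real.exp (-(κ * n / (m : ℝ) ^ 6)) := by
          apply mul_le_mul_of_nonneg_right _ (Real.exp_pos _).le
          refine le_trans ?_ hcard
          exact_mod_cast card_filter_le _ _
      _ ≤ _ := P.p4
  have hexp : Real.exp (-(A * (1 + m))) ≤ Real.exp (-(A * (1 + β))) := by
    apply Real.exp_le_exp.2
    have : A * (1 + β) ≤ A * (1 + m) := mul_le_mul_of_nonneg_left (by linarith) (by linarith)
    linarith
  have hLq : 1 / 2 * Real.exp (-(A * (1 + β))) ≤ ∑ i ∈ Lset F (1 / (m : ℝ) ^ 3) y R0 x, F.q i := by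
    linarith
  have hx1 : 1 / 4 * Real.exp (-(A * (1 + β)))
      ≤ ∑ j ∈ Lset F (1 / (m : ℝ) ^ 3) y R0 x ×ˢ {(0 : Fin (n + 1))}, pp F j := by
    rw [sum_pp_layer0]
    linarith
  have hexp1 : Real.exp (-(A * (1 + β))) ≤ 1 := by
    apply Real.exp_le_one_iff.2
    have : 0 ≤ A * (1 + β) := by positivity
    linarith
  have hhit := hit_lower (Lset F (1 / (m : ℝ) ^ 3) y R0 x ×ˢ {(0 : Fin (n + 1))}) (pp F)
    (fun j => (pp_le F P j).trans (by norm_num))
    (by positivity : (0 : ℝ) ≤ 1 / 4 * Real.exp (-(A * (1 + β)))) (by linarith) hx1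
  refine le_trans ?_ hhit
  -- exp (-(2A+6) W) ≤ 1/8 exp(-A(1+β))
  have h8 : (1 / 8 : ℝ) ≥ Real.exp (-3) := by
    have h1 := Real.add_one_le_exp (1 : ℝ)
    have h2 : (2 : ℝ) ^ 3 ≤ (Real.exp 1) ^ 3 := pow_le_pow_left₀ (by norm_num) (by linarith) 3
    rw [← Real.exp_nat_mul] at h2
    rw [Real.exp_neg, ge_iff_le, one_div]
    apply inv_anti₀ (by norm_num)
    norm_num at h2 ⊢
    linarith
  calc Real.exp (-((2 * A + 6) * WW n η (y - x))) ≤ Real.exp (-3 + -(A * (1 + β))) := by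
        apply Real.exp_le_exp.2
        have h1 : A * (1 + β) ≤ A * (2 * WW n η (y - x)) :=
          mul_le_mul_of_nonneg_left (by linarith) (by linarith)
        nlinarith
    _ = Real.exp (-3) * Real.exp (-(A * (1 + β))) := Real.exp_add _ _
    _ ≤ 1 / 8 * Real.exp (-(A * (1 + β))) :=
        mul_le_mul_of_nonneg_right h8 (Real.exp_pos _).le
    _ = 1 / 4 * Real.exp (-(A * (1 + β))) / 2 := by ring

include P in
/-- heavy members are hit with good probability -/
lemma heavy_hit {y : EE n} {x : EE n} (hvx : ‖y - x‖ ≤ 1 + η)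
    (hdeep : 1 + η - m / n < ‖y - x‖) {l : Fin (n + 1)} (hl : l ≠ 0) :
    Real.exp (-(3 * A * (n / (m : ℝ) ^ 3)))
      ≤ 1 - ∏ j ∈ Hset F (1 / (m : ℝ) ^ 3) y x ×ˢ {l}, (1 - pp F j) := by
  classical
  have hn2 : (2 : ℝ) ≤ n := by exact_mod_cast P.hn
  have hm1 : (1 : ℝ) ≤ m := by exact_mod_cast P.hm
  have hA := P.hA
  set β := n * (1 + η - ‖y - x‖) with hβ
  have hβ0 : 0 ≤ β := mul_nonneg (by linarith) (by linarith)
  have hβm : β ≤ m := by
    have h1 : 1 + η - ‖y - x‖ ≤ m / n := by linarith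
    calc β ≤ n * (m / n) := mul_le_mul_of_nonneg_left h1 (by linarith)
      _ = m := by field_simp
  have hlow := F.hlow (y - x) (1 / (m : ℝ) ^ 3) (by positivity) hvx (by
    have h1 : 1 + η - ‖y - x‖ ≤ m / n := by linarith
    have h2 := P.p3
    linarith)
  rw [← hβ] at hlow
  set Λ := (n : ℝ) / (m : ℝ) ^ 3 with hΛ
  have hΛ' : (n : ℝ) * (1 / (m : ℝ) ^ 3) = Λ := by rw [hΛ]; ring
  rw [hΛ'] at hlow
  have hΛ0 : 0 < Λ := by positivity
  have hx1 : Real.exp (-(A * (1 + β + Λ))) / (2 * n)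
      ≤ ∑ j ∈ Hset F (1 / (m : ℝ) ^ 3) y x ×ˢ {l}, pp F j := by
    rw [sum_pp_layer F _ hl]
    exact div_le_div_of_nonneg_right hlow (by positivity)
  have hexp1 : Real.exp (-(A * (1 + β + Λ))) ≤ 1 := by
    apply Real.exp_le_one_iff.2
    have : 0 ≤ A * (1 + β + Λ) := by positivity
    linarith
  have hx2 : Real.exp (-(A * (1 + β + Λ))) / (2 * n) ≤ 1 := by
    rw [div_le_one (by positivity)]
    linarith
  have hhit := hit_lower (Hset F (1 / (m : ℝ) ^ 3) y x ×ˢ {l}) (pp F)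
    (fun j => (pp_le F P j).trans (by norm_num))
    (by positivity : (0 : ℝ) ≤ Real.exp (-(A * (1 + β + Λ))) / (2 * n)) hx2 hx1
  refine le_trans ?_ hhit
  have h4 : Real.exp (-(A * (1 + β + Λ))) / (2 * n) / 2
      = Real.exp (-(A * (1 + β + Λ))) * Real.exp (-Real.log (4 * n)) := by
    rw [Real.exp_neg (Real.log _), Real.exp_log (by positivity)]
    field_simp
    ring
  rw [h4, ← Real.exp_add]
  apply Real.exp_le_exp.2
  have h5 := P.p2
  have h6 := P.p2'
  rw [← hΛ] at h5 h6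
  have h7 : A * (1 + β + Λ) ≤ A * (Λ + Λ) := mul_le_mul_of_nonneg_left (by linarith) (by linarith)
  nlinarith

/-- good points -/
def Good (n m : ℕ) (η S : ℝ) (X : Finset (EE n)) (y : EE n) : Prop :=
  (∑ x ∈ X.filter (fun x => ‖y - x‖ ≤ 1 + η), WW n η (y - x) ≤ S) ∧
    ∀ x ∈ X, 1 + η - m / n < ‖y - x‖

lemma bw_nonneg {J : Type} [Fintype J] [DecidableEq J] {p : J → ℝ} (h0 : ∀ j, 0 ≤ p j)
    (h1 : ∀ j, p j ≤ 1) (U : Finset J) : 0 ≤ bw p U := by
  unfold bw
  apply prod_nonneg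
  intro j _
  split_ifs
  · exact h0 j
  · linarith [h1 j]

end

open Classical in
theorem kill_groups (hP : PartP) {n m : ℕ} {A κ η S : ℝ} (F : Facets n A κ η)
    (P : Params n m A κ η S) (X : Finset (EE n)) (Γ : Type) [Fintype Γ] (Y : Γ → Finset (EE n))
    (hgood : ∀ g, ∀ y ∈ Y g, Good n m η S X y)
    (hgroups : ∀ g g', g ≠ g' → ∀ y ∈ Y g, ∀ y' ∈ Y g', ∀ x ∈ X, ∀ x' ∈ X,
      1 / 256 ≤ ‖(y - x) - (y' - x')‖)
    (hpairs : ∀ g, ∀ y ∈ Y g, ∀ y' ∈ Y g, y ≠ y' → ∀ x ∈ X, ∀ x' ∈ X,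
      1 / (m : ℝ) ≤ ‖(y - x) - (y' - x')‖)
    (hcount : ∀ g, Real.exp ((5 * A + 6) * S) ≤ ((Y g).card : ℝ)) :
    ∑ U ∈ univ.filter (fun U : Finset (Fin F.N × Fin (n + 1)) => ∀ g, ∀ y ∈ Y g, ∃ x ∈ X,
      ‖y - x‖ ≤ 1 + η ∧ ∀ j ∈ U, ¬ tau + η < ⟪F.u j.1, y - x⟫), bw (pp F) U
      ≤ (2 / 3 : ℝ) ^ Fintype.card Γ := by
  have hn2 : (2 : ℝ) ≤ n := by exact_mod_cast P.hn
  have hm1 : (1 : ℝ) ≤ m := by exact_mod_cast P.hm
  have hA := P.hA
  set Λ := (n : ℝ) / (m : ℝ) ^ 3 with hΛ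
  have hΛ0 : 0 < Λ := by positivity
  -- heavy/light decomposition
  have hdec : ∀ y : EE n, ∃ H R0 : Finset (EE n), ∃ lab : EE n → Fin (n + 1),
      H ⊆ X.filter (fun x => ‖y - x‖ ≤ 1 + η) ∧ R0 ⊆ X.filter (fun x => ‖y - x‖ ≤ 1 + η) ∧
      (∀ k ∈ X.filter (fun x => ‖y - x‖ ≤ 1 + η), k ∉ R0 → ∃ h ∈ H, dist h k < 1 / (m : ℝ) ^ 3) ∧
      (H.card : ℝ) * Λ ≤ ∑ k ∈ X.filter (fun x => ‖y - x‖ ≤ 1 + η), WW n η (y - k) ∧
      (∀ i ∈ R0, ∑ k ∈ R0.filter (fun k => dist i k < 1 / (m : ℝ) ^ 3), WW n η (y - k) ≤ Λ) ∧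
      (Good n m η S X y → (∀ x ∈ H, lab x ≠ 0) ∧ Set.InjOn lab H) := by
    intro y
    obtain ⟨H, R0, h1, h2, h3, h4, h5⟩ := heavy_light (fun x => WW n η (y - x))
      (fun x => WW_nonneg _ _ _) (fun x x' => dist x x' < 1 / (m : ℝ) ^ 3)
      (fun x => by rw [dist_self]; positivity) Λ _ (X.filter (fun x => ‖y - x‖ ≤ 1 + η)) le_rfl
    by_cases hg : Good n m η S X y
    · have hc : H.card ≤ n := by
        have e1 : (H.card : ℝ) * Λ ≤ n * Λ := (h4.trans hg.1).trans P.p6
        have e2 : (H.card : ℝ) ≤ n := le_of_mul_le_mul_right e1 hΛ0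
        exact_mod_cast e2
      obtain ⟨lab, hl⟩ := exists_lab' H n hc
      exact ⟨H, R0, lab, h1, h2, h3, h4, h5, fun _ => hl⟩
    · exact ⟨H, R0, fun _ => 0, h1, h2, h3, h4, h5, fun h => absurd h hg⟩
  choose H R0 lab hHsub hR0sub hcov hHcard hlight hlab using hdec
  have hR0X : ∀ y, ∀ x ∈ R0 y, x ∈ X ∧ ‖y - x‖ ≤ 1 + η := fun y x hx =>
    mem_filter.1 (hR0sub y hx)
  have hHX : ∀ y, ∀ x ∈ H y, x ∈ X ∧ ‖y - x‖ ≤ 1 + η := fun y x hx =>
    mem_filter.1 (hHsub y hx)
  -- membership analysis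
  have hMmem : ∀ y, ∀ k ∈ MM R0 H lab y, (k.1 ∈ R0 y ∧ k.2 = 0) ∨ (k.1 ∈ H y ∧ k.2 = lab y k.1) := by
    intro y k hk
    unfold MM at hk
    rw [mem_union, mem_image, mem_image] at hk
    rcases hk with ⟨x, hx, rfl⟩ | ⟨x, hx, rfl⟩
    · exact Or.inl ⟨hx, rfl⟩
    · exact Or.inr ⟨hx, rfl⟩
  have hMX : ∀ y, ∀ k ∈ MM R0 H lab y, k.1 ∈ X ∧ ‖y - k.1‖ ≤ 1 + η := by
    intro y k hk
    rcases hMmem y k hk with h | h
    · exact hR0X y _ h.1
    · exact hHX y _ h.1
  have hAAk2 : ∀ y k j, j ∈ AA F (1 / (m : ℝ) ^ 3) R0 y k → j.2 = k.2 := by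
    intro y k j hj
    unfold AA at hj
    split_ifs at hj with h
    · rw [mem_product, mem_singleton] at hj
      rw [hj.2, h]
    · rw [mem_product, mem_singleton] at hj
      exact hj.2
  have hAAin : ∀ y k j, j ∈ AA F (1 / (m : ℝ) ^ 3) R0 y k → tau + η < ⟪F.u j.1, y - k.1⟫ := by
    intro y k j hj
    unfold AA at hj
    split_ifs at hj with h
    · rw [mem_product] at hj
      unfold Lset at hj
      exact (mem_filter.1 hj.1).2.1
    · rw [mem_product] at hj
      unfold Hset at hj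
      have h1 := (mem_filter.1 hj.1).2
      have h2 : 0 < 1 / (m : ℝ) ^ 3 := by positivity
      linarith
  have hL0 : (0 : ℝ) ≤ (3 * A + 6) * Λ := by positivity
  have hww0 : ∀ y k, 0 ≤ ww n m A η y k := by
    intro y k
    unfold ww
    have := WW_nonneg n η (y - k.1)
    split_ifs <;> positivity
  have hmain := hP (Fin F.N × Fin (n + 1)) Γ (EE n) (EE n × Fin (n + 1)) (pp F) Y
    (MM R0 H lab) (AA F (1 / (m : ℝ) ^ 3) R0) (ww n m A η) ((3 * A + 6) * Λ)
    (pp_nonneg F P) (fun j => (pp_le F P j).trans (by norm_num)) hL0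
    (fun g y _ k _ => hww0 y k) ?_ ?_ ?_ ?_ ?_
  · refine le_trans ?_ hmain
    apply sum_le_sum_of_subset_of_nonneg
    · intro U hU
      rw [mem_filter] at hU ⊢
      refine ⟨mem_univ _, ?_⟩
      intro g y hy
      obtain ⟨x, hx, hxn, hxU⟩ := hU.2 g y hy
      by_cases hx0 : x ∈ R0 y
      · refine ⟨(x, 0), ?_, ?_⟩
        · unfold MM
          exact mem_union_left _ (mem_image_of_mem _ hx0)
        · rw [Finset.disjoint_left]
          intro j hj hjU
          exact hxU j hjU (hAAin y _ j hj)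
      · obtain ⟨h, hh, hd⟩ := hcov y x (mem_filter.2 ⟨hx, hxn⟩) hx0
        refine ⟨(h, lab y h), ?_, ?_⟩
        · unfold MM
          exact mem_union_right _ (mem_image_of_mem (fun x => (x, lab y x)) hh)
        · rw [Finset.disjoint_left]
          intro j hj hjU
          have hne := (hlab y (hgood g y hy)).1 h hh
          unfold AA at hj
          rw [if_neg hne, mem_product] at hj
          unfold Hset at hj
          have h1 := (mem_filter.1 hj.1).2
          apply hxU j hjU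
          have h2 : ⟪F.u j.1, y - x⟫ = ⟪F.u j.1, y - h⟫ + ⟪F.u j.1, h - x⟫ := by
            rw [← inner_add_right]
            congr 1
            abel
          have h3 : |⟪F.u j.1, h - x⟫| ≤ dist h x := by
            refine (abs_real_inner_le_norm _ _).trans ?_
            rw [← dist_eq_norm]
            have := F.hu j.1
            calc ‖F.u j.1‖ * dist h x ≤ 1 * dist h x :=
                  mul_le_mul_of_nonneg_right this dist_nonneg
              _ = dist h x := one_mul _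
          have h4 := (abs_le.1 h3).1
          rw [h2]
          simp only at h1
          linarith
    · intro U _ _
      exact bw_nonneg (pp_nonneg F P) (fun j => (pp_le F P j).trans (by norm_num)) U
  · -- hitting probabilities
    intro g y hy k hk
    have hgy := hgood g y hy
    rcases hMmem y k hk with h | h
    · unfold ww AA
      rw [if_pos h.2, if_pos h.2]
      apply light_hit F P (fun x' hx' => (hR0X y x' hx').2) h.1 (hgy.2 _ (hR0X y _ h.1).1)
      refine le_trans ?_ hgy.1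
      exact sum_le_sum_of_subset_of_nonneg (hR0sub y) (fun x _ _ => WW_nonneg _ _ _)
    · have hne := (hlab y hgy).1 k.1 h.1
      rw [← h.2] at hne
      unfold ww AA
      rw [if_neg hne, if_neg hne]
      exact heavy_hit F P (hHX y _ h.1).2 (hgy.2 _ (hHX y _ h.1).1) hne
  · -- each facet hits few members
    intro g y hy j
    have hgy := hgood g y hy
    by_cases hj2 : j.2 = 0
    · have hmem : ∀ k ∈ (MM R0 H lab y).filter (fun k => j ∈ AA F (1 / (m : ℝ) ^ 3) R0 y k),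
          k.2 = 0 ∧ k.1 ∈ R0 y ∧ j.1 ∈ Lset F (1 / (m : ℝ) ^ 3) y (R0 y) k.1 := by
        intro k hk
        rw [mem_filter] at hk
        have hk2 : k.2 = 0 := by rw [← hAAk2 y k j hk.2, hj2]
        have hkR : k.1 ∈ R0 y := by
          rcases hMmem y k hk.1 with h | h
          · exact h.1
          · exact absurd (by rw [← h.2]; exact hk2) ((hlab y hgy).1 k.1 h.1)
        refine ⟨hk2, hkR, ?_⟩
        have := hk.2
        unfold AA at this
        rw [if_pos hk2, mem_product] at this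
        exact this.1
      rcases ((MM R0 H lab y).filter
        (fun k => j ∈ AA F (1 / (m : ℝ) ^ 3) R0 y k)).eq_empty_or_nonempty with h0 | ⟨k0, hk0⟩
      · rw [h0, sum_empty]; exact hL0
      · obtain ⟨hk02, hk0R, hk0L⟩ := hmem k0 hk0
        have hsub : (MM R0 H lab y).filter (fun k => j ∈ AA F (1 / (m : ℝ) ^ 3) R0 y k)
            ⊆ ((R0 y).filter (fun x => dist k0.1 x < 1 / (m : ℝ) ^ 3)).image
                (fun x => (x, (0 : Fin (n + 1)))) := by
          intro k hk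
          obtain ⟨h1, h2, h3⟩ := hmem k hk
          rw [mem_image]
          refine ⟨k.1, mem_filter.2 ⟨h2, ?_⟩, ?_⟩
          · by_contra hcon
            push Not at hcon
            unfold Lset at hk0L h3
            exact (mem_filter.1 hk0L).2.2 k.1 h2 hcon (mem_filter.1 h3).2.1
          · rw [← h1]
        calc _ ≤ ∑ k ∈ ((R0 y).filter (fun x => dist k0.1 x < 1 / (m : ℝ) ^ 3)).image
                (fun x => (x, (0 : Fin (n + 1)))), ww n m A η y k :=
              sum_le_sum_of_subset_of_nonneg hsub (fun k _ _ => hww0 y k)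
          _ = ∑ x ∈ (R0 y).filter (fun x => dist k0.1 x < 1 / (m : ℝ) ^ 3),
                (2 * A + 6) * WW n η (y - x) := by
              rw [sum_image]
              · apply sum_congr rfl
                intro x _
                simp [ww]
              · intro a _ b _ hab
                exact (Prod.mk.inj hab).1
          _ ≤ (2 * A + 6) * Λ := by
              rw [← mul_sum]
              exact mul_le_mul_of_nonneg_left (hlight y k0.1 hk0R) (by linarith)
          _ ≤ (3 * A + 6) * Λ := mul_le_mul_of_nonneg_right (by linarith) hΛ0.le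
    · -- heavy layers
      have hmem : ∀ k ∈ (MM R0 H lab y).filter (fun k => j ∈ AA F (1 / (m : ℝ) ^ 3) R0 y k),
          k.2 = j.2 ∧ k.1 ∈ H y ∧ lab y k.1 = j.2 := by
        intro k hk
        rw [mem_filter] at hk
        have hk2 : k.2 = j.2 := (hAAk2 y k j hk.2).symm
        rcases hMmem y k hk.1 with h | h
        · exact absurd (by rw [← hk2]; exact h.2) hj2
        · exact ⟨hk2, h.1, by rw [← h.2]; exact hk2⟩
      have hc1 : ((MM R0 H lab y).filter
          (fun k => j ∈ AA F (1 / (m : ℝ) ^ 3) R0 y k)).card ≤ 1 := by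
        rw [card_le_one]
        intro a ha b hb
        obtain ⟨a1, a2, a3⟩ := hmem a ha
        obtain ⟨b1, b2, b3⟩ := hmem b hb
        have h1 : a.1 = b.1 := (hlab y hgy).2 a2 b2 (by rw [a3, b3])
        exact Prod.ext h1 (by rw [a1, b1])
      calc _ ≤ ∑ k ∈ (MM R0 H lab y).filter (fun k => j ∈ AA F (1 / (m : ℝ) ^ 3) R0 y k),
            (3 * A * Λ) := by
            apply sum_le_sum
            intro k hk
            obtain ⟨a1, a2, a3⟩ := hmem k hk
            unfold ww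
            rw [if_neg (by rw [a1]; exact hj2)]
        _ = (((MM R0 H lab y).filter
              (fun k => j ∈ AA F (1 / (m : ℝ) ^ 3) R0 y k)).card : ℝ) * (3 * A * Λ) := by
            rw [sum_const, nsmul_eq_mul]
        _ ≤ 1 * (3 * A * Λ) := by
            apply mul_le_mul_of_nonneg_right _ (by positivity)
            exact_mod_cast hc1
        _ ≤ (3 * A + 6) * Λ := by
            rw [one_mul]
            exact mul_le_mul_of_nonneg_right (by linarith) hΛ0.le
  · -- different groups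
    intro g g' hgg y hy y' hy' k hk k' hk'
    rw [Finset.disjoint_left]
    intro j hj hj'
    have h1 := hMX y k hk
    have h2 := hMX y' k' hk'
    exact F.hdis (y - k.1) (y' - k'.1) h1.2 h2.2
      (hgroups g g' hgg y hy y' hy' k.1 h1.1 k'.1 h2.1) j.1 ⟨hAAin y k j hj, hAAin y' k' j hj'⟩
  · -- pairs
    intro g y hy y' hy' hyy
    have hgy := hgood g y hy
    have hgy' := hgood g y' hy'
    have hcardR : ∀ y, Good n m η S X y →
        ((X.filter (fun x => ‖y - x‖ ≤ 1 + η)).card : ℝ) ≤ S := by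
      intro y hgy
      calc ((X.filter (fun x => ‖y - x‖ ≤ 1 + η)).card : ℝ)
          = ∑ x' ∈ X.filter (fun x => ‖y - x‖ ≤ 1 + η), (1 : ℝ) := by simp
        _ ≤ ∑ x' ∈ X.filter (fun x => ‖y - x‖ ≤ 1 + η), WW n η (y - x') :=
            sum_le_sum fun x' hx' => WW_ge_one (mem_filter.1 hx').2
        _ ≤ S := hgy.1
    have hsub : ((MM R0 H lab y).biUnion (AA F (1 / (m : ℝ) ^ 3) R0 y)) ∩
        ((MM R0 H lab y').biUnion (AA F (1 / (m : ℝ) ^ 3) R0 y'))
        ⊆ (X.filter (fun x => ‖y - x‖ ≤ 1 + η)).biUnion (fun x =>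
            (X.filter (fun x => ‖y' - x‖ ≤ 1 + η)).biUnion (fun x' =>
              (univ.filter (fun i => tau + η < ⟪F.u i, y - x⟫ ∧
                tau + η < ⟪F.u i, y' - x'⟫)) ×ˢ (univ : Finset (Fin (n + 1))))) := by
      intro j hj
      rw [mem_inter, mem_biUnion, mem_biUnion] at hj
      obtain ⟨⟨k, hk, hkj⟩, ⟨k', hk', hkj'⟩⟩ := hj
      rw [mem_biUnion]
      refine ⟨k.1, mem_filter.2 (hMX y k hk), ?_⟩
      rw [mem_biUnion]
      refine ⟨k'.1, mem_filter.2 (hMX y' k' hk'), ?_⟩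
      rw [mem_product]
      exact ⟨mem_filter.2 ⟨mem_univ _, hAAin y k j hkj, hAAin y' k' j hkj'⟩, mem_univ _⟩
    calc _ ≤ ∑ j ∈ (X.filter (fun x => ‖y - x‖ ≤ 1 + η)).biUnion (fun x =>
            (X.filter (fun x => ‖y' - x‖ ≤ 1 + η)).biUnion (fun x' =>
              (univ.filter (fun i => tau + η < ⟪F.u i, y - x⟫ ∧
                tau + η < ⟪F.u i, y' - x'⟫)) ×ˢ (univ : Finset (Fin (n + 1))))), pp F j :=
          sum_le_sum_of_subset_of_nonneg hsub (fun j _ _ => pp_nonneg F P j)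
      _ ≤ ∑ x ∈ X.filter (fun x => ‖y - x‖ ≤ 1 + η),
            ∑ x' ∈ X.filter (fun x => ‖y' - x‖ ≤ 1 + η),
              Real.exp (-(κ * n / (m : ℝ) ^ 2)) := by
          refine (sum_biUnion_le_sum _ _ _ (pp_nonneg F P)).trans ?_
          apply sum_le_sum
          intro x hx
          refine (sum_biUnion_le_sum _ _ _ (pp_nonneg F P)).trans ?_
          apply sum_le_sum
          intro x' hx'
          rw [mem_filter] at hx hx'
          rw [sum_pp_all F P]
          refine (F.hov (y - x) (y' - x') hx.2 hx'.2).trans ?_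
          apply Real.exp_le_exp.2
          have e1 := hpairs g y hy y' hy' hyy x hx.1 x' hx'.1
          have e2 : (1 / (m : ℝ)) ^ 2 ≤ ‖(y - x) - (y' - x')‖ ^ 2 :=
            pow_le_pow_left₀ (by positivity) e1 2
          have hκ := P.hκ
          have e3 : κ * n / (m : ℝ) ^ 2 = κ * n * (1 / (m : ℝ)) ^ 2 := by
            field_simp
          rw [e3]
          have : κ * n * (1 / (m : ℝ)) ^ 2 ≤ κ * n * ‖(y - x) - (y' - x')‖ ^ 2 :=
            mul_le_mul_of_nonneg_left e2 (by positivity)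
          linarith
      _ = ((X.filter (fun x => ‖y - x‖ ≤ 1 + η)).card : ℝ) *
            (((X.filter (fun x => ‖y' - x‖ ≤ 1 + η)).card : ℝ) *
              Real.exp (-(κ * n / (m : ℝ) ^ 2))) := by
          rw [sum_const, nsmul_eq_mul, sum_const, nsmul_eq_mul]
      _ ≤ S * (S * Real.exp (-(κ * n / (m : ℝ) ^ 2))) := by
          have h1 := hcardR y hgy
          have h2 := hcardR y' hgy'
          have h3 := Real.exp_pos (-(κ * n / (m : ℝ) ^ 2))
          have h4 := P.hS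
          apply mul_le_mul h1 _ (by positivity) h4
          exact mul_le_mul_of_nonneg_right h2 h3.le
      _ = S ^ 2 * Real.exp (-(κ * n / (m : ℝ) ^ 2)) := by ring
      _ ≤ _ := P.p5
  · -- enough points
    intro g
    have hcost : ∀ y ∈ Y g, ∑ k ∈ MM R0 H lab y, ww n m A η y k ≤ (5 * A + 6) * S := by
      intro y hy
      have hgy := hgood g y hy
      have h1 : ∑ k ∈ (R0 y).image (fun x => (x, (0 : Fin (n + 1)))), ww n m A η y k
          ≤ (2 * A + 6) * S := by
        rw [sum_image (by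
          intro a _ b _ hab
          exact (Prod.mk.inj hab).1)]
        calc ∑ x ∈ R0 y, ww n m A η y (x, (0 : Fin (n + 1)))
            = (2 * A + 6) * ∑ x ∈ R0 y, WW n η (y - x) := by
              rw [mul_sum]
              apply sum_congr rfl
              intro x _
              simp [ww]
          _ ≤ (2 * A + 6) * S := by
              apply mul_le_mul_of_nonneg_left _ (by linarith)
              refine le_trans ?_ hgy.1
              exact sum_le_sum_of_subset_of_nonneg (hR0sub y) (fun x _ _ => WW_nonneg _ _ _)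
      have h2 : ∑ k ∈ (H y).image (fun x => (x, lab y x)), ww n m A η y k ≤ 3 * A * S := by
        rw [sum_image (by
          intro a _ b _ hab
          exact (Prod.mk.inj hab).1)]
        calc ∑ x ∈ H y, ww n m A η y (x, lab y x)
            = ∑ x ∈ H y, (3 * A * Λ) := by
              apply sum_congr rfl
              intro x hx
              unfold ww
              rw [if_neg ((hlab y hgy).1 x hx)]
          _ = 3 * A * ((H y).card * Λ) := by
              rw [sum_const, nsmul_eq_mul]; ring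
          _ ≤ 3 * A * S := by
              apply mul_le_mul_of_nonneg_left _ (by linarith)
              exact (hHcard y).trans hgy.1
      have h3 : ∑ k ∈ MM R0 H lab y, ww n m A η y k
          ≤ ∑ k ∈ (R0 y).image (fun x => (x, (0 : Fin (n + 1)))), ww n m A η y k
            + ∑ k ∈ (H y).image (fun x => (x, lab y x)), ww n m A η y k := by
        unfold MM
        rw [← sum_union_inter]
        have : 0 ≤ ∑ k ∈ (R0 y).image (fun x => (x, (0 : Fin (n + 1)))) ∩
          (H y).image (fun x => (x, lab y x)), ww n m A η y k := sum_nonneg fun k _ => hww0 y k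
        linarith
      linarith
    calc (1 : ℝ) = Real.exp ((5 * A + 6) * S) * Real.exp (-((5 * A + 6) * S)) := by
          rw [← Real.exp_add]; simp
      _ ≤ ((Y g).card : ℝ) * Real.exp (-((5 * A + 6) * S)) :=
          mul_le_mul_of_nonneg_right (hcount g) (Real.exp_pos _).le
      _ = ∑ y ∈ Y g, Real.exp (-((5 * A + 6) * S)) := by rw [sum_const, nsmul_eq_mul]
      _ ≤ _ := by
          apply sum_le_sum
          intro y hy
          apply Real.exp_le_exp.2
          linarith [hcost y hy]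

end Vale.Agent.P230.Kill
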