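import Vale.Agent.P230.Interface

/-!
# P230, part P: product Bernoulli sets, Harris, second moment
-/

namespace Vale.Agent.P230

open Finset

namespace PP

variable {J : Type} [Fintype J] [DecidableEq J]

/-- weight of the trace on `B` -/
noncomputable def bwOn (p : J → ℝ) (B S : Finset J) : ℝ := ∏ j ∈ B, if j ∈ S then p j else 1 - p j

/-- expectation -/
noncomputable def Ex (p : J → ℝ) (F : Finset J → ℝ) : ℝ := ∑ U, bw p U * F U

omit [Fintype J] in
theorem sum_bwOn_mul (p : J → ℝ) (B : Finset J) (c : J → ℝ) :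
    ∑ S ∈ B.powerset, bwOn p B S * ∏ j ∈ S, c j = ∏ j ∈ B, (p j * c j + (1 - p j)) := by
  rw [Finset.prod_add]
  refine Finset.sum_congr rfl fun S hS => ?_
  rw [Finset.mem_powerset] at hS
  have h1 : bwOn p B S = (∏ j ∈ S, p j) * ∏ j ∈ B \ S, (1 - p j) := by
    unfold bwOn
    rw [← Finset.prod_sdiff hS, mul_comm]
    congr 1
    · exact Finset.prod_congr rfl fun j hj => by rw [if_pos hj]
    · exact Finset.prod_congr rfl fun j hj => by rw [if_neg (Finset.mem_sdiff.1 hj).2]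
  rw [h1, Finset.prod_mul_distrib]
  ring

omit [Fintype J] in
theorem sum_bwOn (p : J → ℝ) (B : Finset J) : ∑ S ∈ B.powerset, bwOn p B S = 1 := by
  have h := sum_bwOn_mul p B (fun _ => 1)
  simpa using h

omit [Fintype J] in
theorem bwOn_nonneg {p : J → ℝ} (h0 : ∀ j, 0 ≤ p j) (h1 : ∀ j, p j ≤ 1) (B S : Finset J) :
    0 ≤ bwOn p B S :=
  Finset.prod_nonneg fun j _ => by
    split_ifs
    · exact h0 j
    · linarith [h1 j]

theorem bw_eq (p : J → ℝ) (U : Finset J) : bw p U = bwOn p univ U := rfl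

theorem bw_nonneg {p : J → ℝ} (h0 : ∀ j, 0 ≤ p j) (h1 : ∀ j, p j ≤ 1) (U : Finset J) :
    0 ≤ bw p U := bwOn_nonneg h0 h1 univ U

theorem sum_bw (p : J → ℝ) : ∑ U, bw p U = 1 := by
  have h := sum_bwOn p (univ : Finset J)
  rwa [Finset.powerset_univ] at h

/-- splitting the sum according to the trace on `A` -/
theorem Ex_split (p : J → ℝ) (A : Finset J) (F : Finset J → ℝ) :
    Ex p F = ∑ S ∈ A.powerset, ∑ T ∈ Aᶜ.powerset, bwOn p A S * bwOn p Aᶜ T * F (S ∪ T) := by
  unfold Ex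
  rw [← Finset.sum_product']
  refine Finset.sum_nbij' (fun U => (U ∩ A, U \ A)) (fun q => q.1 ∪ q.2) ?_ ?_ ?_ ?_ ?_
  · intro U _
    simp only [Finset.mem_product, Finset.mem_powerset]
    exact ⟨Finset.inter_subset_right, fun j hj => by
      rw [Finset.mem_compl]; exact (Finset.mem_sdiff.1 hj).2⟩
  · intro q _; exact Finset.mem_univ _
  · intro U _
    ext j
    simp only [Finset.mem_union, Finset.mem_inter, Finset.mem_sdiff]
    tauto
  · intro q hq
    simp only [Finset.mem_product, Finset.mem_powerset] at hq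
    obtain ⟨h1, h2⟩ := hq
    refine Prod.ext ?_ ?_
    · ext j
      simp only [Finset.mem_union, Finset.mem_inter]
      constructor
      · rintro ⟨h | h, hA⟩
        · exact h
        · exact absurd hA (Finset.mem_compl.1 (h2 h))
      · intro h; exact ⟨Or.inl h, h1 h⟩
    · ext j
      simp only [Finset.mem_union, Finset.mem_sdiff]
      constructor
      · rintro ⟨h | h, hA⟩
        · exact absurd (h1 h) hA
        · exact h
      · intro h; exact ⟨Or.inr h, Finset.mem_compl.1 (h2 h)⟩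
  · intro U _
    have h1 : bw p U = bwOn p A (U ∩ A) * bwOn p Aᶜ (U \ A) := by
      rw [bw_eq]
      unfold bwOn
      rw [← Finset.prod_mul_prod_compl A]
      congr 1
      · refine Finset.prod_congr rfl fun j hj => ?_
        by_cases hU : j ∈ U
        · rw [if_pos hU, if_pos (Finset.mem_inter.2 ⟨hU, hj⟩)]
        · rw [if_neg hU, if_neg (fun h => hU (Finset.mem_inter.1 h).1)]
      · refine Finset.prod_congr rfl fun j hj => ?_
        rw [Finset.mem_compl] at hj
        by_cases hU : j ∈ U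
        · rw [if_pos hU, if_pos (Finset.mem_sdiff.2 ⟨hU, hj⟩)]
        · rw [if_neg hU, if_neg (fun h => hU (Finset.mem_sdiff.1 h).1)]
    have h2 : (U ∩ A) ∪ (U \ A) = U := by
      ext j
      simp only [Finset.mem_union, Finset.mem_inter, Finset.mem_sdiff]
      tauto
    rw [h1, h2]

/-- Independence of functions of disjoint sets of coordinates. -/
theorem Ex_mul (p : J → ℝ) {A B : Finset J} (hAB : Disjoint A B) {F G : Finset J → ℝ}
    (hF : ∀ U V, U ∩ A = V ∩ A → F U = F V) (hG : ∀ U V, U ∩ B = V ∩ B → G U = G V) :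
    Ex p (fun U => F U * G U) = Ex p F * Ex p G := by
  have hFS : ∀ S ∈ A.powerset, ∀ T ∈ Aᶜ.powerset, F (S ∪ T) = F S := fun S hS T hT => by
    apply hF
    rw [Finset.mem_powerset] at hS hT
    ext j
    simp only [Finset.mem_inter, Finset.mem_union]
    constructor
    · rintro ⟨h | h, hA⟩
      · exact ⟨h, hA⟩
      · exact absurd hA (Finset.mem_compl.1 (hT h))
    · rintro ⟨h, hA⟩; exact ⟨Or.inl h, hA⟩
  have hGT : ∀ S ∈ A.powerset, ∀ T ∈ Aᶜ.powerset, G (S ∪ T) = G T := fun S hS T hT => by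
    apply hG
    rw [Finset.mem_powerset] at hS hT
    ext j
    simp only [Finset.mem_inter, Finset.mem_union]
    constructor
    · rintro ⟨h | h, hB⟩
      · exact absurd hB (Finset.disjoint_left.1 hAB (hS h))
      · exact ⟨h, hB⟩
    · rintro ⟨h, hB⟩; exact ⟨Or.inr h, hB⟩
  have e1 : Ex p (fun U => F U * G U) = (∑ S ∈ A.powerset, bwOn p A S * F S)
      * ∑ T ∈ Aᶜ.powerset, bwOn p Aᶜ T * G T := by
    rw [Ex_split p A, Finset.sum_mul]
    refine Finset.sum_congr rfl fun S hS => ?_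
    rw [Finset.mul_sum]
    refine Finset.sum_congr rfl fun T hT => ?_
    rw [hFS S hS T hT, hGT S hS T hT]
    ring
  have e2 : Ex p F = ∑ S ∈ A.powerset, bwOn p A S * F S := by
    rw [Ex_split p A]
    refine Finset.sum_congr rfl fun S hS => ?_
    have : ∀ T ∈ Aᶜ.powerset, bwOn p A S * bwOn p Aᶜ T * F (S ∪ T)
        = (bwOn p A S * F S) * bwOn p Aᶜ T := fun T hT => by
      rw [hFS S hS T hT]; ring
    rw [Finset.sum_congr rfl this, ← Finset.mul_sum, sum_bwOn, mul_one]
  have e3 : Ex p G = ∑ T ∈ Aᶜ.powerset, bwOn p Aᶜ T * G T := by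
    rw [Ex_split p A, Finset.sum_comm]
    refine Finset.sum_congr rfl fun T hT => ?_
    have : ∀ S ∈ A.powerset, bwOn p A S * bwOn p Aᶜ T * G (S ∪ T)
        = (bwOn p Aᶜ T * G T) * bwOn p A S := fun S hS => by
      rw [hGT S hS T hT]; ring
    rw [Finset.sum_congr rfl this, ← Finset.mul_sum, sum_bwOn, mul_one]
  rw [e1, e2, e3]

theorem Ex_mono {p : J → ℝ} (h0 : ∀ j, 0 ≤ p j) (h1 : ∀ j, p j ≤ 1) {F G : Finset J → ℝ}
    (h : ∀ U, F U ≤ G U) : Ex p F ≤ Ex p G :=
  Finset.sum_le_sum fun U _ => mul_le_mul_of_nonneg_left (h U) (bw_nonneg h0 h1 U)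

theorem Ex_nonneg {p : J → ℝ} (h0 : ∀ j, 0 ≤ p j) (h1 : ∀ j, p j ≤ 1) {F : Finset J → ℝ}
    (h : ∀ U, 0 ≤ F U) : 0 ≤ Ex p F :=
  Finset.sum_nonneg fun U _ => mul_nonneg (bw_nonneg h0 h1 U) (h U)

theorem Ex_const (p : J → ℝ) (c : ℝ) : Ex p (fun _ => c) = c := by
  unfold Ex
  rw [← Finset.sum_mul, sum_bw, one_mul]

theorem Ex_add (p : J → ℝ) (F G : Finset J → ℝ) : Ex p (fun U => F U + G U) = Ex p F + Ex p G := by
  unfold Ex
  rw [← Finset.sum_add_distrib]
  exact Finset.sum_congr rfl fun U _ => by ring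

theorem Ex_smul (p : J → ℝ) (c : ℝ) (F : Finset J → ℝ) : Ex p (fun U => c * F U) = c * Ex p F := by
  unfold Ex
  rw [Finset.mul_sum]
  exact Finset.sum_congr rfl fun U _ => by ring

theorem Ex_sum {κ : Type*} (p : J → ℝ) (s : Finset κ) (F : κ → Finset J → ℝ) :
    Ex p (fun U => ∑ k ∈ s, F k U) = ∑ k ∈ s, Ex p (F k) := by
  unfold Ex
  rw [Finset.sum_comm]
  exact Finset.sum_congr rfl fun U _ => by rw [Finset.mul_sum]

/-- Harris inequality. -/
theorem harris {p : J → ℝ} (h0 : ∀ j, 0 ≤ p j) (h1 : ∀ j, p j ≤ 1) {F G : Finset J → ℝ}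
    (hF0 : ∀ U, 0 ≤ F U) (hG0 : ∀ U, 0 ≤ G U) (hF : Monotone F) (hG : Monotone G) :
    Ex p F * Ex p G ≤ Ex p (fun U => F U * G U) := by
  have h := fkg (α := Finset J) (μ := bw p) (f := F) (g := G) (fun U => bw_nonneg h0 h1 U)
    hF0 hG0 hF hG (fun a b => le_of_eq ?_)
  · rw [sum_bw, one_mul] at h
    exact h
  · unfold bw
    rw [← Finset.prod_mul_distrib, ← Finset.prod_mul_distrib]
    refine Finset.prod_congr rfl fun j _ => ?_
    simp only [Finset.inf_eq_inter, Finset.sup_eq_union, Finset.mem_inter, Finset.mem_union]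
    by_cases ha : j ∈ a <;> by_cases hb : j ∈ b <;> simp [ha, hb, mul_comm]

open Classical in
/-- indicator of the event that all sets `A k`, `k ∈ M`, are hit -/
noncomputable def hit {ι : Type} (A : ι → Finset J) (M : Finset ι) (U : Finset J) : ℝ :=
  if ∀ k ∈ M, ¬ Disjoint (A k) U then 1 else 0

omit [Fintype J] in
theorem hit_nonneg {ι : Type} (A : ι → Finset J) (M : Finset ι) (U : Finset J) :
    0 ≤ hit A M U := by
  unfold hit; split_ifs <;> norm_num

omit [Fintype J] in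
theorem hit_le_one {ι : Type} (A : ι → Finset J) (M : Finset ι) (U : Finset J) :
    hit A M U ≤ 1 := by
  unfold hit; split_ifs <;> norm_num

omit [Fintype J] in
theorem hit_sq {ι : Type} (A : ι → Finset J) (M : Finset ι) (U : Finset J) :
    hit A M U * hit A M U = hit A M U := by
  unfold hit; split_ifs <;> norm_num

omit [Fintype J] in
theorem hit_mono {ι : Type} (A : ι → Finset J) (M : Finset ι) : Monotone (hit A M) := by
  intro U V hUV
  unfold hit
  by_cases h : ∀ k ∈ M, ¬ Disjoint (A k) U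
  · have h' : ∀ k ∈ M, ¬ Disjoint (A k) V := fun k hk hd =>
      h k hk (Finset.disjoint_of_subset_right hUV hd)
    rw [if_pos h, if_pos h']
  · rw [if_neg h]
    split_ifs <;> norm_num

omit [Fintype J] in
theorem hit_of_subset {ι : Type} (A : ι → Finset J) {M M' : Finset ι} (h : M ⊆ M')
    (U : Finset J) : hit A M' U ≤ hit A M U := by
  unfold hit
  by_cases h' : ∀ k ∈ M', ¬ Disjoint (A k) U
  · rw [if_pos h', if_pos fun k hk => h' k (h hk)]
  · rw [if_neg h']
    split_ifs <;> norm_num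

omit [Fintype J] in
theorem hit_union {ι : Type} [DecidableEq ι] (A : ι → Finset J) (M M' : Finset ι)
    (U : Finset J) : hit A (M ∪ M') U = hit A M U * hit A M' U := by
  unfold hit
  by_cases h : ∀ k ∈ M, ¬ Disjoint (A k) U
  · by_cases h' : ∀ k ∈ M', ¬ Disjoint (A k) U
    · rw [if_pos h, if_pos h', if_pos]
      · norm_num
      · intro k hk
        rcases Finset.mem_union.1 hk with hk | hk
        · exact h k hk
        · exact h' k hk
    · rw [if_neg h', if_neg]
      · norm_num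
      · intro hc; exact h' fun k hk => hc k (Finset.mem_union_right _ hk)
  · rw [if_neg h, if_neg]
    · norm_num
    · intro hc; exact h fun k hk => hc k (Finset.mem_union_left _ hk)

omit [Fintype J] in
/-- `hit` only depends on the trace on the union of the sets -/
theorem hit_congr {ι : Type} [DecidableEq ι] (A : ι → Finset J) (M : Finset ι) {B : Finset J}
    (hB : M.biUnion A ⊆ B) {U V : Finset J} (h : U ∩ B = V ∩ B) : hit A M U = hit A M V := by
  have key : ∀ k ∈ M, (Disjoint (A k) U ↔ Disjoint (A k) V) := by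
    intro k hk
    have hAB : A k ⊆ B := fun j hj => hB (Finset.mem_biUnion.2 ⟨k, hk, hj⟩)
    have h1 : ∀ W : Finset J, Disjoint (A k) W ↔ Disjoint (A k) (W ∩ B) := by
      intro W
      rw [Finset.disjoint_left, Finset.disjoint_left]
      constructor
      · intro hd j hj hjW; exact hd hj (Finset.mem_inter.1 hjW).1
      · intro hd j hj hjW; exact hd hj (Finset.mem_inter.2 ⟨hjW, hAB hj⟩)
    rw [h1 U, h1 V, h]
  unfold hit
  have : (∀ k ∈ M, ¬ Disjoint (A k) U) ↔ ∀ k ∈ M, ¬ Disjoint (A k) V :=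
    forall₂_congr fun k hk => not_congr (key k hk)
  by_cases hc : ∀ k ∈ M, ¬ Disjoint (A k) U
  · rw [if_pos hc, if_pos (this.1 hc)]
  · rw [if_neg hc, if_neg fun h' => hc (this.2 h')]

/-- probability of hitting one set -/
theorem Ex_hit_single {ι : Type} [DecidableEq ι] (p : J → ℝ) (A : ι → Finset J) (k : ι) :
    Ex p (hit A {k}) = 1 - ∏ j ∈ A k, (1 - p j) := by
  have h1 : ∀ U, hit A {k} U = 1 + (-1) * (if U ∩ A k = ∅ then 1 else 0) := by
    intro U
    unfold hit
    have : (∀ l ∈ ({k} : Finset ι), ¬ Disjoint (A l) U) ↔ ¬ (U ∩ A k = ∅) := by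
      rw [← Finset.disjoint_iff_inter_eq_empty, disjoint_comm]
      simp
    by_cases h : U ∩ A k = ∅
    · rw [if_neg (fun hc => (this.1 hc) h), if_pos h]; norm_num
    · rw [if_pos (this.2 h), if_neg h]; norm_num
  have h2 : Ex p (fun U => if U ∩ A k = ∅ then (1 : ℝ) else 0) = ∏ j ∈ A k, (1 - p j) := by
    rw [Ex_split p (A k)]
    have h3 : ∀ S ∈ (A k).powerset, ∑ T ∈ (A k)ᶜ.powerset, bwOn p (A k) S * bwOn p (A k)ᶜ T
        * (if (S ∪ T) ∩ A k = ∅ then (1 : ℝ) else 0)
        = if S = ∅ then bwOn p (A k) ∅ else 0 := by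
      intro S hS
      rw [Finset.mem_powerset] at hS
      have h4 : ∀ T ∈ (A k)ᶜ.powerset, (S ∪ T) ∩ A k = S := by
        intro T hT
        rw [Finset.mem_powerset] at hT
        ext j
        simp only [Finset.mem_inter, Finset.mem_union]
        constructor
        · rintro ⟨h | h, hA⟩
          · exact h
          · exact absurd hA (Finset.mem_compl.1 (hT h))
        · intro h; exact ⟨Or.inl h, hS h⟩
      by_cases hSe : S = ∅
      · rw [if_pos hSe]
        have : ∀ T ∈ (A k)ᶜ.powerset, bwOn p (A k) S * bwOn p (A k)ᶜ T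
            * (if (S ∪ T) ∩ A k = ∅ then (1 : ℝ) else 0) = bwOn p (A k) ∅ * bwOn p (A k)ᶜ T :=
          fun T hT => by rw [h4 T hT, if_pos hSe, mul_one, hSe]
        rw [Finset.sum_congr rfl this, ← Finset.mul_sum, sum_bwOn, mul_one]
      · rw [if_neg hSe]
        refine Finset.sum_eq_zero fun T hT => ?_
        rw [h4 T hT, if_neg hSe, mul_zero]
    rw [Finset.sum_congr rfl h3, Finset.sum_ite_eq', if_pos (Finset.empty_mem_powerset _)]
    unfold bwOn
    exact Finset.prod_congr rfl fun j _ => by simp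
  have h5 : Ex p (hit A {k}) = Ex p (fun U => 1 + (-1) * (if U ∩ A k = ∅ then (1 : ℝ) else 0)) := by
    congr 1
    funext U
    exact h1 U
  rw [h5, Ex_add, Ex_smul, h2, Ex_const]
  ring

/-- lower bound for the probability of hitting all sets -/
theorem Ex_hit_ge {ι : Type} [DecidableEq ι] {p : J → ℝ} (h0 : ∀ j, 0 ≤ p j)
    (h1 : ∀ j, p j ≤ 1) (A : ι → Finset J) (w : ι → ℝ) (M : Finset ι)
    (hA : ∀ k ∈ M, Real.exp (-(w k)) ≤ 1 - ∏ j ∈ A k, (1 - p j)) :
    Real.exp (-∑ k ∈ M, w k) ≤ Ex p (hit A M) := by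
  induction M using Finset.induction_on with
  | empty =>
    have : hit A (∅ : Finset ι) = fun _ => (1 : ℝ) := by
      funext U; unfold hit; rw [if_pos]; simp
    rw [this, Ex_const]; simp
  | insert k M hk ih =>
    have h2 := ih fun l hl => hA l (Finset.mem_insert_of_mem hl)
    have h3 : hit A (insert k M) = fun U => hit A {k} U * hit A M U := by
      funext U
      rw [Finset.insert_eq, hit_union]
    rw [h3, Finset.sum_insert hk, neg_add, Real.exp_add]
    refine le_trans ?_ (harris h0 h1 (hit_nonneg A {k}) (hit_nonneg A M) (hit_mono A {k})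
      (hit_mono A M))
    refine mul_le_mul ?_ h2 (Real.exp_pos _).le ?_
    · rw [Ex_hit_single]; exact hA k (Finset.mem_insert_self _ _)
    · exact Ex_nonneg h0 h1 (hit_nonneg A {k})

omit [Fintype J] in
/-- shrinking the sets makes hitting harder -/
theorem hit_sets_mono {ι : Type} {A A' : ι → Finset J} {M : Finset ι}
    (h : ∀ k ∈ M, A k ⊆ A' k) (U : Finset J) : hit A M U ≤ hit A' M U := by
  unfold hit
  by_cases h' : ∀ k ∈ M, ¬ Disjoint (A k) U
  · rw [if_pos h', if_pos fun k hk hd => h' k hk (Finset.disjoint_of_subset_left (h k hk) hd)]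
  · rw [if_neg h']
    split_ifs <;> norm_num

/-- a function which does not depend on the coordinates in `O` -/
theorem Ex_compl (p : J → ℝ) (O : Finset J) (F : Finset J → ℝ)
    (hF : ∀ S ∈ O.powerset, ∀ T ∈ Oᶜ.powerset, F (S ∪ T) = F T) :
    Ex p F = ∑ T ∈ Oᶜ.powerset, bwOn p Oᶜ T * F T := by
  rw [Ex_split p O, Finset.sum_comm]
  refine Finset.sum_congr rfl fun T hT => ?_
  have : ∀ S ∈ O.powerset, bwOn p O S * bwOn p Oᶜ T * F (S ∪ T)
      = (bwOn p Oᶜ T * F T) * bwOn p O S := fun S hS => by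
    rw [hF S hS T hT]; ring
  rw [Finset.sum_congr rfl this, ← Finset.mul_sum, sum_bwOn, mul_one]

/-- removing the members hit by `S` costs at most `L * |S|` -/
theorem Ex_hit_filter_le {ι : Type} [DecidableEq ι] {p : J → ℝ} (h0 : ∀ j, 0 ≤ p j)
    (h1 : ∀ j, p j ≤ 1) (A : ι → Finset J) (w : ι → ℝ) (M : Finset ι) {L : ℝ}
    (hw : ∀ k ∈ M, 0 ≤ w k)
    (hA : ∀ k ∈ M, Real.exp (-(w k)) ≤ 1 - ∏ j ∈ A k, (1 - p j))
    (hL : ∀ j, ∑ k ∈ M.filter (fun k => j ∈ A k), w k ≤ L) (S : Finset J) :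
    Ex p (hit A (M.filter fun k => Disjoint (A k) S)) ≤ Real.exp (L * S.card) * Ex p (hit A M) := by
  set M1 := M.filter fun k => Disjoint (A k) S with hM1
  set M2 := M.filter fun k => ¬ Disjoint (A k) S with hM2
  have hMM : M1 ∪ M2 = M := Finset.filter_union_filter_not_eq _ _
  have h3 : Ex p (hit A M1) * Ex p (hit A M2) ≤ Ex p (hit A M) := by
    have := harris h0 h1 (hit_nonneg A M1) (hit_nonneg A M2) (hit_mono A M1) (hit_mono A M2)
    refine this.trans (le_of_eq ?_)
    congr 1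
    funext U
    rw [← hit_union, hMM]
  have h4 : Real.exp (-∑ k ∈ M2, w k) ≤ Ex p (hit A M2) :=
    Ex_hit_ge h0 h1 A w M2 fun k hk => hA k (Finset.mem_filter.1 hk).1
  have h5 : ∑ k ∈ M2, w k ≤ L * S.card := by
    have h6 : ∑ k ∈ M2, w k ≤ ∑ j ∈ S, ∑ k ∈ M.filter (fun k => j ∈ A k), w k := by
      have h7 : ∀ j ∈ S, ∑ k ∈ M.filter (fun k => j ∈ A k), w k
          = ∑ k ∈ M, if j ∈ A k then w k else 0 := fun j _ => Finset.sum_filter _ _
      rw [Finset.sum_congr rfl h7, Finset.sum_comm, hM2, Finset.sum_filter]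
      refine Finset.sum_le_sum fun k hk => ?_
      by_cases hd : Disjoint (A k) S
      · rw [if_neg (not_not.2 hd)]
        exact Finset.sum_nonneg fun j _ => by
          split_ifs
          · exact hw k hk
          · exact le_rfl
      · rw [if_pos hd]
        obtain ⟨j, hj1, hj2⟩ := Finset.not_disjoint_iff.1 hd
        refine le_trans ?_ (Finset.single_le_sum (f := fun j => if j ∈ A k then w k else 0)
          (fun j _ => ?_) hj2)
        · rw [if_pos hj1]
        · show 0 ≤ if j ∈ A k then w k else 0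
          split_ifs
          · exact hw k hk
          · exact le_rfl
    refine h6.trans ?_
    have h8 : ∑ j ∈ S, ∑ k ∈ M.filter (fun k => j ∈ A k), w k ≤ ∑ _j ∈ S, L :=
      Finset.sum_le_sum fun j _ => hL j
    refine h8.trans (le_of_eq ?_)
    rw [Finset.sum_const, nsmul_eq_mul, mul_comm]
  have h9 : Real.exp (-(L * S.card)) ≤ Ex p (hit A M2) :=
    le_trans (Real.exp_le_exp.2 (neg_le_neg h5)) h4
  have h10 : Ex p (hit A M1) * Real.exp (-(L * S.card)) ≤ Ex p (hit A M) :=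
    le_trans (mul_le_mul_of_nonneg_left h9 (Ex_nonneg h0 h1 (hit_nonneg A M1))) h3
  have h11 := mul_le_mul_of_nonneg_left h10 (Real.exp_pos (L * S.card)).le
  have h12 : Real.exp (L * S.card) * (Ex p (hit A M1) * Real.exp (-(L * S.card)))
      = Ex p (hit A M1) := by
    rw [mul_comm, mul_assoc, ← Real.exp_add]; simp
  rwa [h12] at h11

/-- pair lemma -/
theorem pair_le {ι : Type} [DecidableEq ι] {p : J → ℝ} (h0 : ∀ j, 0 ≤ p j)
    (h1 : ∀ j, p j ≤ 1) (A A' : ι → Finset J) (w w' : ι → ℝ) (M M' : Finset ι) {L : ℝ}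
    (hw : ∀ k ∈ M, 0 ≤ w k) (hw' : ∀ k ∈ M', 0 ≤ w' k)
    (hA : ∀ k ∈ M, Real.exp (-(w k)) ≤ 1 - ∏ j ∈ A k, (1 - p j))
    (hA' : ∀ k ∈ M', Real.exp (-(w' k)) ≤ 1 - ∏ j ∈ A' k, (1 - p j))
    (hL : ∀ j, ∑ k ∈ M.filter (fun k => j ∈ A k), w k ≤ L)
    (hL' : ∀ j, ∑ k ∈ M'.filter (fun k => j ∈ A' k), w' k ≤ L)
    (hO : ∑ j ∈ (M.biUnion A) ∩ (M'.biUnion A'), p j ≤ Real.exp (-2 * L) / 2) :
    Ex p (fun U => hit A M U * hit A' M' U) ≤ 2 * (Ex p (hit A M) * Ex p (hit A' M')) := by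
  set O := (M.biUnion A) ∩ (M'.biUnion A') with hOdef
  set P := Ex p (hit A M) with hP
  set P' := Ex p (hit A' M') with hP'
  have hP0 : 0 ≤ P := Ex_nonneg h0 h1 (hit_nonneg A M)
  have hP0' : 0 ≤ P' := Ex_nonneg h0 h1 (hit_nonneg A' M')
  -- fixed trace
  have key : ∀ S ∈ O.powerset, ∑ T ∈ Oᶜ.powerset, bwOn p O S * bwOn p Oᶜ T
      * (hit A M (S ∪ T) * hit A' M' (S ∪ T))
      ≤ (bwOn p O S * ∏ _j ∈ S, Real.exp (2 * L)) * (P * P') := by
    intro S hS
    rw [Finset.mem_powerset] at hS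
    set M1 := M.filter fun k => Disjoint (A k) S with hM1
    set M1' := M'.filter fun k => Disjoint (A' k) S with hM1'
    set F : Finset J → ℝ := hit (fun k => A k \ O) M1 with hF
    set F' : Finset J → ℝ := hit (fun k => A' k \ O) M1' with hF'
    have hdom : ∀ (A : ι → Finset J) (M : Finset ι) (T : Finset J), T ∈ Oᶜ.powerset →
        hit A M (S ∪ T) ≤ hit (fun k => A k \ O) (M.filter fun k => Disjoint (A k) S) T := by
      intro A M T hT
      rw [Finset.mem_powerset] at hT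
      unfold hit
      by_cases h : ∀ k ∈ M, ¬ Disjoint (A k) (S ∪ T)
      · rw [if_pos h, if_pos]
        intro k hk hd
        rw [Finset.mem_filter] at hk
        refine h k hk.1 (Finset.disjoint_union_right.2 ⟨hk.2, ?_⟩)
        rw [Finset.disjoint_left] at hd ⊢
        intro j hj hjT
        exact hd (Finset.mem_sdiff.2 ⟨hj, Finset.mem_compl.1 (hT hjT)⟩) hjT
      · rw [if_neg h]
        split_ifs <;> norm_num
    have hB : Disjoint (M.biUnion A \ O) (M'.biUnion A' \ O) := by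
      rw [Finset.disjoint_left]
      intro j hj hj'
      rw [Finset.mem_sdiff] at hj hj'
      exact hj.2 (Finset.mem_inter.2 ⟨hj.1, hj'.1⟩)
    have hBU : ∀ (A : ι → Finset J) (M : Finset ι), ((M.filter fun k => Disjoint (A k) S).biUnion
        (fun k => A k \ O)) ⊆ M.biUnion A \ O := by
      intro A M j hj
      rw [Finset.mem_biUnion] at hj
      obtain ⟨k, hk, hj⟩ := hj
      rw [Finset.mem_sdiff] at hj ⊢
      exact ⟨Finset.mem_biUnion.2 ⟨k, (Finset.mem_filter.1 hk).1, hj.1⟩, hj.2⟩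
    have hFc : ∀ U V, U ∩ (M.biUnion A \ O) = V ∩ (M.biUnion A \ O) → F U = F V :=
      fun U V h => hit_congr _ _ (hBU A M) h
    have hFc' : ∀ U V, U ∩ (M'.biUnion A' \ O) = V ∩ (M'.biUnion A' \ O) → F' U = F' V :=
      fun U V h => hit_congr _ _ (hBU A' M') h
    have hprod := Ex_mul p hB hFc hFc'
    have hcompl : Ex p (fun U => F U * F' U)
        = ∑ T ∈ Oᶜ.powerset, bwOn p Oᶜ T * (F T * F' T) := by
      refine Ex_compl p O _ fun S' hS' T _ => ?_
      rw [Finset.mem_powerset] at hS'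
      have e : ∀ X : Finset J, (S' ∪ T) ∩ (X \ O) = T ∩ (X \ O) := by
        intro X
        ext j
        simp only [Finset.mem_inter, Finset.mem_union, Finset.mem_sdiff]
        constructor
        · rintro ⟨h | h, hX⟩
          · exact absurd (hS' h) hX.2
          · exact ⟨h, hX⟩
        · rintro ⟨h, hX⟩; exact ⟨Or.inr h, hX⟩
      show F (S' ∪ T) * F' (S' ∪ T) = F T * F' T
      rw [hFc _ _ (e _), hFc' _ _ (e _)]
    have hFle : Ex p F ≤ Real.exp (L * S.card) * P := by
      refine le_trans (Ex_mono h0 h1 fun U => ?_) (Ex_hit_filter_le h0 h1 A w M hw hA hL S)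
      exact hit_sets_mono (fun k _ => Finset.sdiff_subset) U
    have hFle' : Ex p F' ≤ Real.exp (L * S.card) * P' := by
      refine le_trans (Ex_mono h0 h1 fun U => ?_) (Ex_hit_filter_le h0 h1 A' w' M' hw' hA' hL' S)
      exact hit_sets_mono (fun k _ => Finset.sdiff_subset) U
    have hF0 : 0 ≤ Ex p F := Ex_nonneg h0 h1 (hit_nonneg _ _)
    have hF0' : 0 ≤ Ex p F' := Ex_nonneg h0 h1 (hit_nonneg _ _)
    have hsum : ∑ T ∈ Oᶜ.powerset, bwOn p O S * bwOn p Oᶜ T
        * (hit A M (S ∪ T) * hit A' M' (S ∪ T))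
        ≤ bwOn p O S * ∑ T ∈ Oᶜ.powerset, bwOn p Oᶜ T * (F T * F' T) := by
      rw [Finset.mul_sum]
      refine Finset.sum_le_sum fun T hT => ?_
      rw [mul_assoc]
      refine mul_le_mul_of_nonneg_left (mul_le_mul_of_nonneg_left ?_ (bwOn_nonneg h0 h1 _ _))
        (bwOn_nonneg h0 h1 _ _)
      exact mul_le_mul (hdom A M T hT) (hdom A' M' T hT) (hit_nonneg _ _ _) (hit_nonneg _ _ _)
    refine hsum.trans ?_
    rw [← hcompl, hprod]
    refine le_trans (mul_le_mul_of_nonneg_left (mul_le_mul hFle hFle' hF0'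
      (mul_nonneg (Real.exp_pos _).le hP0)) (bwOn_nonneg h0 h1 O S)) (le_of_eq ?_)
    · rw [Finset.prod_const, ← Real.exp_nat_mul]
      have : Real.exp ((S.card : ℝ) * (2 * L)) = Real.exp (L * S.card) * Real.exp (L * S.card) := by
        rw [← Real.exp_add]; congr 1; ring
      rw [this]
      ring
  rw [Ex_split p O]
  refine (Finset.sum_le_sum key).trans ?_
  have hs : ∑ S ∈ O.powerset, (bwOn p O S * ∏ _j ∈ S, Real.exp (2 * L)) * (P * P')
      = (∏ j ∈ O, (p j * Real.exp (2 * L) + (1 - p j))) * (P * P') := by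
    rw [← sum_bwOn_mul, Finset.sum_mul]
  rw [hs]
  refine mul_le_mul_of_nonneg_right ?_ (mul_nonneg hP0 hP0')
  have hp : ∏ j ∈ O, (p j * Real.exp (2 * L) + (1 - p j))
      ≤ ∏ j ∈ O, Real.exp (Real.exp (2 * L) * p j) := by
    refine Finset.prod_le_prod (fun j _ => ?_) fun j _ => ?_
    · exact add_nonneg (mul_nonneg (h0 j) (Real.exp_pos _).le) (by linarith [h1 j])
    · refine le_trans ?_ (Real.add_one_le_exp _)
      nlinarith [h0 j]
  refine hp.trans ?_
  rw [← Real.exp_sum, ← Finset.mul_sum]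
  have h6 : Real.exp (2 * L) * ∑ j ∈ O, p j ≤ 1 / 2 := by
    have := mul_le_mul_of_nonneg_left hO (Real.exp_pos (2 * L)).le
    refine this.trans (le_of_eq ?_)
    rw [← mul_div_assoc, ← Real.exp_add]
    simp
  refine (Real.exp_le_exp.2 h6).trans ?_
  have h7 : Real.exp (1 / 2) ^ 2 ≤ 2 ^ 2 := by
    rw [← Real.exp_nat_mul]
    have := Real.exp_one_lt_d9
    norm_num
    linarith
  exact le_of_sq_le_sq h7 (by norm_num)

open Classical in
/-- indicator of the event that no point of the group is killed -/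
noncomputable def noHit {Υ ι : Type} (A : Υ → ι → Finset J) (M : Υ → Finset ι) (Y : Finset Υ)
    (U : Finset J) : ℝ :=
  if ∀ y ∈ Y, ∃ k ∈ M y, Disjoint (A y k) U then 1 else 0

/-- second moment -/
theorem Ex_none_le {Υ ι : Type} [DecidableEq Υ] [DecidableEq ι] {p : J → ℝ} (h0 : ∀ j, 0 ≤ p j)
    (h1 : ∀ j, p j ≤ 1) (A : Υ → ι → Finset J) (w : Υ → ι → ℝ) (M : Υ → Finset ι)
    (Y : Finset Υ) {L : ℝ}
    (hw : ∀ y ∈ Y, ∀ k ∈ M y, 0 ≤ w y k)
    (hA : ∀ y ∈ Y, ∀ k ∈ M y, Real.exp (-(w y k)) ≤ 1 - ∏ j ∈ A y k, (1 - p j))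
    (hL : ∀ y ∈ Y, ∀ j, ∑ k ∈ (M y).filter (fun k => j ∈ A y k), w y k ≤ L)
    (hO : ∀ y ∈ Y, ∀ y' ∈ Y, y ≠ y' →
      ∑ j ∈ ((M y).biUnion (A y)) ∩ ((M y').biUnion (A y')), p j ≤ Real.exp (-2 * L) / 2)
    (hm : 1 ≤ ∑ y ∈ Y, Real.exp (- ∑ k ∈ M y, w y k)) :
    Ex p (noHit A M Y) ≤ 2 / 3 := by
  set h : Υ → Finset J → ℝ := fun y => hit (A y) (M y) with hh
  set Z : Finset J → ℝ := fun U => ∑ y ∈ Y, h y U with hZ
  set m := Ex p Z with hmdef
  have hmsum : m = ∑ y ∈ Y, Ex p (h y) := Ex_sum p Y h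
  have hm1 : 1 ≤ m := by
    rw [hmsum]
    exact hm.trans (Finset.sum_le_sum fun y hy => Ex_hit_ge h0 h1 (A y) (w y) (M y) (hA y hy))
  have hZZ : Ex p (fun U => Z U * Z U) ≤ m + 2 * m ^ 2 := by
    have e1 : Ex p (fun U => Z U * Z U)
        = ∑ y ∈ Y, ∑ y' ∈ Y, Ex p (fun U => h y U * h y' U) := by
      have : (fun U => Z U * Z U) = fun U => ∑ y ∈ Y, ∑ y' ∈ Y, h y U * h y' U := by
        funext U
        simp only [hZ]
        rw [Finset.sum_mul_sum]
      rw [this]
      rw [Ex_sum p Y (fun y U => ∑ y' ∈ Y, h y U * h y' U)]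
      exact Finset.sum_congr rfl fun y _ => Ex_sum p Y (fun y' U => h y U * h y' U)
    have e2 : ∀ y ∈ Y, ∑ y' ∈ Y, Ex p (fun U => h y U * h y' U)
        ≤ Ex p (h y) + 2 * (Ex p (h y) * m) := by
      intro y hy
      have e3 : ∀ y' ∈ Y, Ex p (fun U => h y U * h y' U)
          ≤ (if y' = y then Ex p (h y) else 0) + 2 * (Ex p (h y) * Ex p (h y')) := by
        intro y' hy'
        by_cases hyy : y' = y
        · rw [if_pos hyy, hyy]
          have : (fun U => h y U * h y U) = h y := by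
            funext U; exact hit_sq (A y) (M y) U
          rw [this]
          have := Ex_nonneg h0 h1 (F := h y) (hit_nonneg (A y) (M y))
          nlinarith
        · rw [if_neg hyy, zero_add]
          exact pair_le h0 h1 (A y) (A y') (w y) (w y') (M y) (M y') (hw y hy) (hw y' hy')
            (hA y hy) (hA y' hy') (hL y hy) (hL y' hy') (hO y hy y' hy' (Ne.symm hyy))
      refine (Finset.sum_le_sum e3).trans (le_of_eq ?_)
      rw [Finset.sum_add_distrib, Finset.sum_ite_eq', if_pos hy, ← Finset.mul_sum,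
        ← Finset.mul_sum, ← hmsum]
    rw [e1]
    refine (Finset.sum_le_sum e2).trans (le_of_eq ?_)
    rw [Finset.sum_add_distrib, ← Finset.mul_sum, ← Finset.sum_mul, ← hmsum]
    ring
  -- indicator of Z > 0
  set N : Finset J → ℝ := noHit A M Y with hN
  have hNZ : ∀ U, N U = 1 ∧ Z U = 0 ∨ N U = 0 := by
    intro U
    by_cases hc : ∀ y ∈ Y, ∃ k ∈ M y, Disjoint (A y k) U
    · left
      refine ⟨by rw [hN]; unfold noHit; rw [if_pos hc], Finset.sum_eq_zero fun y hy => ?_⟩
      obtain ⟨k, hk, hd⟩ := hc y hy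
      show hit (A y) (M y) U = 0
      unfold hit
      rw [if_neg]
      intro h'; exact h' k hk hd
    · right
      rw [hN]; unfold noHit; rw [if_neg hc]
  set t := 1 + 2 * m with ht
  have hsq : 0 ≤ Ex p (fun U => (Z U - t * (1 - N U)) ^ 2) :=
    Ex_nonneg h0 h1 fun U => sq_nonneg _
  have hexp : Ex p (fun U => (Z U - t * (1 - N U)) ^ 2)
      = Ex p (fun U => Z U * Z U) + (-(2 * t)) * m + t ^ 2 * (1 - Ex p N) := by
    have e4 : (fun U => (Z U - t * (1 - N U)) ^ 2)
        = fun U => (Z U * Z U + (-(2 * t)) * Z U) + (t ^ 2 + (-(t ^ 2)) * N U) := by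
      funext U
      rcases hNZ U with ⟨hN1, hZ0⟩ | hN0
      · rw [hN1, hZ0]; ring
      · rw [hN0]; ring
    rw [e4, Ex_add p (fun U => Z U * Z U + (-(2 * t)) * Z U) (fun U => t ^ 2 + (-(t ^ 2)) * N U),
      Ex_add p (fun U => Z U * Z U) (fun U => (-(2 * t)) * Z U), Ex_smul, ← hmdef,
      Ex_add p (fun _ => t ^ 2) (fun U => (-(t ^ 2)) * N U), Ex_smul, Ex_const]
    ring
  rw [hexp] at hsq
  have ht0 : 0 < t := by rw [ht]; linarith
  have h5 : t * m ≤ t ^ 2 * (1 - Ex p N) := by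
    have : m + 2 * m ^ 2 = t * m := by rw [ht]; ring
    nlinarith
  have h6 : m ≤ t * (1 - Ex p N) := by
    have : t * m ≤ t * (t * (1 - Ex p N)) := by
      calc t * m ≤ t ^ 2 * (1 - Ex p N) := h5
        _ = t * (t * (1 - Ex p N)) := by ring
    exact le_of_mul_le_mul_left this ht0
  by_contra hcon
  push Not at hcon
  have h7 : t * (1 - Ex p N) < t * (1 / 3) := by
    refine mul_lt_mul_of_pos_left ?_ ht0
    linarith
  rw [ht] at h7 h6
  linarith

omit [Fintype J] in
/-- `noHit` only depends on the trace -/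
theorem none_congr {Υ ι : Type} [DecidableEq Υ] [DecidableEq ι] (A : Υ → ι → Finset J)
    (M : Υ → Finset ι) (Y : Finset Υ) {B : Finset J}
    (hB : ∀ y ∈ Y, ∀ k ∈ M y, A y k ⊆ B) {U V : Finset J} (h : U ∩ B = V ∩ B) :
    noHit A M Y U = noHit A M Y V := by
  have h1 : ∀ y ∈ Y, ∀ k ∈ M y, (Disjoint (A y k) U ↔ Disjoint (A y k) V) := by
    intro y hy k hk
    have hAB := hB y hy k hk
    have h1 : ∀ W : Finset J, Disjoint (A y k) W ↔ Disjoint (A y k) (W ∩ B) := by
      intro W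
      rw [Finset.disjoint_left, Finset.disjoint_left]
      constructor
      · intro hd j hj hjW; exact hd hj (Finset.mem_inter.1 hjW).1
      · intro hd j hj hjW; exact hd hj (Finset.mem_inter.2 ⟨hjW, hAB hj⟩)
    rw [h1 U, h1 V, h]
  unfold noHit
  have h2 : (∀ y ∈ Y, ∃ k ∈ M y, Disjoint (A y k) U) ↔ ∀ y ∈ Y, ∃ k ∈ M y, Disjoint (A y k) V := by
    refine forall₂_congr fun y hy => exists_congr fun k => ?_
    constructor
    · rintro ⟨hk, hd⟩; exact ⟨hk, (h1 y hy k hk).1 hd⟩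
    · rintro ⟨hk, hd⟩; exact ⟨hk, (h1 y hy k hk).2 hd⟩
  by_cases hc : ∀ y ∈ Y, ∃ k ∈ M y, Disjoint (A y k) U
  · rw [if_pos hc, if_pos (h2.1 hc)]
  · rw [if_neg hc, if_neg fun h' => hc (h2.2 h')]

omit [Fintype J] in
theorem none_nonneg {Υ ι : Type} (A : Υ → ι → Finset J) (M : Υ → Finset ι) (Y : Finset Υ)
    (U : Finset J) : 0 ≤ noHit A M Y U := by
  unfold noHit; split_ifs <;> norm_num

/-- independence of the groups -/
theorem Ex_prod_none {Γ Υ ι : Type} [DecidableEq Γ] [DecidableEq Υ] [DecidableEq ι] {p : J → ℝ}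
    (h0 : ∀ j, 0 ≤ p j) (h1 : ∀ j, p j ≤ 1)
    (A : Υ → ι → Finset J) (M : Υ → Finset ι) (Y : Γ → Finset Υ)
    (hD : ∀ g g', g ≠ g' → ∀ y ∈ Y g, ∀ y' ∈ Y g', ∀ k ∈ M y, ∀ k' ∈ M y',
      Disjoint (A y k) (A y' k'))
    (hN : ∀ g, Ex p (noHit A M (Y g)) ≤ 2 / 3) (s : Finset Γ) :
    Ex p (fun U => ∏ g ∈ s, noHit A M (Y g) U) ≤ (2 / 3) ^ s.card := by
  induction s using Finset.induction_on with
  | empty => simp [Ex_const]
  | insert a s ha ih =>
    have e : (fun U => ∏ g ∈ insert a s, noHit A M (Y g) U)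
        = fun U => noHit A M (Y a) U * ∏ g ∈ s, noHit A M (Y g) U := by
      funext U
      rw [Finset.prod_insert ha]
    have hm := Ex_mul p (A := (Y a).biUnion fun y => (M y).biUnion (A y))
      (B := s.biUnion fun g => (Y g).biUnion fun y => (M y).biUnion (A y))
      (F := noHit A M (Y a)) (G := fun U => ∏ g ∈ s, noHit A M (Y g) U) ?_ ?_ ?_
    · rw [e, hm, Finset.card_insert_of_notMem ha, pow_succ, mul_comm]
      exact mul_le_mul ih (hN a) (Ex_nonneg h0 h1 (none_nonneg _ _ _)) (by positivity)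
    · rw [Finset.disjoint_left]
      intro j hj hj'
      simp only [Finset.mem_biUnion] at hj hj'
      obtain ⟨y, hy, k, hk, hj⟩ := hj
      obtain ⟨g, hg, y', hy', k', hk', hj'⟩ := hj'
      have hga : a ≠ g := fun h => ha (h ▸ hg)
      exact Finset.disjoint_left.1 (hD a g hga y hy y' hy' k hk k' hk') hj hj'
    · intro U V h
      refine none_congr A M (Y a) (fun y hy k hk => ?_) h
      intro j hj
      simp only [Finset.mem_biUnion]
      exact ⟨y, hy, k, hk, hj⟩
    · intro U V h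
      refine Finset.prod_congr rfl fun g hg => none_congr A M (Y g) (fun y hy k hk => ?_) h
      intro j hj
      simp only [Finset.mem_biUnion]
      exact ⟨g, hg, y, hy, k, hk, hj⟩

end PP

open PP in
/-- Part P -/
theorem partP : Vale.Agent.P230.PartP := by
  classical
  intro J Γ Υ ι _ _ _ _ _ p Y M A w L h0 h1 _ hw hA hL hD hO hm
  have h := Ex_prod_none h0 h1 A M Y hD (fun g => Ex_none_le h0 h1 A w M (Y g) (hw g) (hA g)
    (hL g) (hO g) (hm g)) univ
  rw [Finset.card_univ] at h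
  refine le_trans (le_of_eq ?_) h
  unfold Ex
  rw [Finset.sum_filter]
  refine Finset.sum_congr rfl fun U _ => ?_
  by_cases hc : ∀ g, ∀ y ∈ Y g, ∃ k ∈ M y, Disjoint (A y k) U
  · rw [if_pos hc]
    have : ∏ g, noHit A M (Y g) U = 1 := Finset.prod_eq_one fun g _ => by
      unfold noHit; rw [if_pos (hc g)]
    show bw p U = bw p U * ∏ g, noHit A M (Y g) U
    rw [this, mul_one]
  · rw [if_neg hc]
    push Not at hc
    obtain ⟨g, y, hy, hk⟩ := hc
    have : ∏ g, noHit A M (Y g) U = 0 := by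
      refine Finset.prod_eq_zero (Finset.mem_univ g) ?_
      unfold noHit
      rw [if_neg]
      intro h'
      obtain ⟨k, hk1, hk2⟩ := h' y hy
      exact hk k hk1 hk2
    show 0 = bw p U * ∏ g, noHit A M (Y g) U
    rw [this, mul_zero]

end Vale.Agent.P230
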