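import Mathlib
import Vale.Agent.P230.Interface
import Vale.Agent.P230.Comb
import Vale.Agent.P230.Kill

/-!
# P230 : tiles
-/

namespace Vale.Agent.P230.Tiles

open Finset MeasureTheory Metric Filter Vale.Agent.P230 Vale.Agent.P230.Comb Vale.Agent.P230.Kill
open scoped RealInnerProductSpace

open Classical in
/-- degree bound for shifts -/
lemma degree_bound {n : ℕ} (hn : 1 ≤ n) (V X : Finset (EE n)) (v : EE n) {ε ρ : ℝ} (hε : 0 < ε)
    (hρ : 0 ≤ ρ) (hsep : ∀ a ∈ V, ∀ b ∈ V, a ≠ b → ε ≤ dist a b) :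
    ((V.filter (fun w => ∃ x ∈ X, ∃ x' ∈ X, dist w (v - x + x') ≤ ρ)).card : ℝ)
      ≤ (X.card : ℝ) ^ 2 * (1 + 2 * ρ / ε) ^ n := by
  have hsub : V.filter (fun w => ∃ x ∈ X, ∃ x' ∈ X, dist w (v - x + x') ≤ ρ)
      ⊆ X.biUnion (fun x => X.biUnion (fun x' => V.filter (fun w => dist w (v - x + x') ≤ ρ))) := by
    intro w hw
    rw [mem_filter] at hw
    obtain ⟨hwV, x, hx, x', hx', hd⟩ := hw
    rw [mem_biUnion]
    refine ⟨x, hx, ?_⟩
    rw [mem_biUnion]
    exact ⟨x', hx', mem_filter.2 ⟨hwV, hd⟩⟩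
  have h1 : ∀ x x' : EE n, ((V.filter (fun w => dist w (v - x + x') ≤ ρ)).card : ℝ)
      ≤ (1 + 2 * ρ / ε) ^ n := by
    intro x x'
    apply packing hn _ (v - x + x') hε hρ
    · intro a ha b hb hab
      exact hsep a (mem_filter.1 ha).1 b (mem_filter.1 hb).1 hab
    · intro a ha
      exact (mem_filter.1 ha).2
  calc ((V.filter (fun w => ∃ x ∈ X, ∃ x' ∈ X, dist w (v - x + x') ≤ ρ)).card : ℝ)
      ≤ ((X.biUnion (fun x => X.biUnion
          (fun x' => V.filter (fun w => dist w (v - x + x') ≤ ρ)))).card : ℝ) := by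
        exact_mod_cast card_le_card hsub
    _ ≤ ∑ x ∈ X, ((X.biUnion (fun x' => V.filter (fun w => dist w (v - x + x') ≤ ρ))).card : ℝ) := by
        exact_mod_cast card_biUnion_le
    _ ≤ ∑ x ∈ X, ∑ x' ∈ X, ((V.filter (fun w => dist w (v - x + x') ≤ ρ)).card : ℝ) := by
        apply sum_le_sum
        intro x _
        exact_mod_cast card_biUnion_le
    _ ≤ ∑ x ∈ X, ∑ x' ∈ X, (1 + 2 * ρ / ε) ^ n :=
        sum_le_sum fun x _ => sum_le_sum fun x' _ => h1 x x'
    _ = (X.card : ℝ) ^ 2 * (1 + 2 * ρ / ε) ^ n := by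
        rw [sum_const, sum_const, nsmul_eq_mul, nsmul_eq_mul]; ring

open Classical in
theorem tile_prob (hP : PartP) {n m : ℕ} {A κ η S : ℝ} (F : Facets n A κ η)
    (P : Params n m A κ η S) (X T B : Finset (EE n)) (N₀ : ℝ) (hXne : X.Nonempty)
    (hXN : (X.card : ℝ) ≤ N₀)
    (hTsep : ∀ a ∈ T, ∀ b ∈ T, a ≠ b → 1 / 256 ≤ dist a b)
    (hTcard : (128 : ℝ) ^ n ≤ T.card)
    (hBn : ∀ b ∈ B, ‖b‖ ≤ 1 / 1024)
    (hBsep : ∀ a ∈ B, ∀ b ∈ B, a ≠ b → 1 / (m : ℝ) ≤ dist a b)
    (hBcard : ((m : ℝ) / 1024) ^ n ≤ B.card)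
    (hbad : (((T ×ˢ B).filter (fun tb => ¬ Good n m η S X (tb.1 + tb.2))).card : ℝ)
      ≤ (T.card : ℝ) * B.card / 4)
    (hcnt : Real.exp ((5 * A + 6) * S) * (2 * N₀ ^ 2 * 3 ^ n) ≤ ((m : ℝ) / 1024) ^ n)
    (G : ℕ) (hG : (G : ℝ) * (2 * N₀ ^ 2 * 4 ^ n) ≤ 128 ^ n) :
    ∑ U ∈ univ.filter (fun U : Finset (Fin F.N × Fin (n + 1)) => ∀ t ∈ T, ∀ b ∈ B, ∃ x ∈ X,
      ‖t + b - x‖ ≤ 1 + η ∧ ∀ j ∈ U, ¬ tau + η < ⟪F.u j.1, t + b - x⟫), bw (pp F) U
      ≤ (2 / 3 : ℝ) ^ G := by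
  have hn1 : 1 ≤ n := by have := P.hn; omega
  have hm1 : (1 : ℝ) ≤ m := by exact_mod_cast P.hm
  have hm0 : (0 : ℝ) < m := by linarith
  have hXc : (1 : ℝ) ≤ X.card := by exact_mod_cast hXne.card_pos
  have hN1 : 1 ≤ N₀ := hXc.trans hXN
  have hX2 : (X.card : ℝ) ^ 2 ≤ N₀ ^ 2 := pow_le_pow_left₀ (by linarith) hXN 2
  obtain ⟨x0, hx0⟩ := hXne
  have hBpos : (0 : ℝ) < B.card := lt_of_lt_of_le (by positivity) hBcard
  have hTpos : (0 : ℝ) < T.card := lt_of_lt_of_le (by positivity) hTcard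
  -- good offsets of a tile
  set V : EE n → Finset (EE n) := fun t => B.filter (fun b => Good n m η S X (t + b)) with hV
  set Tg : Finset (EE n) := T.filter (fun t => (B.card : ℝ) / 2 ≤ (V t).card) with hTg
  have hTgcard : (T.card : ℝ) / 2 ≤ Tg.card := by
    have h1 : ((T ×ˢ B).filter (fun tb => ¬ Good n m η S X (tb.1 + tb.2))).card
        = ∑ t ∈ T, (B.filter (fun b => ¬ Good n m η S X (t + b))).card := by
      rw [card_filter, sum_product]
      apply sum_congr rfl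
      intro t _
      rw [card_filter]
    have h2 : ∀ t, ((B.filter (fun b => ¬ Good n m η S X (t + b))).card : ℝ)
        = B.card - (V t).card := by
      intro t
      have := card_filter_add_card_filter_not (s := B) (fun b => Good n m η S X (t + b))
      have h' : ((B.filter (fun b => Good n m η S X (t + b))).card : ℝ)
        + ((B.filter (fun b => ¬ Good n m η S X (t + b))).card : ℝ) = B.card := by
        exact_mod_cast this
      rw [hV]
      linarith
    have h3 : ∑ t ∈ T.filter (fun t => ¬ (B.card : ℝ) / 2 ≤ (V t).card), (B.card : ℝ) / 2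
        ≤ ∑ t ∈ T, ((B.filter (fun b => ¬ Good n m η S X (t + b))).card : ℝ) := by
      calc _ ≤ ∑ t ∈ T.filter (fun t => ¬ (B.card : ℝ) / 2 ≤ (V t).card),
            ((B.filter (fun b => ¬ Good n m η S X (t + b))).card : ℝ) := by
            apply sum_le_sum
            intro t ht
            rw [mem_filter] at ht
            rw [h2 t]
            have := ht.2
            push Not at this
            linarith
        _ ≤ _ := sum_le_sum_of_subset_of_nonneg (filter_subset _ _)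
            (fun t _ _ => Nat.cast_nonneg _)
    rw [h1] at hbad
    push_cast at hbad
    rw [sum_const, nsmul_eq_mul] at h3
    have h4 := card_filter_add_card_filter_not (s := T) (fun t => (B.card : ℝ) / 2 ≤ (V t).card)
    have h5 : (Tg.card : ℝ) + ((T.filter (fun t => ¬ (B.card : ℝ) / 2 ≤ (V t).card)).card : ℝ)
        = T.card := by
      rw [hTg]
      exact_mod_cast h4
    have h6 : ((T.filter (fun t => ¬ (B.card : ℝ) / 2 ≤ (V t).card)).card : ℝ) * ((B.card : ℝ) / 2)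
        ≤ (T.card : ℝ) / 2 * ((B.card : ℝ) / 2) := by
      calc _ ≤ _ := h3
        _ ≤ _ := hbad
        _ = _ := by ring
    have h7 := le_of_mul_le_mul_right h6 (by positivity)
    linarith
  -- conflict-free tiles
  obtain ⟨I, hIsub, hIind, hIcard⟩ := exists_indep Tg
    (fun t t' => ∃ b ∈ B, ∃ b' ∈ B, ∃ x ∈ X, ∃ x' ∈ X, ‖(t + b - x) - (t' + b' - x')‖ < 1 / 256)
    (by
      rintro t t' ⟨b, hb, b', hb', x, hx, x', hx', h⟩
      refine ⟨b', hb', b, hb, x', hx', x, hx, ?_⟩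
      have e1 : (t' + b' - x') - (t + b - x) = -((t + b - x) - (t' + b' - x')) := by abel
      rw [e1, norm_neg]
      exact h)
    (N₀ ^ 2 * 4 ^ n) (by
      intro t ht
      have hsub : Tg.filter (fun t' => (∃ b ∈ B, ∃ b' ∈ B, ∃ x ∈ X, ∃ x' ∈ X,
          ‖(t + b - x) - (t' + b' - x')‖ < 1 / 256) ∨ t' = t)
          ⊆ T.filter (fun w => ∃ x ∈ X, ∃ x' ∈ X, dist w (t - x + x') ≤ 3 / 512) := by
        intro t' ht'
        rw [mem_filter] at ht' ⊢
        refine ⟨(mem_filter.1 ht'.1).1, ?_⟩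
        rcases ht'.2 with ⟨b, hb, b', hb', x, hx, x', hx', h⟩ | rfl
        · refine ⟨x, hx, x', hx', ?_⟩
          rw [dist_eq_norm]
          have e1 : t' - (t - x + x') = -((t + b - x) - (t' + b' - x')) + b - b' := by abel
          rw [e1]
          have e2 := norm_sub_le (-((t + b - x) - (t' + b' - x')) + b) b'
          have e3 := norm_add_le (-((t + b - x) - (t' + b' - x'))) b
          rw [norm_neg] at e3
          have e4 := hBn b hb
          have e5 := hBn b' hb'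
          linarith
        · refine ⟨x0, hx0, x0, hx0, ?_⟩
          rw [sub_add_cancel, dist_self]
          norm_num
      have h1 := degree_bound hn1 T X t (ε := 1 / 256) (ρ := 3 / 512) (by norm_num) (by norm_num)
        hTsep
      have h2 : (1 : ℝ) + 2 * (3 / 512) / (1 / 256) = 4 := by norm_num
      rw [h2] at h1
      calc ((Tg.filter (fun t' => (∃ b ∈ B, ∃ b' ∈ B, ∃ x ∈ X, ∃ x' ∈ X,
          ‖(t + b - x) - (t' + b' - x')‖ < 1 / 256) ∨ t' = t)).card : ℝ)
          ≤ ((T.filter (fun w => ∃ x ∈ X, ∃ x' ∈ X, dist w (t - x + x') ≤ 3 / 512)).card : ℝ) := by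
            exact_mod_cast card_le_card hsub
        _ ≤ (X.card : ℝ) ^ 2 * 4 ^ n := h1
        _ ≤ N₀ ^ 2 * 4 ^ n := mul_le_mul_of_nonneg_right hX2 (by positivity))
  -- independent points inside tiles
  have hY : ∀ t ∈ I, ∃ Yt ⊆ V t, (∀ b ∈ Yt, ∀ b' ∈ Yt, b ≠ b' → ∀ x ∈ X, ∀ x' ∈ X,
      1 / (m : ℝ) ≤ ‖(b - x) - (b' - x')‖) ∧ Real.exp ((5 * A + 6) * S) ≤ Yt.card := by
    intro t ht
    obtain ⟨Yt, hYsub, hYind, hYcard⟩ := exists_indep (V t)
      (fun b b' => ∃ x ∈ X, ∃ x' ∈ X, ‖(b - x) - (b' - x')‖ < 1 / (m : ℝ))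
      (by
        rintro b b' ⟨x, hx, x', hx', h⟩
        refine ⟨x', hx', x, hx, ?_⟩
        have e1 : (b' - x') - (b - x) = -((b - x) - (b' - x')) := by abel
        rw [e1, norm_neg]
        exact h)
      (N₀ ^ 2 * 3 ^ n) (by
        intro b hb
        have hsub : (V t).filter (fun b' => (∃ x ∈ X, ∃ x' ∈ X,
            ‖(b - x) - (b' - x')‖ < 1 / (m : ℝ)) ∨ b' = b)
            ⊆ B.filter (fun w => ∃ x ∈ X, ∃ x' ∈ X, dist w (b - x + x') ≤ 1 / (m : ℝ)) := by
          intro b' hb'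
          rw [mem_filter] at hb' ⊢
          refine ⟨(mem_filter.1 hb'.1).1, ?_⟩
          rcases hb'.2 with ⟨x, hx, x', hx', h⟩ | rfl
          · refine ⟨x, hx, x', hx', ?_⟩
            rw [dist_eq_norm]
            have e1 : b' - (b - x + x') = -((b - x) - (b' - x')) := by abel
            rw [e1, norm_neg]
            exact h.le
          · refine ⟨x0, hx0, x0, hx0, ?_⟩
            rw [sub_add_cancel, dist_self]
            positivity
        have h1 := degree_bound hn1 B X b (ε := 1 / (m : ℝ)) (ρ := 1 / (m : ℝ)) (by positivity)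
          (by positivity) hBsep
        have h2 : (1 : ℝ) + 2 * (1 / (m : ℝ)) / (1 / (m : ℝ)) = 3 := by
          field_simp; norm_num
        rw [h2] at h1
        calc (((V t).filter (fun b' => (∃ x ∈ X, ∃ x' ∈ X,
            ‖(b - x) - (b' - x')‖ < 1 / (m : ℝ)) ∨ b' = b)).card : ℝ)
            ≤ ((B.filter (fun w => ∃ x ∈ X, ∃ x' ∈ X,
                dist w (b - x + x') ≤ 1 / (m : ℝ))).card : ℝ) := by
              exact_mod_cast card_le_card hsub
          _ ≤ (X.card : ℝ) ^ 2 * 3 ^ n := h1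
          _ ≤ N₀ ^ 2 * 3 ^ n := mul_le_mul_of_nonneg_right hX2 (by positivity))
    refine ⟨Yt, hYsub, ?_, ?_⟩
    · intro b hb b' hb' hbb x hx x' hx'
      by_contra hcon
      push Not at hcon
      exact hYind b hb b' hb' hbb ⟨x, hx, x', hx', hcon⟩
    · have h1 : (B.card : ℝ) / 2 ≤ (V t).card := (mem_filter.1 (hIsub ht)).2
      have h2 : Real.exp ((5 * A + 6) * S) * (N₀ ^ 2 * 3 ^ n) ≤ (Yt.card : ℝ) * (N₀ ^ 2 * 3 ^ n) := by
        have : Real.exp ((5 * A + 6) * S) * (2 * N₀ ^ 2 * 3 ^ n)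
            = 2 * (Real.exp ((5 * A + 6) * S) * (N₀ ^ 2 * 3 ^ n)) := by ring
        rw [this] at hcnt
        linarith
      exact le_of_mul_le_mul_right h2 (by positivity)
  choose! Yt hYsub hYind hYcard using hY
  have hGI : G ≤ I.card := by
    have h1 : (G : ℝ) * (N₀ ^ 2 * 4 ^ n) ≤ (I.card : ℝ) * (N₀ ^ 2 * 4 ^ n) := by
      have : (G : ℝ) * (2 * N₀ ^ 2 * 4 ^ n) = 2 * (G * (N₀ ^ 2 * 4 ^ n)) := by ring
      rw [this] at hG
      linarith
    have h2 := le_of_mul_le_mul_right h1 (by positivity)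
    exact_mod_cast h2
  -- apply the kill theorem
  have hmain := kill_groups hP F P X {t // t ∈ I}
    (fun g => (Yt g.1).image (fun b => g.1 + b)) ?_ ?_ ?_ ?_
  · rw [Fintype.card_coe] at hmain
    have h1 : (2 / 3 : ℝ) ^ I.card ≤ (2 / 3 : ℝ) ^ G :=
      pow_le_pow_of_le_one (by norm_num) (by norm_num) hGI
    refine le_trans ?_ (hmain.trans h1)
    apply sum_le_sum_of_subset_of_nonneg
    · intro U hU
      rw [mem_filter] at hU ⊢
      refine ⟨mem_univ _, ?_⟩
      intro g y hy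
      rw [mem_image] at hy
      obtain ⟨b, hb, rfl⟩ := hy
      have hbB : b ∈ B := (mem_filter.1 (hYsub g.1 g.2 hb)).1
      have htT : g.1 ∈ T := (mem_filter.1 (hIsub g.2)).1
      exact hU.2 g.1 htT b hbB
    · intro U _ _
      exact bw_nonneg (pp_nonneg F P) (fun j => (pp_le F P j).trans (by norm_num)) U
  · intro g y hy
    rw [mem_image] at hy
    obtain ⟨b, hb, rfl⟩ := hy
    exact (mem_filter.1 (hYsub g.1 g.2 hb)).2
  · intro g g' hgg y hy y' hy' x hx x' hx'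
    rw [mem_image] at hy hy'
    obtain ⟨b, hb, rfl⟩ := hy
    obtain ⟨b', hb', rfl⟩ := hy'
    have hbB : b ∈ B := (mem_filter.1 (hYsub g.1 g.2 hb)).1
    have hbB' : b' ∈ B := (mem_filter.1 (hYsub g'.1 g'.2 hb')).1
    by_contra hcon
    push Not at hcon
    exact hIind g.1 g.2 g'.1 g'.2 (fun h => hgg (Subtype.ext h))
      ⟨b, hbB, b', hbB', x, hx, x', hx', hcon⟩
  · intro g y hy y' hy' hyy x hx x' hx'
    rw [mem_image] at hy hy'
    obtain ⟨b, hb, rfl⟩ := hy
    obtain ⟨b', hb', rfl⟩ := hy'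
    have hbb : b ≠ b' := fun h => hyy (by rw [h])
    have := hYind g.1 g.2 b hb b' hb' hbb x hx x' hx'
    have e1 : (g.1 + b - x) - (g.1 + b' - x') = (b - x) - (b' - x') := by abel
    rw [e1]
    exact this
  · intro g
    rw [card_image_of_injective _ (add_right_injective g.1)]
    exact hYcard g.1 g.2

end Vale.Agent.P230.Tiles
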