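import Mathlib
import Vale.Agent.P230.Interface
import Vale.Agent.P230.Comb
import Vale.Agent.P230.Kill
import Vale.Agent.P230.Tiles
import Vale.Agent.P230.PartP

set_option linter.dupNamespace false

/-!
# P230 : the random body
-/

namespace Vale.Agent.P230.Body

open Finset MeasureTheory Metric Filter Vale.Agent.P230 Vale.Agent.P230.Comb Vale.Agent.P230.Kill
open scoped RealInnerProductSpace

/-- the body defined by the set `U` of facets -/
def Body {n : ℕ} {A κ η : ℝ} (F : Facets n A κ η) (U : Finset (Fin F.N × Fin (n + 1))) :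
    Set (EE n) := {x | ‖x‖ ≤ 1 ∧ ∀ j ∈ U, ⟪F.u j.1, x⟫ ≤ tau}

lemma isClosed_body {n : ℕ} {A κ η : ℝ} (F : Facets n A κ η)
    (U : Finset (Fin F.N × Fin (n + 1))) : IsClosed (Body F U) := by
  have h : Body F U = closedBall 0 1 ∩ ⋂ j ∈ U, {x : EE n | ⟪F.u j.1, x⟫ ≤ tau} := by
    ext x
    simp [Body]
  rw [h]
  apply isClosed_closedBall.inter
  apply isClosed_biInter
  intro j _
  exact isClosed_le (by fun_prop) continuous_const

lemma body_subset {n : ℕ} {A κ η : ℝ} (F : Facets n A κ η)
    (U : Finset (Fin F.N × Fin (n + 1))) : Body F U ⊆ closedBall 0 1 := by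
  intro x hx
  rw [mem_closedBall, dist_zero_right]
  exact hx.1

lemma tau_pos : 0 < tau := by unfold tau; norm_num

lemma tau_lt : tau < 1 := by unfold tau; norm_num

lemma body_convexBody {n : ℕ} {A κ η : ℝ} (F : Facets n A κ η)
    (U : Finset (Fin F.N × Fin (n + 1))) : IsConvexBody (Body F U) := by
  refine ⟨?_, ?_, ?_⟩
  · exact (isCompact_closedBall 0 1).of_isClosed_subset (isClosed_body F U) (body_subset F U)
  · have h : Body F U = closedBall 0 1 ∩ ⋂ j ∈ U, {x : EE n | ⟪F.u j.1, x⟫ ≤ tau} := by
      ext x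
      simp [Body]
    rw [h]
    apply (convex_closedBall 0 1).inter
    apply convex_iInter₂
    intro j _
    exact convex_halfSpace_le (innerₛₗ ℝ (F.u j.1)).isLinear tau
  · refine ⟨0, ?_⟩
    rw [mem_interior]
    refine ⟨ball 0 tau, ?_, isOpen_ball, mem_ball_self tau_pos⟩
    intro x hx
    rw [mem_ball, dist_zero_right] at hx
    refine ⟨(hx.trans tau_lt).le, ?_⟩
    intro j _
    calc ⟪F.u j.1, x⟫ ≤ ‖F.u j.1‖ * ‖x‖ := real_inner_le_norm _ _
      _ ≤ 1 * tau := mul_le_mul (F.hu j.1) hx.le (norm_nonneg _) zero_le_one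
      _ = tau := one_mul _

/-- avoiding probability -/
lemma sum_avoid {J : Type} [Fintype J] [DecidableEq J] (p : J → ℝ) (T : Finset J) :
    ∑ U ∈ univ.filter (fun U : Finset J => Disjoint U T), bw p U = ∏ j ∈ T, (1 - p j) := by
  classical
  have h := PP.sum_bwOn_mul p univ (fun j => if j ∈ T then (0 : ℝ) else 1)
  rw [powerset_univ] at h
  have h1 : ∀ U : Finset J, (∏ j ∈ U, if j ∈ T then (0 : ℝ) else 1)
      = if Disjoint U T then 1 else 0 := by
    intro U
    split_ifs with hd
    · apply prod_eq_one
      intro j hj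
      rw [if_neg (Finset.disjoint_left.1 hd hj)]
    · rw [Finset.not_disjoint_iff] at hd
      obtain ⟨j, hjU, hjT⟩ := hd
      exact prod_eq_zero hjU (if_pos hjT)
  rw [sum_filter]
  calc ∑ U : Finset J, (if Disjoint U T then bw p U else 0)
      = ∑ S : Finset J, PP.bwOn p univ S * ∏ j ∈ S, (if j ∈ T then (0 : ℝ) else 1) := by
        apply sum_congr rfl
        intro U _
        rw [h1 U, ← PP.bw_eq]
        split_ifs <;> simp
    _ = _ := h
    _ = ∏ j ∈ T, (1 - p j) := by
        rw [← prod_subset (subset_univ T)]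
        · apply prod_congr rfl
          intro j hj
          rw [if_pos hj]
          ring
        · intro j _ hj
          rw [if_neg hj]
          ring

lemma one_sub_ge {p : ℝ} (h0 : 0 ≤ p) (h1 : p ≤ 1 / 2) : Real.exp (-(2 * p)) ≤ 1 - p := by
  rw [Real.exp_neg, inv_le_comm₀ (Real.exp_pos _) (by linarith)]
  have h2 := Real.add_one_le_exp (2 * p)
  refine le_trans ?_ h2
  rw [inv_le_iff_one_le_mul₀ (by linarith)]
  nlinarith

section

variable {n m : ℕ} {A κ η S : ℝ} (F : Facets n A κ η) (P : Params n m A κ η S)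

open Classical in
include P in
/-- probability that a point is in the body -/
lemma prob_mem {v : EE n} (hv : ‖v‖ ≤ 1) :
    Real.exp (-4) ≤ ∑ U ∈ univ.filter (fun U => v ∈ Body F U), bw (pp F) U := by
  set T := (univ.filter (fun i => tau < ⟪F.u i, v⟫)) ×ˢ (univ : Finset (Fin (n + 1))) with hT
  have h1 : univ.filter (fun U => v ∈ Body F U)
      = univ.filter (fun U : Finset (Fin F.N × Fin (n + 1)) => Disjoint U T) := by
    apply filter_congr
    intro U _
    rw [Finset.disjoint_left]
    constructor
    · intro h j hj hjT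
      rw [hT, mem_product, mem_filter] at hjT
      have := h.2 j hj
      linarith [hjT.1.2]
    · intro h
      refine ⟨hv, ?_⟩
      intro j hj
      by_contra hcon
      push Not at hcon
      exact h hj (by rw [hT, mem_product]; exact ⟨mem_filter.2 ⟨mem_univ _, hcon⟩, mem_univ _⟩)
  rw [h1, sum_avoid]
  have h2 : ∑ j ∈ T, pp F j ≤ 2 := by
    rw [hT, sum_pp_all F P]
    exact F.hin v hv
  calc Real.exp (-4) ≤ Real.exp (∑ j ∈ T, -(2 * pp F j)) := by
        apply Real.exp_le_exp.2
        rw [sum_neg_distrib, ← mul_sum]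
        linarith
    _ = ∏ j ∈ T, Real.exp (-(2 * pp F j)) := Real.exp_sum _ _
    _ ≤ ∏ j ∈ T, (1 - pp F j) := by
        apply Finset.prod_le_prod
        · intro j _; exact (Real.exp_pos _).le
        · intro j _
          exact one_sub_ge (pp_nonneg F P j) (pp_le F P j)

include P in
/-- expected volume -/
lemma exp_vol : Real.exp (-4) * om n
    ≤ ∑ U, bw (pp F) U * (volume (Body F U)).toReal := by
  classical
  have hmeas : ∀ U, MeasurableSet (Body F U) := fun U => (isClosed_body F U).measurableSet
  have hfin : ∀ U, volume (Body F U) ≠ ⊤ := fun U =>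
    ((measure_mono (body_subset F U)).trans_lt measure_closedBall_lt_top).ne
  have hint : ∀ U, Integrable ((Body F U).indicator (fun _ => (1 : ℝ)))
      (volume : Measure (EE n)) := by
    intro U
    rw [integrable_indicator_iff (hmeas U)]
    exact integrableOn_const (hfin U)
  have h1 : ∀ U, (volume (Body F U)).toReal
      = ∫ v in closedBall (0 : EE n) 1, (Body F U).indicator (fun _ => (1 : ℝ)) v := by
    intro U
    rw [setIntegral_indicator (hmeas U), Set.inter_eq_right.2 (body_subset F U),
      setIntegral_const, smul_eq_mul, mul_one, measureReal_def]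
  have h2 : ∑ U, bw (pp F) U * (volume (Body F U)).toReal
      = ∫ v in closedBall (0 : EE n) 1, ∑ U, bw (pp F) U *
          (Body F U).indicator (fun _ => (1 : ℝ)) v := by
    rw [integral_finsetSum]
    · apply sum_congr rfl
      intro U _
      rw [h1 U, integral_const_mul]
    · intro U _
      exact ((hint U).integrableOn).const_mul _
  rw [h2]
  have h3 : Real.exp (-4) * om n = ∫ v in closedBall (0 : EE n) 1, Real.exp (-4) := by
    rw [setIntegral_const, smul_eq_mul, measureReal_def, om]
    ring
  rw [h3]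
  apply setIntegral_mono_on
  · exact integrableOn_const measure_closedBall_lt_top.ne
  · apply integrable_finsetSum
    intro U _
    exact ((hint U).integrableOn).const_mul _
  · exact measurableSet_closedBall
  · intro v hv
    rw [mem_closedBall, dist_zero_right] at hv
    refine (prob_mem F P hv).trans ?_
    rw [sum_filter]
    apply sum_le_sum
    intro U _
    rw [Set.indicator_apply]
    split_ifs <;> simp

include P in
/-- choice of a good outcome -/
lemma exists_outcome (Bad : Finset (Finset (Fin F.N × Fin (n + 1))))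
    (hBad : ∑ U ∈ Bad, bw (pp F) U ≤ 1 / 1000) :
    ∃ U, U ∉ Bad ∧ om n / 128 ≤ (volume (Body F U)).toReal := by
  classical
  have hn1 : 1 ≤ n := by have := P.hn; omega
  have hom := om_pos hn1
  by_contra hcon
  push Not at hcon
  have hbw : ∀ U, 0 ≤ bw (pp F) U := fun U =>
    bw_nonneg (pp_nonneg F P) (fun j => (pp_le F P j).trans (by norm_num)) U
  have hvol : ∀ U, (volume (Body F U)).toReal ≤ om n := by
    intro U
    exact ENNReal.toReal_mono measure_closedBall_lt_top.ne (measure_mono (body_subset F U))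
  have h1 := exp_vol F P
  have h2 : ∑ U, bw (pp F) U * (volume (Body F U)).toReal
      ≤ ∑ U ∈ Bad, bw (pp F) U * om n + ∑ U, bw (pp F) U * (om n / 128) := by
    rw [← sum_filter_add_sum_filter_not univ (fun U => U ∈ Bad)
      (fun U => bw (pp F) U * (volume (Body F U)).toReal)]
    apply add_le_add
    · have : univ.filter (fun U => U ∈ Bad) = Bad := by ext; simp
      rw [this]
      exact sum_le_sum fun U _ => mul_le_mul_of_nonneg_left (hvol U) (hbw U)
    · calc _ ≤ ∑ U ∈ univ.filter (fun U => ¬ U ∈ Bad), bw (pp F) U * (om n / 128) := by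
            apply sum_le_sum
            intro U hU
            rw [mem_filter] at hU
            exact mul_le_mul_of_nonneg_left (hcon U hU.2).le (hbw U)
        _ ≤ _ := sum_le_sum_of_subset_of_nonneg (filter_subset _ _)
            (fun U _ _ => mul_nonneg (hbw U) (by positivity))
  rw [← sum_mul, ← sum_mul, PP.sum_bw, one_mul] at h2
  have h3 : (∑ U ∈ Bad, bw (pp F) U) * om n ≤ 1 / 1000 * om n :=
    mul_le_mul_of_nonneg_right hBad hom.le
  have h4 : (1 : ℝ) / 60 ≤ Real.exp (-4) := by
    rw [Real.exp_neg, one_div]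
    apply inv_anti₀ (Real.exp_pos _)
    have h5 := Real.exp_one_lt_d9
    have h6 : Real.exp 4 = (Real.exp 1) ^ 4 := by
      rw [← Real.exp_nat_mul]; norm_num
    rw [h6]
    calc (Real.exp 1) ^ 4 ≤ 2.7182818286 ^ 4 :=
          pow_le_pow_left₀ (Real.exp_pos _).le h5.le 4
      _ ≤ 60 := by norm_num
  have h5 : 1 / 60 * om n ≤ Real.exp (-4) * om n := mul_le_mul_of_nonneg_right h4 hom.le
  linarith

end

end Vale.Agent.P230.Body
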