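import Mathlib
import Vale.Agent.P230.Interface
import Vale.Agent.P230.Comb
import Vale.Agent.P230.Kill
import Vale.Agent.P230.Tiles
import Vale.Agent.P230.PartP
import Vale.Agent.P230.Body

/-!
# P230 : the good outcome
-/

namespace Vale.Agent.P230.Outcome

open Finset MeasureTheory Metric Filter Vale.Agent.P230 Vale.Agent.P230.Comb Vale.Agent.P230.Kill
open Vale.Agent.P230.Tiles Vale.Agent.P230.Body
open scoped RealInnerProductSpace

open Classical in
lemma exists_enum {α : Type} (X : Finset α) (hX : X.Nonempty) (N : ℕ) (h : X.card ≤ N) :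
    ∃ f : Fin N → α, (∀ i, f i ∈ X) ∧ univ.image f = X := by
  obtain ⟨x0, hx0⟩ := hX
  refine ⟨fun i => if hi : i.val < X.card then (X.equivFin.symm ⟨i.val, hi⟩).val else x0, ?_, ?_⟩
  · intro i
    beta_reduce
    split_ifs with hi
    · exact (X.equivFin.symm ⟨i.val, hi⟩).2
    · exact hx0
  · ext x
    rw [mem_image]
    constructor
    · rintro ⟨i, _, rfl⟩
      split_ifs with hi
      · exact (X.equivFin.symm ⟨i.val, hi⟩).2
      · exact hx0
    · intro hx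
      have hlt := (X.equivFin ⟨x, hx⟩).isLt
      refine ⟨⟨(X.equivFin ⟨x, hx⟩).val, lt_of_lt_of_le hlt h⟩, mem_univ _, ?_⟩
      rw [dif_pos hlt]
      simp

open Classical in
/-- the bad event for `X` -/
noncomputable def badEv {n : ℕ} {A κ η : ℝ} (F : Facets n A κ η) (T B X : Finset (EE n)) :
    Finset (Finset (Fin F.N × Fin (n + 1))) :=
  univ.filter (fun U : Finset (Fin F.N × Fin (n + 1)) => ∀ t ∈ T, ∀ b ∈ B, ∃ x ∈ X,
      ‖t + b - x‖ ≤ 1 + η ∧ ∀ j ∈ U, ¬ tau + η < ⟪F.u j.1, t + b - x⟫)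

open Classical in
/-- admissible sets of centers -/
def Adm (n m : ℕ) (η S : ℝ) (T B X : Finset (EE n)) : Prop :=
  (((T ×ˢ B).filter (fun tb => ¬ Good n m η S X (tb.1 + tb.2))).card : ℝ)
      ≤ (T.card : ℝ) * B.card / 4

open Classical in
theorem exists_U (hP : PartP) {n m : ℕ} {A κ η S : ℝ} (F : Facets n A κ η)
    (P : Params n m A κ η S) (T B Net : Finset (EE n)) (N₁ G : ℕ)
    (hTsep : ∀ a ∈ T, ∀ b ∈ T, a ≠ b → 1 / 256 ≤ dist a b)
    (hTcard : (128 : ℝ) ^ n ≤ T.card)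
    (hBn : ∀ b ∈ B, ‖b‖ ≤ 1 / 1024)
    (hBsep : ∀ a ∈ B, ∀ b ∈ B, a ≠ b → 1 / (m : ℝ) ≤ dist a b)
    (hBcard : ((m : ℝ) / 1024) ^ n ≤ B.card)
    (hcnt : Real.exp ((5 * A + 6) * S) * (2 * (N₁ : ℝ) ^ 2 * 3 ^ n) ≤ ((m : ℝ) / 1024) ^ n)
    (hG : (G : ℝ) * (2 * (N₁ : ℝ) ^ 2 * 4 ^ n) ≤ 128 ^ n)
    (hunion : (Net.card : ℝ) ^ N₁ * (2 / 3 : ℝ) ^ G ≤ 1 / 1000) :
    ∃ U : Finset (Fin F.N × Fin (n + 1)), om n / 128 ≤ (volume (Body F U)).toReal ∧
      ∀ X ⊆ Net, X.Nonempty → X.card ≤ N₁ → Adm n m η S T B X →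
        ∃ t ∈ T, ∃ b ∈ B, ∀ x ∈ X, ‖t + b - x‖ ≤ 1 + η →
          ∃ j ∈ U, tau + η < ⟪F.u j.1, t + b - x⟫ := by
  have hbw : ∀ U, 0 ≤ bw (pp F) U := fun U =>
    bw_nonneg (pp_nonneg F P) (fun j => (pp_le F P j).trans (by norm_num)) U
  set XX : (Fin N₁ → Net) → Finset (EE n) := fun f => univ.image (fun i => (f i : EE n)) with hXX
  set Bad : Finset (Finset (Fin F.N × Fin (n + 1))) :=
    ((univ : Finset (Fin N₁ → Net)).filter (fun f => (XX f).Nonempty ∧ Adm n m η S T B (XX f))).biUnion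
      (fun f => badEv F T B (XX f)) with hBad
  have hsum : ∑ U ∈ Bad, bw (pp F) U ≤ 1 / 1000 := by
    calc ∑ U ∈ Bad, bw (pp F) U
        ≤ ∑ f ∈ (univ : Finset (Fin N₁ → Net)).filter
            (fun f => (XX f).Nonempty ∧ Adm n m η S T B (XX f)),
            ∑ U ∈ badEv F T B (XX f), bw (pp F) U := by
          rw [hBad]
          exact sum_biUnion_le_sum _ _ _ hbw
      _ ≤ ∑ f ∈ (univ : Finset (Fin N₁ → Net)).filter
            (fun f => (XX f).Nonempty ∧ Adm n m η S T B (XX f)), (2 / 3 : ℝ) ^ G := by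
          apply sum_le_sum
          intro f hf
          rw [mem_filter] at hf
          have hcard : ((XX f).card : ℝ) ≤ N₁ := by
            have : (XX f).card ≤ N₁ := by
              calc (XX f).card ≤ (univ : Finset (Fin N₁)).card := card_image_le
                _ = N₁ := by simp
            exact_mod_cast this
          exact tile_prob hP F P (XX f) T B N₁ hf.2.1 hcard hTsep hTcard hBn hBsep hBcard
            hf.2.2 hcnt G hG
      _ ≤ ∑ f : (Fin N₁ → Net), (2 / 3 : ℝ) ^ G :=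
          sum_le_sum_of_subset_of_nonneg (filter_subset _ _) (fun _ _ _ => by positivity)
      _ = (Net.card : ℝ) ^ N₁ * (2 / 3 : ℝ) ^ G := by
          rw [sum_const, nsmul_eq_mul, card_univ, Fintype.card_fun, Fintype.card_coe,
            Fintype.card_fin]
          push_cast
          rfl
      _ ≤ 1 / 1000 := hunion
  obtain ⟨U, hU, hvol⟩ := exists_outcome F P Bad hsum
  refine ⟨U, hvol, ?_⟩
  intro X hXN hXne hXcard hAdm
  obtain ⟨f, hf, hfX⟩ := exists_enum X hXne N₁ hXcard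
  set f' : Fin N₁ → Net := fun i => ⟨f i, hXN (hf i)⟩ with hf'
  have hXf : XX f' = X := by
    rw [← hfX, hXX]
    ext x
    simp [hf']
  have hnot : U ∉ badEv F T B X := by
    intro hc
    apply hU
    rw [hBad, mem_biUnion]
    refine ⟨f', mem_filter.2 ⟨mem_univ _, ?_, ?_⟩, ?_⟩
    · rw [hXf]; exact hXne
    · rw [hXf]; exact hAdm
    · rw [hXf]; exact hc
  unfold badEv at hnot
  rw [mem_filter] at hnot
  push Not at hnot
  obtain ⟨t, ht, b, hb, h⟩ := hnot (mem_univ _)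
  exact ⟨t, ht, b, hb, fun x hx hxn => by
    obtain ⟨j, hj, hlt⟩ := h x hx hxn
    exact ⟨j, hj, hlt⟩⟩

end Vale.Agent.P230.Outcome
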