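import Mathlib
import Vale.Agent.P230.Interface

/-!
# P230, Part D : averaging
-/

namespace Vale.Agent.P230.AvgD

open Finset MeasureTheory Metric Filter Vale.Agent.P230
open scoped ENNReal

lemma volume_cube (n : ℕ) {R : ℝ} (hR : 0 ≤ R) :
    volume (cube n R) = ENNReal.ofReal ((2 * R) ^ n) := by
  have h := PiLp.volume_preserving_ofLp (Fin n)
  have h2 : cube n R = (@WithLp.ofLp 2 (Fin n → ℝ)) ⁻¹' (Set.Icc (fun _ => -R) (fun _ => R)) := by
    ext x
    simp [cube, Set.mem_Icc, Pi.le_def, abs_le, forall_and]
  rw [h2, h.measure_preimage (measurableSet_Icc.nullMeasurableSet), Real.volume_Icc_pi]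
  rw [Finset.prod_const, card_univ, Fintype.card_fin, ← ENNReal.ofReal_pow]
  · congr 2; ring
  · linarith

lemma measurableSet_cube (n : ℕ) (R : ℝ) : MeasurableSet (cube n R) := by
  have h2 : cube n R = (@WithLp.ofLp 2 (Fin n → ℝ)) ⁻¹' (Set.Icc (fun _ => -R) (fun _ => R)) := by
    ext x
    simp [cube, Set.mem_Icc, Pi.le_def, abs_le, forall_and]
  rw [h2]
  exact (PiLp.volume_preserving_ofLp (Fin n)).measurable measurableSet_Icc

lemma isBounded_cube (n : ℕ) (R : ℝ) : Bornology.IsBounded (cube n R) := by
  have : cube n R ⊆ closedBall (0 : EE n) (Real.sqrt (n * R ^ 2)) := by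
    intro x hx
    rw [mem_closedBall, dist_zero_right, EuclideanSpace.norm_eq]
    apply Real.sqrt_le_sqrt
    calc ∑ i, ‖x i‖ ^ 2 ≤ ∑ _i : Fin n, R ^ 2 := by
          apply sum_le_sum
          intro i _
          rw [Real.norm_eq_abs]
          exact pow_le_pow_left₀ (abs_nonneg _) (hx i) 2
      _ = n * R ^ 2 := by simp
  exact isBounded_closedBall.subset this

lemma abs_coord_le (n : ℕ) (x : EE n) (i : Fin n) : |x i| ≤ ‖x‖ := by
  have := PiLp.norm_apply_le x i
  simpa using this

/-- existence of a good radius -/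
lemma exists_radius {n : ℕ} (hn : 1 ≤ n) {X : Set (EE n)} {ρ : ℝ} (hρ : 0 < ρ) (hX : LocFin X)
    (h : updens X < ENNReal.ofReal ρ) :
    ∃ R : ℝ, 0 < R ∧ ((X ∩ cube n (R + 4)).ncard : ℝ) ≤ 2 * ρ * (2 * R) ^ n := by
  unfold updens at h
  have h1 := eventually_lt_of_limsup_lt h
  have h2 : ∀ᶠ R : ℝ in atTop, (((X ∩ cube n (R + 4)).encard : ℝ≥0∞)
      / ENNReal.ofReal ((2 * (R + 4)) ^ n)) < ENNReal.ofReal ρ :=
    (tendsto_atTop_add_const_right atTop 4 tendsto_id).eventually h1
  obtain ⟨R, hR, hR8⟩ := (h2.and (eventually_ge_atTop (8 * (n : ℝ)))).exists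
  have hn1 : (1 : ℝ) ≤ n := by exact_mod_cast hn
  have hRpos : 0 < R := by linarith
  refine ⟨R, hRpos, ?_⟩
  have hfin : (X ∩ cube n (R + 4)).Finite := hX _ (isBounded_cube n (R + 4))
  have hpos : 0 < (2 * (R + 4)) ^ n := by positivity
  have h3 : ((X ∩ cube n (R + 4)).ncard : ℝ) ≤ ρ * (2 * (R + 4)) ^ n := by
    have h4 : ((X ∩ cube n (R + 4)).encard : ℝ≥0∞)
        < ENNReal.ofReal ρ * ENNReal.ofReal ((2 * (R + 4)) ^ n) := by
      rwa [ENNReal.div_lt_iff (Or.inl (by simpa using hpos)) (Or.inl ENNReal.ofReal_ne_top)] at hR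
    rw [← ENNReal.ofReal_mul hρ.le, ← hfin.cast_ncard_eq] at h4
    have h5 : (((X ∩ cube n (R + 4)).ncard : ℕ) : ℝ≥0∞)
        < ENNReal.ofReal (ρ * (2 * (R + 4)) ^ n) := by
      simpa using h4
    rw [← ENNReal.ofReal_natCast] at h5
    have h6 := (ENNReal.ofReal_lt_ofReal_iff (by positivity)).1 h5
    exact h6.le
  refine h3.trans ?_
  have h7 : (2 * (R + 4)) ^ n ≤ 2 * (2 * R) ^ n := by
    have e1 : 2 * (R + 4) = (2 * R) * (1 + 4 / R) := by field_simp
    rw [e1, mul_pow, mul_comm]
    apply mul_le_mul_of_nonneg_right _ (by positivity)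
    have e2 : (1 + 4 / R) ^ n ≤ Real.exp (1 / 2) := by
      calc (1 + 4 / R) ^ n ≤ (Real.exp (4 / R)) ^ n := by
            apply pow_le_pow_left₀ (by positivity)
            rw [add_comm]
            exact Real.add_one_le_exp _
        _ = Real.exp (n * (4 / R)) := by rw [← Real.exp_nat_mul]
        _ ≤ Real.exp (1 / 2) := by
            apply Real.exp_le_exp.2
            rw [mul_div_assoc', div_le_div_iff₀ hRpos (by norm_num)]
            linarith
    refine e2.trans ?_
    have e3 : Real.exp (1 / 2) ^ 2 = Real.exp 1 := by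
      rw [← Real.exp_nat_mul]; norm_num
    have e4 := Real.exp_one_lt_d9
    have e5 := Real.exp_pos (1 / 2 : ℝ)
    nlinarith
  calc ρ * (2 * (R + 4)) ^ n ≤ ρ * (2 * (2 * R) ^ n) :=
        mul_le_mul_of_nonneg_left h7 hρ.le
    _ = 2 * ρ * (2 * R) ^ n := by ring

end Vale.Agent.P230.AvgD

namespace Vale.Agent.P230

open Finset MeasureTheory Metric Filter AvgD
open scoped ENNReal

/-- Part D -/
theorem partD : PartD := by
  classical
  intro n X ρ hn hρ hX hdens D K r c hD hr0 hr3 hc
  obtain ⟨R, hR, hcount⟩ := exists_radius hn hρ hX hdens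
  have hfin : (X ∩ cube n (R + 4)).Finite := hX _ (isBounded_cube n (R + 4))
  set XF : Finset (EE n) := hfin.toFinset with hXF
  have hcard : (X ∩ cube n (R + 4)).ncard = XF.card := Set.ncard_eq_toFinset_card _ hfin
  -- the function
  set F : EE n → ℝ := fun z => ∑ d ∈ D, ∑ k, c k *
    ∑ x ∈ XF, (closedBall (x - d) (r k)).indicator (fun _ => (1 : ℝ)) z with hF
  have hFeq : ∀ z ∈ cube n R, ∑ d ∈ D, ∑ k, c k * ((X ∩ closedBall (z + d) (r k)).ncard : ℝ)
      = F z := by
    intro z hz
    rw [hF]
    apply sum_congr rfl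
    intro d hd
    apply sum_congr rfl
    intro k _
    congr 1
    have h1 : X ∩ closedBall (z + d) (r k)
        = ((XF.filter (fun x => x ∈ closedBall (z + d) (r k)) : Finset (EE n)) : Set (EE n)) := by
      ext x
      simp only [Set.mem_inter_iff, coe_filter, Set.mem_ofPred_eq, hXF, Set.Finite.mem_toFinset]
      constructor
      · rintro ⟨hx, hxb⟩
        refine ⟨⟨hx, ?_⟩, hxb⟩
        intro i
        rw [mem_closedBall, dist_eq_norm] at hxb
        have e1 : |x i - (z i + d i)| ≤ r k := by
          have := (abs_coord_le n (x - (z + d)) i).trans hxb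
          simpa using this
        have e2 := hz i
        have e3 : |d i| ≤ 1 := (abs_coord_le n d i).trans (hD d hd)
        have e4 := hr3 k
        rw [abs_le] at *
        constructor <;> linarith [e1.1, e1.2, e2.1, e2.2, e3.1, e3.2]
      · rintro ⟨⟨hx, _⟩, hxb⟩
        exact ⟨hx, hxb⟩
    rw [h1, Set.ncard_coe_finset, card_filter]
    push_cast
    apply sum_congr rfl
    intro x _
    rw [Set.indicator_apply]
    have : x ∈ closedBall (z + d) (r k) ↔ z ∈ closedBall (x - d) (r k) := by
      rw [mem_closedBall, mem_closedBall, dist_eq_norm, dist_eq_norm]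
      have : z - (x - d) = -(x - (z + d)) := by abel
      rw [this, norm_neg]
    simp only [this]
  -- integrability
  have hint1 : ∀ (x : EE n) (ρ' : ℝ), Integrable ((closedBall x ρ').indicator (fun _ => (1 : ℝ)))
      (volume : Measure (EE n)) := by
    intro x ρ'
    rw [integrable_indicator_iff measurableSet_closedBall]
    exact integrableOn_const measure_closedBall_lt_top.ne
  have hintF : Integrable F volume := by
    rw [hF]
    apply integrable_finsetSum
    intro d _
    apply integrable_finsetSum
    intro k _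
    apply Integrable.const_mul
    apply integrable_finsetSum
    intro x _
    exact hint1 _ _
  have hcubevol := volume_cube n hR.le
  have hcubepos : 0 < (2 * R) ^ n := by positivity
  have hne0 : volume (cube n R) ≠ 0 := by
    rw [hcubevol]; simpa using hcubepos
  have hnetop : volume (cube n R) ≠ ∞ := by
    rw [hcubevol]; exact ENNReal.ofReal_ne_top
  obtain ⟨z, hz, hzle⟩ := exists_le_setAverage hne0 hnetop hintF.integrableOn
  refine ⟨z, ?_⟩
  rw [hFeq z hz]
  refine hzle.trans ?_
  rw [setAverage_eq]
  have hreal : volume.real (cube n R) = (2 * R) ^ n := by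
    rw [measureReal_def, hcubevol, ENNReal.toReal_ofReal hcubepos.le]
  rw [hreal, smul_eq_mul, inv_mul_le_iff₀ hcubepos]
  have hFnn : ∀ z, 0 ≤ F z := by
    intro z
    rw [hF]
    apply sum_nonneg
    intro d _
    apply sum_nonneg
    intro k _
    apply mul_nonneg (hc k)
    apply sum_nonneg
    intro x _
    exact Set.indicator_nonneg (fun _ _ => zero_le_one) _
  have hle : ∫ z in cube n R, F z ≤ ∫ z, F z := by
    apply setIntegral_le_integral hintF
    exact Filter.Eventually.of_forall hFnn
  refine hle.trans ?_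
  have hintval : ∫ z, F z = D.card * ∑ k, c k * (XF.card *
      (volume (closedBall (0 : EE n) (r k))).toReal) := by
    rw [hF]
    rw [integral_finsetSum]
    · rw [← nsmul_eq_mul, ← sum_const]
      apply sum_congr rfl
      intro d _
      rw [integral_finsetSum]
      · apply sum_congr rfl
        intro k _
        rw [integral_const_mul]
        congr 1
        rw [integral_finsetSum]
        · rw [← nsmul_eq_mul, ← sum_const]
          apply sum_congr rfl
          intro x _
          rw [integral_indicator measurableSet_closedBall]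
          rw [setIntegral_const, smul_eq_mul, mul_one, measureReal_def,
            Measure.addHaar_closedBall_center]
        · intro x _
          exact hint1 _ _
      · intro k _
        apply Integrable.const_mul
        apply integrable_finsetSum
        intro x _
        exact hint1 _ _
    · intro d _
      apply integrable_finsetSum
      intro k _
      apply Integrable.const_mul
      apply integrable_finsetSum
      intro x _
      exact hint1 _ _
  rw [hintval]
  have e1 : ∑ k, c k * (XF.card * (volume (closedBall (0 : EE n) (r k))).toReal)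
      = XF.card * ∑ k, c k * (volume (closedBall (0 : EE n) (r k))).toReal := by
    rw [mul_sum]
    apply sum_congr rfl
    intro k _
    ring
  rw [e1]
  have e2 : 0 ≤ ∑ k, c k * (volume (closedBall (0 : EE n) (r k))).toReal :=
    sum_nonneg fun k _ => mul_nonneg (hc k) ENNReal.toReal_nonneg
  rw [hcard] at hcount
  calc (D.card : ℝ) * (XF.card * ∑ k, c k * (volume (closedBall (0 : EE n) (r k))).toReal)
      ≤ (D.card : ℝ) * ((2 * ρ * (2 * R) ^ n) *
          ∑ k, c k * (volume (closedBall (0 : EE n) (r k))).toReal) := by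
        apply mul_le_mul_of_nonneg_left _ (Nat.cast_nonneg _)
        exact mul_le_mul_of_nonneg_right hcount e2
    _ = _ := by ring

end Vale.Agent.P230
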