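import Mathlib
import Vale.Agent.P230.Interface
import Vale.Agent.P230.Comb
import Vale.Agent.P230.Kill
import Vale.Agent.P230.Tiles
import Vale.Agent.P230.PartD
import Vale.Agent.P230.Body
import Vale.Agent.P230.Outcome

/-!
# P230 : every covering by the good body has large density
-/

namespace Vale.Agent.P230.Contra

open Finset MeasureTheory Metric Filter Vale.Agent.P230 Vale.Agent.P230.Comb Vale.Agent.P230.Kill
open Vale.Agent.P230.Tiles Vale.Agent.P230.Body Vale.Agent.P230.Outcome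
open scoped RealInnerProductSpace ENNReal Pointwise

lemma avg (n : ℕ) (X : Set (EE n)) (ρ : ℝ) (hn : 1 ≤ n) (hρ : 0 < ρ) (hX : LocFin X)
    (hd : updens X < ENNReal.ofReal ρ) (D : Finset (EE n)) (ι : Type) [Fintype ι]
    (r c : ι → ℝ) (hD : ∀ d ∈ D, ‖d‖ ≤ 1) (hr0 : ∀ k, 0 ≤ r k) (hr3 : ∀ k, r k ≤ 3)
    (hc : ∀ k, 0 ≤ c k) :
    ∃ z : EE n, ∑ d ∈ D, ∑ k, c k * ((X ∩ closedBall (z + d) (r k)).ncard : ℝ)
        ≤ 2 * ρ * D.card * ∑ k, c k * (volume (closedBall (0 : EE n) (r k))).toReal := by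
  have e := Fintype.equivFin ι
  obtain ⟨z, hz⟩ := partD n X ρ hn hρ hX hd D (Fintype.card ι) (fun k => r (e.symm k))
    (fun k => c (e.symm k)) hD (fun k => hr0 _) (fun k => hr3 _) (fun k => hc _)
  refine ⟨z, ?_⟩
  have h1 : ∀ d : EE n, ∑ k, c k * ((X ∩ closedBall (z + d) (r k)).ncard : ℝ)
      = ∑ k, c (e.symm k) * ((X ∩ closedBall (z + d) (r (e.symm k))).ncard : ℝ) := by
    intro d
    exact (Equiv.sum_comp e.symm
      (fun k => c k * ((X ∩ closedBall (z + d) (r k)).ncard : ℝ))).symm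
  have h2 : ∑ k, c k * (volume (closedBall (0 : EE n) (r k))).toReal
      = ∑ k, c (e.symm k) * (volume (closedBall (0 : EE n) (r (e.symm k)))).toReal :=
    (Equiv.sum_comp e.symm
      (fun k => c k * (volume (closedBall (0 : EE n) (r k))).toReal)).symm
  rw [h2, sum_congr rfl (fun d _ => h1 d)]
  exact hz

open Classical in
/-- counting rounded points -/
lemma count_round {n : ℕ} {X : Set (EE n)} (hX : LocFin X) (Xr : Finset (EE n))
    (hXr : ∀ x ∈ Xr, x ∈ X) (rd : EE n → EE n) (z d : EE n) {η : ℝ}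
    (hrd : ∀ x ∈ Xr, dist (x - z) (rd x) ≤ η) (ρ : ℝ) :
    (((Xr.image rd).filter (fun x' => ‖d - x'‖ ≤ ρ)).card : ℝ)
      ≤ ((X ∩ closedBall (z + d) (ρ + η)).ncard : ℝ) := by
  have h1 : (Xr.image rd).filter (fun x' => ‖d - x'‖ ≤ ρ)
      ⊆ (Xr.filter (fun x => x ∈ closedBall (z + d) (ρ + η))).image rd := by
    intro x' hx'
    rw [mem_filter, mem_image] at hx'
    obtain ⟨⟨x, hx, rfl⟩, hd⟩ := hx'
    rw [mem_image]
    refine ⟨x, mem_filter.2 ⟨hx, ?_⟩, rfl⟩
    rw [mem_closedBall, dist_eq_norm]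
    have h2 := hrd x hx
    rw [dist_eq_norm] at h2
    have h3 : x - (z + d) = (x - z - rd x) - (d - rd x) := by abel
    rw [h3]
    calc ‖(x - z - rd x) - (d - rd x)‖ ≤ ‖x - z - rd x‖ + ‖d - rd x‖ := norm_sub_le _ _
      _ ≤ ρ + η := by linarith
  have h4 : ((Xr.filter (fun x => x ∈ closedBall (z + d) (ρ + η)) : Finset (EE n)) : Set (EE n))
      ⊆ X ∩ closedBall (z + d) (ρ + η) := by
    intro x hx
    have hx' : x ∈ Xr.filter (fun x => x ∈ closedBall (z + d) (ρ + η)) := hx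
    rw [mem_filter] at hx'
    exact ⟨hXr x hx'.1, hx'.2⟩
  have h5 : (Xr.filter (fun x => x ∈ closedBall (z + d) (ρ + η))).card
      ≤ (X ∩ closedBall (z + d) (ρ + η)).ncard := by
    rw [← Set.ncard_coe_finset]
    exact Set.ncard_le_ncard h4 (hX _ isBounded_closedBall)
  exact_mod_cast ((card_le_card h1).trans card_image_le).trans h5

open Classical in
lemma sum_WW_le {n : ℕ} {X : Set (EE n)} (hX : LocFin X) (Xr : Finset (EE n))
    (hXr : ∀ x ∈ Xr, x ∈ X) (rd : EE n → EE n) (z d : EE n) {η : ℝ}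
    (hrd : ∀ x ∈ Xr, dist (x - z) (rd x) ≤ η) :
    ∑ x' ∈ (Xr.image rd).filter (fun x' => ‖d - x'‖ ≤ 1 + η), WW n η (d - x')
      ≤ ∑ k : Fin (n + 1), ((X ∩ closedBall (z + d) (1 + 2 * η - (k : ℕ) / n)).ncard : ℝ) := by
  calc ∑ x' ∈ (Xr.image rd).filter (fun x' => ‖d - x'‖ ≤ 1 + η), WW n η (d - x')
      ≤ ∑ x' ∈ Xr.image rd, WW n η (d - x') :=
        sum_le_sum_of_subset_of_nonneg (filter_subset _ _) (fun x _ _ => WW_nonneg _ _ _)
    _ = ∑ x' ∈ Xr.image rd, ∑ k : Fin (n + 1),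
          (if ‖d - x'‖ ≤ 1 + η - (k : ℕ) / n then (1 : ℝ) else 0) := by
        apply sum_congr rfl
        intro x' _
        unfold WW
        rw [card_filter]
        push_cast
        rw [Finset.sum_range]
    _ = ∑ k : Fin (n + 1), (((Xr.image rd).filter
          (fun x' => ‖d - x'‖ ≤ 1 + η - (k : ℕ) / n)).card : ℝ) := by
        rw [sum_comm]
        apply sum_congr rfl
        intro k _
        rw [card_filter]
        push_cast
        rfl
    _ ≤ _ := by
        apply sum_le_sum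
        intro k _
        have h := count_round hX Xr hXr rd z d hrd (1 + η - (k : ℕ) / n)
        have e : 1 + η - ((k : ℕ) : ℝ) / n + η = 1 + 2 * η - (k : ℕ) / n := by ring
        rw [e] at h
        exact h

open Classical in
theorem lower_density {n m : ℕ} {A κ η S : ℝ} (F : Facets n A κ η)
    (P : Params n m A κ η S) (T B Net : Finset (EE n)) (N₁ : ℕ) (D0 : ℝ) (hD0 : 0 < D0)
    (hTn : ∀ a ∈ T, ‖a‖ ≤ 1 / 2)
    (hTsep : ∀ a ∈ T, ∀ b ∈ T, a ≠ b → 1 / 256 ≤ dist a b)
    (hTne : T.Nonempty) (hBne : B.Nonempty)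
    (hBn : ∀ b ∈ B, ‖b‖ ≤ 1 / 1024)
    (hNet : ∀ x : EE n, ‖x‖ ≤ 151 / 100 → ∃ a ∈ Net, dist x a ≤ η)
    (hS : 12288 * D0 ≤ S)
    (hdeep : 1536 * D0 * Real.exp (-(m : ℝ)) ≤ 1 / 8)
    (hN : 768 * D0 * (202 / 100 : ℝ) ^ n < N₁ + 1)
    (hη : η ≤ 1 / 1000)
    (hmn : (m : ℝ) ≤ n)
    (hvolS : ∑ k : Fin (n + 1), (1 + 2 * η - ((k : ℕ) : ℝ) / n) ^ n ≤ 2)
    (hvolD : (1 + 2 * η - (m : ℝ) / n) ^ n ≤ 2 * Real.exp (-(m : ℝ)))
    (U : Finset (Fin F.N × Fin (n + 1)))
    (hvol : om n / 128 ≤ (volume (Body F U)).toReal)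
    (hU : ∀ X ⊆ Net, X.Nonempty → X.card ≤ N₁ → Adm n m η S T B X →
        ∃ t ∈ T, ∃ b ∈ B, ∀ x ∈ X, ‖t + b - x‖ ≤ 1 + η →
          ∃ j ∈ U, tau + η < ⟪F.u j.1, t + b - x⟫) :
    ENNReal.ofReal D0 ≤ thetaT (Body F U) := by
  have hn1 : 1 ≤ n := by have := P.hn; omega
  have hn2 : (2 : ℝ) ≤ n := by exact_mod_cast P.hn
  have hom := om_pos hn1
  have hη0 := P.hη
  have hm1 : (1 : ℝ) ≤ m := by exact_mod_cast P.hm
  unfold thetaT
  refine le_iInf fun X => le_iInf fun hX => le_iInf fun hcov => ?_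
  by_contra hcon
  push Not at hcon
  -- density bound
  set ρ := 128 * D0 / om n with hρ
  have hρ0 : 0 < ρ := by positivity
  have hdens : updens X < ENNReal.ofReal ρ := by
    by_contra h
    push Not at h
    have hfin : volume (Body F U) ≠ ⊤ :=
      ((measure_mono (body_subset F U)).trans_lt measure_closedBall_lt_top).ne
    have h1 : ENNReal.ofReal (om n / 128) ≤ volume (Body F U) := by
      rw [← ENNReal.ofReal_toReal hfin]
      exact ENNReal.ofReal_le_ofReal hvol
    have h2 : ENNReal.ofReal D0 = ENNReal.ofReal (om n / 128) * ENNReal.ofReal ρ := by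
      rw [← ENNReal.ofReal_mul (by positivity)]
      congr 1
      rw [hρ]
      field_simp
    rw [h2] at hcon
    exact absurd (mul_le_mul' h1 h) (not_le.2 hcon)
  -- the set D
  set D : Finset (EE n) := (T ×ˢ B).image (fun tb => tb.1 + tb.2) with hD
  have hinj : Set.InjOn (fun tb : EE n × EE n => tb.1 + tb.2) ((T ×ˢ B : Finset (EE n × EE n)) : Set (EE n × EE n)) := by
    rintro ⟨t, b⟩ htb ⟨t', b'⟩ htb' heq
    have h1 : (t, b) ∈ T ×ˢ B := htb
    have h2 : (t', b') ∈ T ×ˢ B := htb'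
    rw [mem_product] at h1 h2
    simp only at heq h1 h2
    have h3 : t = t' := by
      by_contra hne
      have h4 := hTsep t h1.1 t' h2.1 hne
      have h5 : t - t' = b' - b := by
        rw [sub_eq_sub_iff_add_eq_add, heq, add_comm]
      rw [dist_eq_norm, h5] at h4
      have h6 := norm_sub_le b' b
      have h7 := hBn b h1.2
      have h8 := hBn b' h2.2
      linarith
    subst h3
    have h4 : b = b' := add_left_cancel heq
    rw [h4]
  have hsumD : ∀ f : EE n → ℝ, ∑ d ∈ D, f d = ∑ tb ∈ T ×ˢ B, f (tb.1 + tb.2) := by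
    intro f
    rw [hD, sum_image hinj]
  have hDcard : (D.card : ℝ) = T.card * B.card := by
    rw [hD, card_image_of_injOn hinj, card_product]
    push_cast
    rfl
  have hTB : ∀ d ∈ D, ∃ t ∈ T, ∃ b ∈ B, d = t + b := by
    intro d hd
    rw [hD, mem_image] at hd
    obtain ⟨⟨t, b⟩, htb, rfl⟩ := hd
    rw [mem_product] at htb
    exact ⟨t, htb.1, b, htb.2, rfl⟩
  have hDn : ∀ d ∈ D, ‖d‖ ≤ 513 / 1024 := by
    intro d hd
    obtain ⟨t, ht, b, hb, rfl⟩ := hTB d hd
    have h1 := norm_add_le t b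
    have h2 := hTn t ht
    have h3 := hBn b hb
    linarith
  have hTc : (0 : ℝ) < T.card := by exact_mod_cast hTne.card_pos
  have hBc : (0 : ℝ) < B.card := by exact_mod_cast hBne.card_pos
  have hDc : (0 : ℝ) < D.card := by rw [hDcard]; positivity
  have hDne : D.Nonempty := by
    rw [← card_pos]
    exact_mod_cast hDc
  -- averaging
  set r : Fin (n + 1) ⊕ Bool → ℝ := Sum.elim (fun k => 1 + 2 * η - ((k : ℕ) : ℝ) / n)
    (fun b => if b then 1 + 2 * η - (m : ℝ) / n else 202 / 100) with hr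
  set c : Fin (n + 1) ⊕ Bool → ℝ := Sum.elim (fun _ => 1 / (2 * om n))
    (fun b => if b then Real.exp m / (2 * om n) else 1 / ((202 / 100) ^ n * om n)) with hc
  have hkn : ∀ k : Fin (n + 1), ((k : ℕ) : ℝ) / n ≤ 1 := by
    intro k
    rw [div_le_one (by linarith)]
    have := k.isLt
    exact_mod_cast (by omega : (k : ℕ) ≤ n)
  have hmn1 : (m : ℝ) / n ≤ 1 := by rw [div_le_one (by linarith)]; exact hmn
  have hr0 : ∀ k, 0 ≤ r k := by
    intro k
    rcases k with k | b
    · simp only [hr, Sum.elim_inl]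
      have := hkn k
      linarith
    · simp only [hr, Sum.elim_inr]
      split_ifs
      · linarith
      · norm_num
  have hr3 : ∀ k, r k ≤ 3 := by
    intro k
    rcases k with k | b
    · simp only [hr, Sum.elim_inl]
      have : 0 ≤ ((k : ℕ) : ℝ) / n := by positivity
      linarith
    · simp only [hr, Sum.elim_inr]
      have : 0 ≤ (m : ℝ) / n := by positivity
      split_ifs
      · linarith
      · norm_num
  have hc0 : ∀ k, 0 ≤ c k := by
    intro k
    rcases k with k | b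
    · simp only [hc, Sum.elim_inl]
      positivity
    · simp only [hc, Sum.elim_inr]
      split_ifs <;> positivity
  obtain ⟨z, hz⟩ := avg n X ρ hn1 hρ0 hX hdens D (Fin (n + 1) ⊕ Bool) r c
    (fun d hd => (hDn d hd).trans (by norm_num)) hr0 hr3 hc0
  -- right-hand side
  have hRHS : ∑ k, c k * (volume (closedBall (0 : EE n) (r k))).toReal ≤ 3 := by
    rw [Fintype.sum_sum_type]
    have h1 : ∑ k : Fin (n + 1), c (Sum.inl k) * (volume (closedBall (0 : EE n) (r (Sum.inl k)))).toReal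
        ≤ 1 := by
      have h2 : ∀ k : Fin (n + 1), c (Sum.inl k) *
          (volume (closedBall (0 : EE n) (r (Sum.inl k)))).toReal
          = (1 + 2 * η - ((k : ℕ) : ℝ) / n) ^ n / 2 := by
        intro k
        rw [vol_ball 0 (hr0 _)]
        simp only [hr, hc, Sum.elim_inl]
        field_simp
      rw [sum_congr rfl (fun k _ => h2 k), ← sum_div]
      linarith
    have h3 : ∑ b : Bool, c (Sum.inr b) * (volume (closedBall (0 : EE n) (r (Sum.inr b)))).toReal
        ≤ 2 := by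
      rw [Fintype.sum_bool, vol_ball 0 (hr0 _), vol_ball 0 (hr0 _)]
      simp only [hr, hc, Sum.elim_inr, if_true]
      have h4 : Real.exp m / (2 * om n) * ((1 + 2 * η - (m : ℝ) / n) ^ n * om n) ≤ 1 := by
        calc Real.exp m / (2 * om n) * ((1 + 2 * η - (m : ℝ) / n) ^ n * om n)
            = Real.exp m / 2 * (1 + 2 * η - (m : ℝ) / n) ^ n := by field_simp
          _ ≤ Real.exp m / 2 * (2 * Real.exp (-(m : ℝ))) :=
              mul_le_mul_of_nonneg_left hvolD (by positivity)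
          _ = 1 := by
              rw [Real.exp_neg]
              field_simp
      have h5 : (if false = true then Real.exp m / (2 * om n) else 1 / ((202 / 100 : ℝ) ^ n * om n)) *
          ((if false = true then 1 + 2 * η - (m : ℝ) / n else 202 / 100) ^ n * om n) = 1 := by
        rw [if_neg (by decide), if_neg (by decide)]
        field_simp
      rw [h5]
      linarith
    linarith
  have hρD : 0 < 2 * ρ * D.card := by positivity
  have hz' : ∑ d ∈ D, ∑ k, c k * ((X ∩ closedBall (z + d) (r k)).ncard : ℝ)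
      ≤ 6 * ρ * D.card := by
    refine hz.trans ?_
    calc _ ≤ 2 * ρ * D.card * 3 := mul_le_mul_of_nonneg_left hRHS hρD.le
      _ = _ := by ring
  have hsplit : ∑ d ∈ D, ∑ k, c k * ((X ∩ closedBall (z + d) (r k)).ncard : ℝ)
      = (∑ d ∈ D, ∑ k : Fin (n + 1),
          ((X ∩ closedBall (z + d) (1 + 2 * η - ((k : ℕ) : ℝ) / n)).ncard : ℝ)) / (2 * om n)
        + (∑ d ∈ D, ((X ∩ closedBall (z + d) (1 + 2 * η - (m : ℝ) / n)).ncard : ℝ))
            * (Real.exp m / (2 * om n))
        + (∑ d ∈ D, ((X ∩ closedBall (z + d) (202 / 100)).ncard : ℝ))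
            * (1 / ((202 / 100) ^ n * om n)) := by
    rw [sum_div, sum_mul, sum_mul, ← sum_add_distrib, ← sum_add_distrib]
    apply sum_congr rfl
    intro d _
    rw [Fintype.sum_sum_type, Fintype.sum_bool]
    simp only [hr, hc, Sum.elim_inl, Sum.elim_inr, if_true]
    rw [if_neg (by decide), if_neg (by decide), ← mul_sum]
    ring
  rw [hsplit] at hz'
  set s1 := ∑ d ∈ D, ∑ k : Fin (n + 1),
          ((X ∩ closedBall (z + d) (1 + 2 * η - ((k : ℕ) : ℝ) / n)).ncard : ℝ) with hs1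
  set s2 := ∑ d ∈ D, ((X ∩ closedBall (z + d) (1 + 2 * η - (m : ℝ) / n)).ncard : ℝ) with hs2
  set s3 := ∑ d ∈ D, ((X ∩ closedBall (z + d) (202 / 100)).ncard : ℝ) with hs3
  have hs10 : 0 ≤ s1 := sum_nonneg fun d _ => sum_nonneg fun k _ => Nat.cast_nonneg _
  have hs20 : 0 ≤ s2 := sum_nonneg fun d _ => Nat.cast_nonneg _
  have hs30 : 0 ≤ s3 := sum_nonneg fun d _ => Nat.cast_nonneg _
  have ha1 : 0 ≤ s1 / (2 * om n) := by positivity
  have ha2 : 0 ≤ s2 * (Real.exp m / (2 * om n)) := by positivity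
  have ha3 : 0 ≤ s3 * (1 / ((202 / 100) ^ n * om n)) := by positivity
  have hb1 : s1 ≤ 1536 * D0 * D.card := by
    have h1 : s1 / (2 * om n) ≤ 6 * ρ * D.card := by linarith
    rw [div_le_iff₀ (by positivity)] at h1
    calc s1 ≤ _ := h1
      _ = 1536 * D0 * D.card := by rw [hρ]; field_simp; norm_num
  have hb2 : s2 ≤ 1536 * D0 * Real.exp (-(m : ℝ)) * D.card := by
    have h1 : s2 * (Real.exp m / (2 * om n)) ≤ 6 * ρ * D.card := by linarith
    rw [← le_div_iff₀ (by positivity)] at h1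
    calc s2 ≤ _ := h1
      _ = 1536 * D0 * Real.exp (-(m : ℝ)) * D.card := by
          rw [hρ, Real.exp_neg]; field_simp; norm_num
  have hb3 : s3 ≤ 768 * D0 * (202 / 100) ^ n * D.card := by
    have h1 : s3 * (1 / ((202 / 100) ^ n * om n)) ≤ 6 * ρ * D.card := by linarith
    rw [← le_div_iff₀ (by positivity)] at h1
    calc s3 ≤ _ := h1
      _ = 768 * D0 * (202 / 100) ^ n * D.card := by rw [hρ]; field_simp; norm_num
  -- relevant points
  have hfinr : (X ∩ closedBall z (151 / 100)).Finite := hX _ isBounded_closedBall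
  set Xr : Finset (EE n) := hfinr.toFinset with hXr
  have hXrmem : ∀ x, x ∈ Xr ↔ x ∈ X ∧ dist x z ≤ 151 / 100 := by
    intro x
    rw [hXr, Set.Finite.mem_toFinset]
    exact Iff.rfl
  -- rounding
  have hround : ∀ x : EE n, ∃ a : EE n, x ∈ Xr → a ∈ Net ∧ dist (x - z) a ≤ η := by
    intro x
    by_cases hx : x ∈ Xr
    · have h1 := ((hXrmem x).1 hx).2
      rw [dist_eq_norm] at h1
      obtain ⟨a, ha, hd⟩ := hNet (x - z) h1
      exact ⟨a, fun _ => ⟨ha, hd⟩⟩
    · exact ⟨0, fun h => absurd h hx⟩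
  choose rd hrd using hround
  have hrd' : ∀ x ∈ Xr, dist (x - z) (rd x) ≤ η := fun x hx => (hrd x hx).2
  have hXrX : ∀ x ∈ Xr, x ∈ X := fun x hx => ((hXrmem x).1 hx).1
  set X' : Finset (EE n) := Xr.image rd with hX'
  -- coverage
  have hcovd : ∀ d ∈ D, ∃ x ∈ Xr, z + d - x ∈ Body F U := by
    intro d hd
    have h1 : z + d ∈ Body F U + X := by rw [hcov]; trivial
    rw [Set.mem_add] at h1
    obtain ⟨k, hk, x, hx, hkx⟩ := h1
    have hk' : z + d - x = k := by rw [← hkx]; abel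
    refine ⟨x, ?_, by rw [hk']; exact hk⟩
    rw [hXrmem]
    refine ⟨hx, ?_⟩
    rw [dist_eq_norm]
    have h2 : x - z = d - k := by rw [← hk']; abel
    rw [h2]
    have h3 := norm_sub_le d k
    have h4 := hDn d hd
    have h5 := hk.1
    linarith
  have hXrne : Xr.Nonempty := by
    obtain ⟨d, hd⟩ := hDne
    obtain ⟨x, hx, _⟩ := hcovd d hd
    exact ⟨x, hx⟩
  have hX'card : X'.card ≤ N₁ := by
    have h1 : (Xr.card : ℝ) * D.card ≤ s3 := by
      rw [hs3]
      have : (Xr.card : ℝ) * D.card = ∑ d ∈ D, (Xr.card : ℝ) := by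
        rw [sum_const, nsmul_eq_mul]; ring
      rw [this]
      apply sum_le_sum
      intro d hd
      have h2 : (Xr : Set (EE n)) ⊆ X ∩ closedBall (z + d) (202 / 100) := by
        intro x hx
        have hx' := (hXrmem x).1 hx
        refine ⟨hx'.1, ?_⟩
        rw [mem_closedBall, dist_eq_norm]
        have h3 : x - (z + d) = (x - z) - d := by abel
        rw [h3]
        have h4 := norm_sub_le (x - z) d
        have h5 := hx'.2
        rw [dist_eq_norm] at h5
        have h6 := hDn d hd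
        linarith
      have h3 := Set.ncard_le_ncard h2 (hX _ isBounded_closedBall)
      rw [Set.ncard_coe_finset] at h3
      exact_mod_cast h3
    have h2 : (Xr.card : ℝ) ≤ 768 * D0 * (202 / 100) ^ n :=
      le_of_mul_le_mul_right (h1.trans hb3) hDc
    have h3 : (Xr.card : ℝ) < N₁ + 1 := lt_of_le_of_lt h2 hN
    have h4 : Xr.card < N₁ + 1 := by exact_mod_cast h3
    have h5 : X'.card ≤ Xr.card := card_image_le
    omega
  have hX'Net : X' ⊆ Net := by
    intro x' hx'
    rw [hX', mem_image] at hx'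
    obtain ⟨x, hx, rfl⟩ := hx'
    exact (hrd x hx).1
  -- admissibility
  have hAdm : Adm n m η S T B X' := by
    unfold Adm
    set bad1 := (T ×ˢ B).filter (fun tb => S < ∑ k : Fin (n + 1),
          ((X ∩ closedBall (z + (tb.1 + tb.2)) (1 + 2 * η - ((k : ℕ) : ℝ) / n)).ncard : ℝ)) with hbad1
    set bad2 := (T ×ˢ B).filter (fun tb => (1 : ℝ) ≤
          ((X ∩ closedBall (z + (tb.1 + tb.2)) (1 + 2 * η - (m : ℝ) / n)).ncard : ℝ)) with hbad2
    have hsub : (T ×ˢ B).filter (fun tb => ¬ Good n m η S X' (tb.1 + tb.2)) ⊆ bad1 ∪ bad2 := by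
      intro tb htb
      rw [mem_filter] at htb
      rw [mem_union]
      by_contra hcon2
      push Not at hcon2
      apply htb.2
      rw [hbad1, hbad2, mem_filter, mem_filter] at hcon2
      have h1 : ∑ k : Fin (n + 1),
          ((X ∩ closedBall (z + (tb.1 + tb.2)) (1 + 2 * η - ((k : ℕ) : ℝ) / n)).ncard : ℝ) ≤ S := by
        by_contra h
        push Not at h
        exact hcon2.1 ⟨htb.1, h⟩
      have h2 : ((X ∩ closedBall (z + (tb.1 + tb.2)) (1 + 2 * η - (m : ℝ) / n)).ncard : ℝ) < 1 := by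
        by_contra h
        push Not at h
        exact hcon2.2 ⟨htb.1, h⟩
      constructor
      · exact (sum_WW_le hX Xr hXrX rd z (tb.1 + tb.2) hrd').trans h1
      · intro x' hx'
        by_contra h
        push Not at h
        have h3 := count_round hX Xr hXrX rd z (tb.1 + tb.2) hrd' (1 + η - m / n)
        have e : 1 + η - (m : ℝ) / n + η = 1 + 2 * η - m / n := by ring
        rw [e] at h3
        have h4 : 0 < ((Xr.image rd).filter (fun x' => ‖tb.1 + tb.2 - x'‖ ≤ 1 + η - m / n)).card :=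
          card_pos.2 ⟨x', mem_filter.2 ⟨hx', h⟩⟩
        have h5 : (1 : ℝ) ≤ (((Xr.image rd).filter
            (fun x' => ‖tb.1 + tb.2 - x'‖ ≤ 1 + η - m / n)).card : ℝ) := by exact_mod_cast h4
        linarith
    have hS0 : 0 < S := by linarith
    have hc1 : (bad1.card : ℝ) ≤ T.card * B.card / 8 := by
      have h1 : (bad1.card : ℝ) * S ≤ s1 := by
        rw [hs1, hsumD]
        calc (bad1.card : ℝ) * S = ∑ tb ∈ bad1, S := by rw [sum_const, nsmul_eq_mul]
          _ ≤ ∑ tb ∈ bad1, ∑ k : Fin (n + 1),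
              ((X ∩ closedBall (z + (tb.1 + tb.2)) (1 + 2 * η - ((k : ℕ) : ℝ) / n)).ncard : ℝ) := by
              apply sum_le_sum
              intro tb htb
              rw [hbad1, mem_filter] at htb
              exact htb.2.le
          _ ≤ _ := sum_le_sum_of_subset_of_nonneg (filter_subset _ _)
              (fun tb _ _ => sum_nonneg fun k _ => Nat.cast_nonneg _)
      have h2 : (bad1.card : ℝ) * S ≤ (T.card * B.card / 8) * S := by
        calc (bad1.card : ℝ) * S ≤ 1536 * D0 * D.card := h1.trans hb1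
          _ = (T.card * B.card / 8) * (12288 * D0) := by rw [hDcard]; ring
          _ ≤ (T.card * B.card / 8) * S := mul_le_mul_of_nonneg_left hS (by positivity)
      exact le_of_mul_le_mul_right h2 hS0
    have hc2 : (bad2.card : ℝ) ≤ T.card * B.card / 8 := by
      calc (bad2.card : ℝ) = ∑ tb ∈ bad2, (1 : ℝ) := by simp
        _ ≤ ∑ tb ∈ bad2,
            ((X ∩ closedBall (z + (tb.1 + tb.2)) (1 + 2 * η - (m : ℝ) / n)).ncard : ℝ) := by
            apply sum_le_sum
            intro tb htb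
            rw [hbad2, mem_filter] at htb
            exact htb.2
        _ ≤ s2 := by
            rw [hs2, hsumD]
            exact sum_le_sum_of_subset_of_nonneg (filter_subset _ _)
              (fun tb _ _ => Nat.cast_nonneg _)
        _ ≤ 1536 * D0 * Real.exp (-(m : ℝ)) * D.card := hb2
        _ ≤ 1 / 8 * D.card := mul_le_mul_of_nonneg_right hdeep hDc.le
        _ = T.card * B.card / 8 := by rw [hDcard]; ring
    calc (((T ×ˢ B).filter (fun tb => ¬ Good n m η S X' (tb.1 + tb.2))).card : ℝ)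
        ≤ ((bad1 ∪ bad2).card : ℝ) := by exact_mod_cast card_le_card hsub
      _ ≤ (bad1.card : ℝ) + bad2.card := by exact_mod_cast card_union_le _ _
      _ ≤ T.card * B.card / 4 := by linarith
  obtain ⟨t, ht, b, hb, hkill⟩ := hU X' hX'Net (hXrne.image rd) hX'card hAdm
  have hdD : t + b ∈ D := by
    rw [hD, mem_image]
    exact ⟨(t, b), mem_product.2 ⟨ht, hb⟩, rfl⟩
  obtain ⟨x, hx, hxB⟩ := hcovd (t + b) hdD
  have hxr := hrd' x hx
  rw [dist_eq_norm] at hxr
  have hnorm : ‖t + b - rd x‖ ≤ 1 + η := by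
    have h1 : t + b - rd x = (z + (t + b) - x) + (x - z - rd x) := by abel
    rw [h1]
    have h2 := norm_add_le (z + (t + b) - x) (x - z - rd x)
    have h3 := hxB.1
    linarith
  obtain ⟨j, hj, hlt⟩ := hkill (rd x) (mem_image_of_mem rd hx) hnorm
  have h1 := hxB.2 j hj
  have h2 : ⟪F.u j.1, t + b - rd x⟫
      = ⟪F.u j.1, z + (t + b) - x⟫ + ⟪F.u j.1, x - z - rd x⟫ := by
    rw [← inner_add_right]
    congr 1
    abel
  have h3 : ⟪F.u j.1, x - z - rd x⟫ ≤ η := by
    calc ⟪F.u j.1, x - z - rd x⟫ ≤ ‖F.u j.1‖ * ‖x - z - rd x‖ := real_inner_le_norm _ _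
      _ ≤ 1 * η := mul_le_mul (F.hu j.1) hxr (norm_nonneg _) zero_le_one
      _ = η := one_mul _
  linarith

end Vale.Agent.P230.Contra
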