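import Mathlib
import Vale.Agent.P230.Interface
import Vale.Agent.P230.Kill

/-!
# P230 : existence of the parameters
-/

namespace Vale.Agent.P230.ParamsEx

open Finset MeasureTheory Metric Filter Vale.Agent.P230 Vale.Agent.P230.Kill

lemma log_le_self' {x : ℝ} (hx : 0 < x) : Real.log x ≤ x := by
  have := Real.log_le_sub_one_of_pos hx
  linarith

/-- the large-`n` conditions -/
structure NCond (n : ℕ) : Prop where
  h1 : 768 * (n : ℝ) ^ 2 * (202 / 100 : ℝ) ^ n ≤ (205 / 100 : ℝ) ^ n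
  h2 : (n : ℝ) ^ 2 * (205 / 100 : ℝ) ^ n ≤ 3 ^ n
  h3 : Real.log (1 + 302 / 100 * (n : ℝ) ^ 3) ≤ n
  h4 : 100 ≤ n

lemma ev_ncond : ∀ᶠ n : ℕ in atTop, NCond n := by
  have t1 := tendsto_pow_const_div_const_pow_of_one_lt 2 (r := (205 / 202 : ℝ)) (by norm_num)
  have t2 := tendsto_pow_const_div_const_pow_of_one_lt 2 (r := (300 / 205 : ℝ)) (by norm_num)
  have e1 := t1.eventually (gt_mem_nhds (show (0 : ℝ) < 1 / 768 by norm_num))
  have e2 := t2.eventually (gt_mem_nhds (show (0 : ℝ) < 1 by norm_num))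
  filter_upwards [e1, e2, eventually_ge_atTop 100] with n h1 h2 h4
  refine ⟨?_, ?_, ?_, h4⟩
  · rw [div_lt_iff₀ (by positivity)] at h1
    have e : (205 / 100 : ℝ) ^ n = (205 / 202 : ℝ) ^ n * (202 / 100 : ℝ) ^ n := by
      rw [← mul_pow]; norm_num
    rw [e]
    apply mul_le_mul_of_nonneg_right _ (by positivity)
    linarith
  · rw [div_lt_iff₀ (by positivity)] at h2
    have e : (3 : ℝ) ^ n = (300 / 205 : ℝ) ^ n * (205 / 100 : ℝ) ^ n := by
      rw [← mul_pow]; norm_num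
    rw [e]
    apply mul_le_mul_of_nonneg_right _ (by positivity)
    linarith
  · have hn : (100 : ℝ) ≤ n := by exact_mod_cast h4
    have h5 : 1 + 302 / 100 * (n : ℝ) ^ 3 ≤ (n : ℝ) ^ 4 := by
      have : (1 : ℝ) ≤ (n : ℝ) ^ 3 := one_le_pow₀ (by linarith)
      have e : (n : ℝ) ^ 4 = n * (n : ℝ) ^ 3 := by ring
      rw [e]
      nlinarith
    calc Real.log (1 + 302 / 100 * (n : ℝ) ^ 3) ≤ Real.log ((n : ℝ) ^ 4) :=
          Real.log_le_log (by positivity) h5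
      _ = 4 * Real.log n := by rw [Real.log_pow]; norm_num
      _ ≤ n := by
          -- log n = 4 log (n^{1/4})... use log n ≤ 2 sqrt n
          have h6 : Real.log n ≤ 2 * Real.sqrt n := by
            have h7 : (n : ℝ) = Real.sqrt n ^ 2 := (Real.sq_sqrt (by positivity)).symm
            have h8 : 0 < Real.sqrt n := Real.sqrt_pos.2 (by linarith)
            calc Real.log n = Real.log (Real.sqrt n ^ 2) := by rw [← h7]
              _ = 2 * Real.log (Real.sqrt n) := by rw [Real.log_pow]; norm_num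
              _ ≤ 2 * Real.sqrt n := by
                  have := log_le_self' h8
                  linarith
          have h9 : 8 * Real.sqrt n ≤ n := by
            have h7 : (n : ℝ) = Real.sqrt n ^ 2 := (Real.sq_sqrt (by positivity)).symm
            have h10 : (10 : ℝ) ≤ Real.sqrt n := by
              apply Real.le_sqrt_of_sq_le
              norm_num
              exact h4
            nlinarith
          linarith

/-- conditions on `y = n^{1/8}` -/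
structure YCond (A κ y : ℝ) : Prop where
  h1 : 1000 ≤ y
  h2 : 2 * A + 20 ≤ κ * y
  h3 : 48 * A + 200 ≤ κ * y
  h4 : y ^ 16 * Real.exp (-(y / 2)) ≤ 1
  h5 : 2 * (1 + Real.log 13 + Real.log 2048) ≤ Real.log y

lemma ev_ycond (A : ℝ) {κ : ℝ} (hκ : 0 < κ) : ∀ᶠ y : ℝ in atTop, YCond A κ y := by
  have t1 : Tendsto (fun y : ℝ => κ * y) atTop atTop := tendsto_id.const_mul_atTop hκ
  have t4 : Tendsto (fun y : ℝ => (y / 2) ^ 16 * Real.exp (-(y / 2))) atTop (nhds 0) :=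
    (Real.tendsto_pow_mul_exp_neg_atTop_nhds_zero 16).comp (tendsto_id.atTop_div_const (by norm_num))
  have e4 := t4.eventually (gt_mem_nhds (show (0 : ℝ) < 1 / 2 ^ 16 by norm_num))
  filter_upwards [eventually_ge_atTop (1000 : ℝ), t1.eventually (eventually_ge_atTop (2 * A + 20)),
    t1.eventually (eventually_ge_atTop (48 * A + 200)), e4,
    Real.tendsto_log_atTop.eventually
      (eventually_ge_atTop (2 * (1 + Real.log 13 + Real.log 2048)))] with y h1 h2 h3 h4 h5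
  refine ⟨h1, h2, h3, ?_, h5⟩
  have e : (y / 2) ^ 16 = y ^ 16 / 2 ^ 16 := by rw [div_pow]
  rw [e] at h4
  have h6 : y ^ 16 * Real.exp (-(y / 2)) / 2 ^ 16 < 1 / 2 ^ 16 := by
    calc y ^ 16 * Real.exp (-(y / 2)) / 2 ^ 16 = y ^ 16 / 2 ^ 16 * Real.exp (-(y / 2)) := by ring
      _ < _ := h4
  rw [div_lt_div_iff_of_pos_right (by norm_num)] at h6
  exact h6.le

/-- the final constant -/
noncomputable def cc (A : ℝ) : ℝ := 1 / (200000 * (5 * A + 6))

/-- Everything needed about the parameters. -/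
structure AllCond (A κ : ℝ) (n m N₁ : ℕ) (D0 : ℝ) : Prop where
  P : Params n m A κ (1 / (n : ℝ) ^ 3) (12288 * D0)
  hcnt : Real.exp ((5 * A + 6) * (12288 * D0)) * (2 * (N₁ : ℝ) ^ 2 * 3 ^ n) ≤ ((m : ℝ) / 1024) ^ n
  hG : ((7 ^ n : ℕ) : ℝ) * (2 * (N₁ : ℝ) ^ 2 * 4 ^ n) ≤ 128 ^ n
  hunion : ((1 + 2 * (151 / 100) / (1 / (n : ℝ) ^ 3)) ^ n) ^ N₁ * (2 / 3 : ℝ) ^ (7 ^ n) ≤ 1 / 1000
  hD0 : 0 < D0
  hdeep : 1536 * D0 * Real.exp (-(m : ℝ)) ≤ 1 / 8
  hN : 768 * D0 * (202 / 100 : ℝ) ^ n < N₁ + 1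
  hη : 1 / (n : ℝ) ^ 3 ≤ 1 / 1000
  hmn : (m : ℝ) ≤ n
  hvolS : ∑ k : Fin (n + 1), (1 + 2 * (1 / (n : ℝ) ^ 3) - ((k : ℕ) : ℝ) / n) ^ n ≤ 2
  hvolD : (1 + 2 * (1 / (n : ℝ) ^ 3) - (m : ℝ) / n) ^ n ≤ 2 * Real.exp (-(m : ℝ))

lemma exp_two_eta {n : ℕ} (hn : 100 ≤ n) : Real.exp (n * (2 * (1 / (n : ℝ) ^ 3))) ≤ 6 / 5 := by
  have hn' : (100 : ℝ) ≤ n := by exact_mod_cast hn
  have h1 : (n : ℝ) * (2 * (1 / (n : ℝ) ^ 3)) ≤ 1 / 10 := by
    have : (n : ℝ) * (2 * (1 / (n : ℝ) ^ 3)) = 2 / (n : ℝ) ^ 2 := by field_simp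
    rw [this, div_le_div_iff₀ (by positivity) (by norm_num)]
    nlinarith
  calc Real.exp (n * (2 * (1 / (n : ℝ) ^ 3))) ≤ Real.exp (1 / 10) := Real.exp_le_exp.2 h1
    _ ≤ 6 / 5 := by
        have h2 : Real.exp (-(1 / 10)) ≥ 1 - 1 / 10 := by
          have := Real.add_one_le_exp (-(1 / 10) : ℝ)
          linarith
        have h3 : Real.exp (1 / 10) * Real.exp (-(1 / 10)) = 1 := by
          rw [← Real.exp_add]; simp
        have h4 := Real.exp_pos (1 / 10 : ℝ)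
        nlinarith

lemma volS_bound {n : ℕ} (hn : 100 ≤ n) :
    ∑ k : Fin (n + 1), (1 + 2 * (1 / (n : ℝ) ^ 3) - ((k : ℕ) : ℝ) / n) ^ n ≤ 2 := by
  have hn' : (100 : ℝ) ≤ n := by exact_mod_cast hn
  have h1 : ∀ k : Fin (n + 1), (1 + 2 * (1 / (n : ℝ) ^ 3) - ((k : ℕ) : ℝ) / n) ^ n
      ≤ 6 / 5 * (2 / 5) ^ (k : ℕ) := by
    intro k
    have hk : ((k : ℕ) : ℝ) / n ≤ 1 := by
      rw [div_le_one (by linarith)]
      have := k.isLt
      exact_mod_cast (by omega : (k : ℕ) ≤ n)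
    have h0 : 0 ≤ 1 + 2 * (1 / (n : ℝ) ^ 3) - ((k : ℕ) : ℝ) / n := by
      have : 0 ≤ 2 * (1 / (n : ℝ) ^ 3) := by positivity
      linarith
    calc (1 + 2 * (1 / (n : ℝ) ^ 3) - ((k : ℕ) : ℝ) / n) ^ n
        ≤ (Real.exp (2 * (1 / (n : ℝ) ^ 3) - ((k : ℕ) : ℝ) / n)) ^ n := by
          apply pow_le_pow_left₀ h0
          have := Real.add_one_le_exp (2 * (1 / (n : ℝ) ^ 3) - ((k : ℕ) : ℝ) / n)
          linarith
      _ = Real.exp (n * (2 * (1 / (n : ℝ) ^ 3))) * Real.exp (-((k : ℕ) : ℝ)) := by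
          rw [← Real.exp_nat_mul, ← Real.exp_add]
          congr 1
          field_simp
          ring
      _ ≤ 6 / 5 * (2 / 5) ^ (k : ℕ) := by
          apply mul_le_mul (exp_two_eta hn) _ (Real.exp_pos _).le (by norm_num)
          have h2 : Real.exp (-((k : ℕ) : ℝ)) = (Real.exp (-1)) ^ (k : ℕ) := by
            rw [← Real.exp_nat_mul]; congr 1; ring
          rw [h2]
          apply pow_le_pow_left₀ (Real.exp_pos _).le
          rw [Real.exp_neg, inv_le_comm₀ (Real.exp_pos _) (by norm_num)]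
          have := Real.exp_one_gt_d9
          norm_num
          linarith
  calc _ ≤ ∑ k : Fin (n + 1), 6 / 5 * (2 / 5 : ℝ) ^ (k : ℕ) := sum_le_sum fun k _ => h1 k
    _ = 6 / 5 * ∑ k ∈ range (n + 1), (2 / 5 : ℝ) ^ k := by
        rw [← mul_sum, Finset.sum_range]
    _ ≤ 6 / 5 * (5 / 3) := by
        apply mul_le_mul_of_nonneg_left _ (by norm_num)
        rw [geom_sum_eq (by norm_num)]
        have : 0 ≤ (2 / 5 : ℝ) ^ (n + 1) := by positivity
        rw [div_le_iff_of_neg (by norm_num)]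
        linarith
    _ = 2 := by norm_num

lemma volD_bound {n m : ℕ} (hn : 100 ≤ n) (hmn : m ≤ n) :
    (1 + 2 * (1 / (n : ℝ) ^ 3) - (m : ℝ) / n) ^ n ≤ 2 * Real.exp (-(m : ℝ)) := by
  have hn' : (100 : ℝ) ≤ n := by exact_mod_cast hn
  have hk : (m : ℝ) / n ≤ 1 := by
    rw [div_le_one (by linarith)]
    exact_mod_cast hmn
  have h0 : 0 ≤ 1 + 2 * (1 / (n : ℝ) ^ 3) - (m : ℝ) / n := by
    have : 0 ≤ 2 * (1 / (n : ℝ) ^ 3) := by positivity
    linarith
  calc (1 + 2 * (1 / (n : ℝ) ^ 3) - (m : ℝ) / n) ^ n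
      ≤ (Real.exp (2 * (1 / (n : ℝ) ^ 3) - (m : ℝ) / n)) ^ n := by
        apply pow_le_pow_left₀ h0
        have := Real.add_one_le_exp (2 * (1 / (n : ℝ) ^ 3) - (m : ℝ) / n)
        linarith
    _ = Real.exp (n * (2 * (1 / (n : ℝ) ^ 3))) * Real.exp (-(m : ℝ)) := by
        rw [← Real.exp_nat_mul, ← Real.exp_add]
        congr 1
        field_simp
        ring
    _ ≤ 2 * Real.exp (-(m : ℝ)) := by
        apply mul_le_mul_of_nonneg_right _ (Real.exp_pos _).le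
        have := exp_two_eta hn
        linarith

lemma exp_neg_one_le : Real.exp (-1) ≤ 1 / 2 := by
  rw [Real.exp_neg, one_div]
  apply inv_anti₀ (by norm_num)
  have := Real.exp_one_gt_d9
  linarith

lemma cond_G {n N₁ : ℕ} (hn100 : 100 ≤ n) (hN₁sq : (N₁ : ℝ) ^ 2 ≤ (42025 / 10000 : ℝ) ^ n) :
    ((7 ^ n : ℕ) : ℝ) * (2 * (N₁ : ℝ) ^ 2 * 4 ^ n) ≤ 128 ^ n := by
  have hn' : (100 : ℝ) ≤ n := by exact_mod_cast hn100
  push_cast
  calc (7 : ℝ) ^ n * (2 * (N₁ : ℝ) ^ 2 * 4 ^ n)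
      ≤ (7 : ℝ) ^ n * (2 * (42025 / 10000 : ℝ) ^ n * 4 ^ n) := by
        apply mul_le_mul_of_nonneg_left _ (by positivity)
        apply mul_le_mul_of_nonneg_right _ (by positivity)
        linarith
    _ = 2 * (7 * (42025 / 10000) * 4 : ℝ) ^ n := by rw [mul_pow, mul_pow]; ring
    _ ≤ (128 / 118 : ℝ) ^ n * (118 : ℝ) ^ n := by
        apply mul_le_mul _ _ (by positivity) (by positivity)
        · have h1 := one_add_mul_le_pow (a := (10 / 118 : ℝ)) (by norm_num) n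
          calc (2 : ℝ) ≤ 1 + n * (10 / 118) := by linarith
            _ ≤ (1 + 10 / 118) ^ n := h1
            _ = (128 / 118 : ℝ) ^ n := by norm_num
        · exact pow_le_pow_left₀ (by norm_num) (by norm_num) n
    _ = 128 ^ n := by rw [← mul_pow]; norm_num

lemma two_thirds_pow (k : ℕ) : (2 / 3 : ℝ) ^ k ≤ Real.exp (-((k : ℝ) / 3)) := by
  calc (2 / 3 : ℝ) ^ k ≤ (Real.exp (-(1 / 3))) ^ k := by
        apply pow_le_pow_left₀ (by norm_num)
        have := Real.add_one_le_exp (-(1 / 3) : ℝ)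
        linarith
    _ = Real.exp (-((k : ℝ) / 3)) := by
        rw [← Real.exp_nat_mul]
        congr 1
        ring

lemma exp_neg_seven : Real.exp (-7) ≤ 1 / 1000 := by
  rw [Real.exp_neg, one_div]
  apply inv_anti₀ (by norm_num)
  have h6 := Real.exp_one_gt_d9
  have h7 : Real.exp 7 = (Real.exp 1) ^ 7 := by
    rw [← Real.exp_nat_mul]; norm_num
  rw [h7]
  calc (1000 : ℝ) ≤ 2.7182818283 ^ 7 := by norm_num
    _ ≤ (Real.exp 1) ^ 7 := pow_le_pow_left₀ (by norm_num) h6.le 7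

lemma cond_union {n N₁ : ℕ} (hN : NCond n) (hN₁le : (N₁ : ℝ) ≤ (205 / 100 : ℝ) ^ n) :
    ((1 + 2 * (151 / 100) / (1 / (n : ℝ) ^ 3)) ^ n) ^ N₁ * (2 / 3 : ℝ) ^ (7 ^ n) ≤ 1 / 1000 := by
  have hn' : (100 : ℝ) ≤ n := by exact_mod_cast hN.h4
  have h1 : (1 + 2 * (151 / 100) / (1 / (n : ℝ) ^ 3)) ≤ Real.exp n := by
    have e : (1 + 2 * (151 / 100) / (1 / (n : ℝ) ^ 3)) = 1 + 302 / 100 * (n : ℝ) ^ 3 := by
      field_simp
      ring
    rw [e, ← Real.log_le_iff_le_exp (by positivity)]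
    exact hN.h3
  have h2 : ((1 + 2 * (151 / 100) / (1 / (n : ℝ) ^ 3)) ^ n) ^ N₁ ≤ Real.exp (3 ^ n) := by
    calc ((1 + 2 * (151 / 100) / (1 / (n : ℝ) ^ 3)) ^ n) ^ N₁
        ≤ ((Real.exp n) ^ n) ^ N₁ := by
          apply pow_le_pow_left₀ (by positivity)
          exact pow_le_pow_left₀ (by positivity) h1 n
      _ = Real.exp (N₁ * (n * n)) := by
          rw [← Real.exp_nat_mul, ← Real.exp_nat_mul]
      _ ≤ Real.exp (3 ^ n) := by
          apply Real.exp_le_exp.2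
          refine le_trans ?_ hN.h2
          calc (N₁ : ℝ) * (n * n) ≤ (205 / 100 : ℝ) ^ n * (n * n) :=
                mul_le_mul_of_nonneg_right hN₁le (by positivity)
            _ = _ := by ring
  have h3 := two_thirds_pow (7 ^ n)
  have h3' : (((7 ^ n : ℕ) : ℝ)) = (7 : ℝ) ^ n := by push_cast; rfl
  rw [h3'] at h3
  have h4 : (101 : ℝ) * 3 ^ n ≤ 7 ^ n := by
    have h5 : (101 : ℝ) ≤ 2 ^ n := by
      have h6 := one_add_mul_le_pow (a := (1 : ℝ)) (by norm_num) n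
      have h7 : ((1 : ℝ) + 1) ^ n = 2 ^ n := by norm_num
      rw [h7] at h6
      linarith
    calc (101 : ℝ) * 3 ^ n ≤ 2 ^ n * 3 ^ n := mul_le_mul_of_nonneg_right h5 (by positivity)
      _ = 6 ^ n := by rw [← mul_pow]; norm_num
      _ ≤ 7 ^ n := pow_le_pow_left₀ (by norm_num) (by norm_num) n
  have h5 : (1 : ℝ) ≤ 3 ^ n := one_le_pow₀ (by norm_num)
  have h8 : (0 : ℝ) ≤ (2 / 3 : ℝ) ^ (7 ^ n) := pow_nonneg (by norm_num) _
  calc ((1 + 2 * (151 / 100) / (1 / (n : ℝ) ^ 3)) ^ n) ^ N₁ * (2 / 3 : ℝ) ^ (7 ^ n)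
      ≤ Real.exp (3 ^ n) * Real.exp (-((7 : ℝ) ^ n / 3)) :=
        mul_le_mul h2 h3 h8 (Real.exp_pos _).le
    _ = Real.exp (3 ^ n - 7 ^ n / 3) := by rw [← Real.exp_add]; congr 1
    _ ≤ Real.exp (-7) := by
        apply Real.exp_le_exp.2
        linarith
    _ ≤ 1 / 1000 := exp_neg_seven

lemma cond_cnt {A κ y : ℝ} {n m N₁ : ℕ} (hA : 1 ≤ A) (hn100 : 100 ≤ n) (hY : YCond A κ y)
    (hlogn : Real.log n = 8 * Real.log y) (hmy2 : y / 2 ≤ m)
    (hN₁sq : (N₁ : ℝ) ^ 2 ≤ (42025 / 10000 : ℝ) ^ n) :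
    Real.exp ((5 * A + 6) * (12288 * (cc A * n * Real.log n))) * (2 * (N₁ : ℝ) ^ 2 * 3 ^ n)
      ≤ ((m : ℝ) / 1024) ^ n := by
  have hn' : (100 : ℝ) ≤ n := by exact_mod_cast hn100
  have hy0 := hY.h1
  have hypos : 0 < y := by linarith
  have hlogy0 : 0 < Real.log y := Real.log_pos (by linarith)
  have h1 : (5 * A + 6) * (12288 * (cc A * n * Real.log n)) ≤ n * (1 / 2 * Real.log y) := by
    have h2 : (5 * A + 6) * cc A = 1 / 200000 := by
      unfold cc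
      have : (5 * A + 6) ≠ 0 := by positivity
      field_simp
    have h3 : (5 * A + 6) * (12288 * (cc A * n * Real.log n))
        = ((5 * A + 6) * cc A) * 12288 * (n * Real.log n) := by ring
    rw [h3, h2, hlogn]
    have h4 : 0 < n * Real.log y := by positivity
    nlinarith
  have h2 : 2 * (N₁ : ℝ) ^ 2 * 3 ^ n ≤ Real.exp (n * (1 + Real.log 13)) := by
    have h3 : (2 : ℝ) ≤ Real.exp n := by
      have := Real.add_one_le_exp (n : ℝ)
      linarith
    have h4 : (N₁ : ℝ) ^ 2 * 3 ^ n ≤ 13 ^ n := by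
      calc (N₁ : ℝ) ^ 2 * 3 ^ n ≤ (42025 / 10000 : ℝ) ^ n * 3 ^ n :=
            mul_le_mul_of_nonneg_right hN₁sq (by positivity)
        _ = (42025 / 10000 * 3 : ℝ) ^ n := by rw [mul_pow]
        _ ≤ 13 ^ n := pow_le_pow_left₀ (by norm_num) (by norm_num) n
    have h5 : (13 : ℝ) ^ n = Real.exp (n * Real.log 13) := by
      rw [Real.exp_nat_mul, Real.exp_log (by norm_num)]
    calc 2 * (N₁ : ℝ) ^ 2 * 3 ^ n = 2 * ((N₁ : ℝ) ^ 2 * 3 ^ n) := by ring
      _ ≤ Real.exp n * 13 ^ n := mul_le_mul h3 h4 (by positivity) (Real.exp_pos _).le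
      _ = _ := by rw [h5, ← Real.exp_add]; congr 1; ring
  calc Real.exp ((5 * A + 6) * (12288 * (cc A * n * Real.log n))) * (2 * (N₁ : ℝ) ^ 2 * 3 ^ n)
      ≤ Real.exp (n * (1 / 2 * Real.log y)) * Real.exp (n * (1 + Real.log 13)) :=
        mul_le_mul (Real.exp_le_exp.2 h1) h2 (by positivity) (Real.exp_pos _).le
    _ = Real.exp (n * (1 / 2 * Real.log y + (1 + Real.log 13))) := by
        rw [← Real.exp_add]; congr 1; ring
    _ ≤ Real.exp (n * (Real.log y - Real.log 2048)) := by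
        apply Real.exp_le_exp.2
        apply mul_le_mul_of_nonneg_left _ (by linarith)
        have := hY.h5
        linarith
    _ = (y / 2048) ^ n := by
        rw [Real.exp_nat_mul, Real.exp_sub, Real.exp_log hypos, Real.exp_log (by norm_num)]
    _ ≤ ((m : ℝ) / 1024) ^ n := by
        apply pow_le_pow_left₀ (by positivity)
        linarith

lemma cond_p4 {A κ y S x : ℝ} {m : ℕ} (hA : 1 ≤ A) (hκ : 0 < κ) (hY : YCond A κ y)
    (hS : S ≤ Real.exp (16 * y)) (hm : (m : ℝ) ≤ y) (hx : y ^ 2 ≤ x) :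
    S * Real.exp (-(κ * x)) ≤ 1 / 2 * Real.exp (-(A * (1 + m))) := by
  have hy0 := hY.h1
  have hypos : 0 < y := by linarith
  have h1 : Real.exp (-(κ * x)) ≤ Real.exp (-(κ * y ^ 2)) := by
    apply Real.exp_le_exp.2
    have : κ * y ^ 2 ≤ κ * x := mul_le_mul_of_nonneg_left hx hκ.le
    linarith
  have h2 : 2 * (A * y) + 20 * y ≤ κ * y ^ 2 := by
    have h := mul_le_mul_of_nonneg_right hY.h2 hypos.le
    have e1 : (2 * A + 20) * y = 2 * (A * y) + 20 * y := by ring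
    have e2 : κ * y * y = κ * y ^ 2 := by ring
    rw [e1, e2] at h
    exact h
  calc S * Real.exp (-(κ * x))
      ≤ Real.exp (16 * y) * Real.exp (-(κ * y ^ 2)) :=
        mul_le_mul hS h1 (Real.exp_pos _).le (Real.exp_pos _).le
    _ = Real.exp (16 * y - κ * y ^ 2) := by rw [← Real.exp_add]; congr 1
    _ ≤ Real.exp (-1 + -(A * (1 + m))) := by
        apply Real.exp_le_exp.2
        have h3 : A * (1 + m) ≤ A * (2 * y) :=
          mul_le_mul_of_nonneg_left (by linarith) (by linarith)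
        have e1 : A * (2 * y) = 2 * (A * y) := by ring
        rw [e1] at h3
        linarith
    _ = Real.exp (-1) * Real.exp (-(A * (1 + m))) := Real.exp_add _ _
    _ ≤ 1 / 2 * Real.exp (-(A * (1 + m))) :=
        mul_le_mul_of_nonneg_right exp_neg_one_le (Real.exp_pos _).le

lemma cond_p5 {A κ y S x w : ℝ} (hA : 1 ≤ A) (hκ : 0 < κ) (hY : YCond A κ y)
    (hS0 : 0 ≤ S) (hS : S ≤ Real.exp (16 * y)) (hx : y ^ 6 ≤ x) (hw : w ≤ 8 * y ^ 5) :
    S ^ 2 * Real.exp (-(κ * x)) ≤ Real.exp (-2 * ((3 * A + 6) * w)) / 2 := by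
  have hy0 := hY.h1
  have hypos : 0 < y := by linarith
  have hy4 : (1 : ℝ) ≤ y ^ 4 := one_le_pow₀ (by linarith)
  have hy5 : y ≤ y ^ 5 := le_self_pow₀ (by linarith) (by norm_num)
  have h1 : Real.exp (-(κ * x)) ≤ Real.exp (-(κ * y ^ 6)) := by
    apply Real.exp_le_exp.2
    have : κ * y ^ 6 ≤ κ * x := mul_le_mul_of_nonneg_left hx hκ.le
    linarith
  have h2 : 48 * (A * y ^ 5) + 200 * y ^ 5 ≤ κ * y ^ 6 := by
    have h := mul_le_mul_of_nonneg_right hY.h3 (by positivity : 0 ≤ y ^ 5)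
    have e1 : (48 * A + 200) * y ^ 5 = 48 * (A * y ^ 5) + 200 * y ^ 5 := by ring
    have e2 : κ * y * y ^ 5 = κ * y ^ 6 := by ring
    rw [e1, e2] at h
    exact h
  have h3 : S ^ 2 ≤ Real.exp (32 * y) := by
    calc S ^ 2 ≤ (Real.exp (16 * y)) ^ 2 := pow_le_pow_left₀ hS0 hS 2
      _ = Real.exp (32 * y) := by rw [← Real.exp_nat_mul]; congr 1; ring
  calc S ^ 2 * Real.exp (-(κ * x))
      ≤ Real.exp (32 * y) * Real.exp (-(κ * y ^ 6)) :=
        mul_le_mul h3 h1 (Real.exp_pos _).le (Real.exp_pos _).le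
    _ = Real.exp (32 * y - κ * y ^ 6) := by rw [← Real.exp_add]; congr 1
    _ ≤ Real.exp (-1 + -2 * ((3 * A + 6) * w)) := by
        apply Real.exp_le_exp.2
        have h4 : (3 * A + 6) * w ≤ (3 * A + 6) * (8 * y ^ 5) :=
          mul_le_mul_of_nonneg_left hw (by linarith)
        have e1 : (3 * A + 6) * (8 * y ^ 5) = 24 * (A * y ^ 5) + 48 * y ^ 5 := by ring
        rw [e1] at h4
        linarith
    _ = Real.exp (-1) * Real.exp (-2 * ((3 * A + 6) * w)) := Real.exp_add _ _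
    _ ≤ 1 / 2 * Real.exp (-2 * ((3 * A + 6) * w)) :=
        mul_le_mul_of_nonneg_right exp_neg_one_le (Real.exp_pos _).le
    _ = _ := by ring

theorem all_cond {A κ : ℝ} (hA : 1 ≤ A) (hκ : 0 < κ) :
    ∀ᶠ n : ℕ in atTop, ∃ m N₁ : ℕ, AllCond A κ n m N₁ (cc A * n * Real.log n) := by
  have ty : Tendsto (fun n : ℕ => (n : ℝ) ^ (1 / 8 : ℝ)) atTop atTop :=
    (tendsto_rpow_atTop (by norm_num)).comp tendsto_natCast_atTop_atTop
  filter_upwards [ev_ncond, ty.eventually (ev_ycond A hκ)] with n hN hY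
  set y := (n : ℝ) ^ (1 / 8 : ℝ) with hy
  have hn100 := hN.h4
  have hn' : (100 : ℝ) ≤ n := by exact_mod_cast hn100
  have hy0 := hY.h1
  have hypos : 0 < y := by linarith
  have hy8 : y ^ 8 = n := by
    rw [hy, ← Real.rpow_natCast, ← Real.rpow_mul (by positivity)]
    norm_num
  set m := ⌊y⌋₊ with hm
  have hmy : (m : ℝ) ≤ y := Nat.floor_le hypos.le
  have hmy2 : y / 2 ≤ m := by
    have := Nat.lt_floor_add_one y
    rw [← hm] at this
    linarith
  have hm1 : (1 : ℝ) ≤ m := by linarith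
  have hm0 : (0 : ℝ) < m := by linarith
  have hlogn : Real.log n = 8 * Real.log y := by
    rw [← hy8, Real.log_pow]; norm_num
  have hlogy : Real.log y ≤ y := log_le_self' hypos
  have hlogn0 : 0 < Real.log n := Real.log_pos (by linarith)
  have hlogy0 : 0 < Real.log y := Real.log_pos (by linarith)
  have hcc0 : 0 < cc A := by unfold cc; positivity
  have hcc1 : cc A ≤ 1 / 2200000 := by
    unfold cc
    apply one_div_le_one_div_of_le (by norm_num)
    linarith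
  set D0 := cc A * n * Real.log n with hD0
  have hD0pos : 0 < D0 := by positivity
  have hSlog : 12288 * D0 ≤ n * Real.log n := by
    have : 12288 * D0 = (12288 * cc A) * (n * Real.log n) := by rw [hD0]; ring
    rw [this]
    have h1 : 12288 * cc A ≤ 1 := by linarith
    calc (12288 * cc A) * (n * Real.log n) ≤ 1 * (n * Real.log n) :=
          mul_le_mul_of_nonneg_right h1 (by positivity)
      _ = _ := one_mul _
  have hlognn : Real.log n ≤ n := log_le_self' (by linarith)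
  have hSn2 : 12288 * D0 ≤ (n : ℝ) ^ 2 := by
    calc 12288 * D0 ≤ n * Real.log n := hSlog
      _ ≤ n * n := mul_le_mul_of_nonneg_left hlognn (by linarith)
      _ = _ := by ring
  have hSy : 12288 * D0 ≤ y ^ 16 := by
    calc 12288 * D0 ≤ (n : ℝ) ^ 2 := hSn2
      _ = y ^ 16 := by rw [← hy8]; ring
  have hyexp : y ^ 16 ≤ Real.exp (16 * y) := by
    calc y ^ 16 ≤ (Real.exp y) ^ 16 := by
          apply pow_le_pow_left₀ hypos.le
          have := Real.add_one_le_exp y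
          linarith
      _ = Real.exp (16 * y) := by rw [← Real.exp_nat_mul]; norm_num
  -- n / m^3
  have hnm3 : y ^ 5 ≤ n / (m : ℝ) ^ 3 := by
    rw [le_div_iff₀ (by positivity), ← hy8]
    have : (m : ℝ) ^ 3 ≤ y ^ 3 := pow_le_pow_left₀ hm0.le hmy 3
    calc y ^ 5 * (m : ℝ) ^ 3 ≤ y ^ 5 * y ^ 3 := mul_le_mul_of_nonneg_left this (by positivity)
      _ = y ^ 8 := by ring
  have hnm3' : n / (m : ℝ) ^ 3 ≤ 8 * y ^ 5 := by
    rw [div_le_iff₀ (by positivity), ← hy8]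
    have : (y / 2) ^ 3 ≤ (m : ℝ) ^ 3 := pow_le_pow_left₀ (by positivity) hmy2 3
    calc y ^ 8 = 8 * y ^ 5 * (y / 2) ^ 3 := by ring
      _ ≤ 8 * y ^ 5 * (m : ℝ) ^ 3 := mul_le_mul_of_nonneg_left this (by positivity)
  have hnm6 : y ^ 2 ≤ n / (m : ℝ) ^ 6 := by
    rw [le_div_iff₀ (by positivity), ← hy8]
    have : (m : ℝ) ^ 6 ≤ y ^ 6 := pow_le_pow_left₀ hm0.le hmy 6
    calc y ^ 2 * (m : ℝ) ^ 6 ≤ y ^ 2 * y ^ 6 := mul_le_mul_of_nonneg_left this (by positivity)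
      _ = y ^ 8 := by ring
  have hnm2 : y ^ 6 ≤ n / (m : ℝ) ^ 2 := by
    rw [le_div_iff₀ (by positivity), ← hy8]
    have : (m : ℝ) ^ 2 ≤ y ^ 2 := pow_le_pow_left₀ hm0.le hmy 2
    calc y ^ 6 * (m : ℝ) ^ 2 ≤ y ^ 6 * y ^ 2 := mul_le_mul_of_nonneg_left this (by positivity)
      _ = y ^ 8 := by ring
  have hy4 : (1 : ℝ) ≤ y ^ 4 := one_le_pow₀ (by linarith)
  have hy5 : 1000 * y ≤ y ^ 5 := by
    have h1 : (1000 : ℝ) ≤ y ^ 4 := by
      calc (1000 : ℝ) ≤ y := hy0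
        _ ≤ y ^ 4 := le_self_pow₀ (by linarith) (by norm_num)
    calc 1000 * y ≤ y ^ 4 * y := mul_le_mul_of_nonneg_right h1 hypos.le
      _ = y ^ 5 := by ring
  have hmn : (m : ℝ) ≤ n := by
    rw [← hy8]
    exact hmy.trans (le_self_pow₀ (by linarith) (by norm_num))
  have hmn' : m ≤ n := by exact_mod_cast hmn
  set N₁ := ⌊(205 / 100 : ℝ) ^ n⌋₊ with hN₁
  have hN₁le : (N₁ : ℝ) ≤ (205 / 100 : ℝ) ^ n := Nat.floor_le (by positivity)
  have hN₁lt : (205 / 100 : ℝ) ^ n < N₁ + 1 := Nat.lt_floor_add_one _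
  have hN₁sq : (N₁ : ℝ) ^ 2 ≤ (42025 / 10000 : ℝ) ^ n := by
    calc (N₁ : ℝ) ^ 2 ≤ ((205 / 100 : ℝ) ^ n) ^ 2 :=
          pow_le_pow_left₀ (Nat.cast_nonneg _) hN₁le 2
      _ = (42025 / 10000 : ℝ) ^ n := by
          rw [← pow_mul, mul_comm, pow_mul]; norm_num
  refine ⟨m, N₁, ?_⟩
  refine ⟨⟨by omega, by exact_mod_cast hm1, hA, hκ, by positivity, le_rfl, by positivity,
    ?_, ?_, ?_, ?_, ?_, ?_⟩, ?_, ?_, ?_, hD0pos, ?_, ?_, ?_, hmn, volS_bound hn100,
    volD_bound hn100 hmn'⟩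
  · -- p2
    linarith
  · -- p2'
    have h1 : Real.log (4 * n) = Real.log 4 + 8 * Real.log y := by
      rw [Real.log_mul (by norm_num) (by positivity), hlogn]
    have h2 : Real.log 4 ≤ 4 := log_le_self' (by norm_num)
    rw [h1]
    linarith
  · -- p3
    have h1 : (m : ℝ) / n ≤ 1 / 10 ^ 8 := by
      have h2 : (m : ℝ) / n ≤ 1 / y ^ 7 := by
        rw [div_le_div_iff₀ (by linarith) (by positivity), ← hy8]
        calc (m : ℝ) * y ^ 7 ≤ y * y ^ 7 := mul_le_mul_of_nonneg_right hmy (by positivity)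
          _ = 1 * y ^ 8 := by ring
      refine h2.trans ?_
      apply one_div_le_one_div_of_le (by norm_num)
      calc (10 : ℝ) ^ 8 ≤ 1000 ^ 7 := by norm_num
        _ ≤ y ^ 7 := pow_le_pow_left₀ (by norm_num) hy0 7
    have h3 : 1 / (m : ℝ) ^ 3 ≤ 1 / 10 ^ 8 := by
      apply one_div_le_one_div_of_le (by norm_num)
      calc (10 : ℝ) ^ 8 ≤ 500 ^ 3 := by norm_num
        _ ≤ (m : ℝ) ^ 3 := pow_le_pow_left₀ (by norm_num) (by linarith) 3
    calc _ ≤ (1 : ℝ) / 10 ^ 8 + 1 / 10 ^ 8 := add_le_add h1 h3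
      _ ≤ _ := by norm_num
  · -- p4
    rw [mul_div_assoc]
    exact cond_p4 hA hκ hY (hSy.trans hyexp) hmy hnm6
  · -- p5
    rw [mul_div_assoc]
    exact cond_p5 hA hκ hY (by positivity) (hSy.trans hyexp) hnm2 hnm3'
  · -- p6
    calc 12288 * D0 ≤ n * Real.log n := hSlog
      _ ≤ n * y ^ 5 := by
          apply mul_le_mul_of_nonneg_left _ (by linarith)
          rw [hlogn]
          linarith
      _ ≤ n * (n / (m : ℝ) ^ 3) := mul_le_mul_of_nonneg_left hnm3 (by linarith)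
  · -- hcnt
    exact cond_cnt hA hn100 hY hlogn hmy2 hN₁sq
  · -- hG
    exact cond_G hn100 hN₁sq
  · -- hunion
    exact cond_union hN hN₁le
  · -- hdeep
    have h1 : Real.exp (-(m : ℝ)) ≤ Real.exp (-(y / 2)) := Real.exp_le_exp.2 (by linarith)
    have h2 := hY.h4
    calc 1536 * D0 * Real.exp (-(m : ℝ)) ≤ 1536 * D0 * Real.exp (-(y / 2)) :=
          mul_le_mul_of_nonneg_left h1 (by positivity)
      _ = 1 / 8 * (12288 * D0 * Real.exp (-(y / 2))) := by ring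
      _ ≤ 1 / 8 * (y ^ 16 * Real.exp (-(y / 2))) := by
          apply mul_le_mul_of_nonneg_left _ (by norm_num)
          exact mul_le_mul_of_nonneg_right hSy (Real.exp_pos _).le
      _ ≤ 1 / 8 * 1 := mul_le_mul_of_nonneg_left h2 (by norm_num)
      _ = 1 / 8 := by norm_num
  · -- hN
    refine lt_of_le_of_lt ?_ hN₁lt
    refine le_trans ?_ hN.h1
    apply mul_le_mul_of_nonneg_right _ (by positivity)
    linarith
  · -- hη
    apply one_div_le_one_div_of_le (by norm_num)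
    calc (1000 : ℝ) ≤ 100 ^ 3 := by norm_num
      _ ≤ (n : ℝ) ^ 3 := pow_le_pow_left₀ (by norm_num) hn' 3

end Vale.Agent.P230.ParamsEx
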