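import Mathlib
import Vale.Agent.P230.Interface
import Vale.Agent.P230.Comb
import Vale.Agent.P230.Kill
import Vale.Agent.P230.Tiles
import Vale.Agent.P230.PartP
import Vale.Agent.P230.PartD
import Vale.Agent.P230.Body
import Vale.Agent.P230.Outcome
import Vale.Agent.P230.Contra
import Vale.Agent.P230.ParamsEx

/-!
# P230 : final assembly
-/

namespace Vale.Agent.P230

open Finset MeasureTheory Metric Filter Comb Kill Tiles Body Outcome Contra ParamsEx
open scoped RealInnerProductSpace ENNReal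

theorem final (hG : PartG) : FinalStatement := by
  classical
  obtain ⟨A', κ, hA', hκ, hev⟩ := hG
  set A := max A' 1 with hA
  have hA1 : 1 ≤ A := le_max_right _ _
  have hAA' : A' ≤ A := le_max_left _ _
  refine ⟨cc A, by unfold cc; positivity, ?_⟩
  filter_upwards [hev, all_cond hA1 hκ, eventually_ge_atTop 1] with n hn hall hn1
  obtain ⟨m, N₁, C⟩ := hall
  have hnpos : (0 : ℝ) < n := by exact_mod_cast hn1
  obtain ⟨N, u, q, hu, hq0, hq1, hin, hlow, hov, hdis⟩ :=
    hn (1 / (n : ℝ) ^ 3) (by positivity) le_rfl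
  let F : Facets n A κ (1 / (n : ℝ) ^ 3) :=
    { N := N, u := u, q := q, hu := hu, hq0 := hq0, hq1 := hq1, hin := hin,
      hlow := by
        intro v a ha hv hva
        refine le_trans ?_ (hlow v a ha hv hva)
        apply Real.exp_le_exp.2
        have h1 : 0 ≤ 1 + n * (1 + 1 / (n : ℝ) ^ 3 - ‖v‖) + n * a := by
          have h2 : 0 ≤ (n : ℝ) * (1 + 1 / (n : ℝ) ^ 3 - ‖v‖) :=
            mul_nonneg hnpos.le (by linarith)
          have h3 : 0 ≤ (n : ℝ) * a := mul_nonneg hnpos.le ha
          linarith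
        have h4 := mul_le_mul_of_nonneg_right hAA' h1
        linarith,
      hov := hov, hdis := hdis }
  have P : Params n m A κ (1 / (n : ℝ) ^ 3) (12288 * (cc A * n * Real.log n)) := C.P
  have hm1 : (1 : ℝ) ≤ m := by exact_mod_cast P.hm
  obtain ⟨T, hTn, hTsep, _, hTcard, _⟩ := exists_net hn1 (ε := 1 / 256) (ρ := 1 / 2)
    (by norm_num) (by norm_num)
  obtain ⟨B, hBn, hBsep, _, hBcard, _⟩ := exists_net hn1 (ε := 1 / (m : ℝ)) (ρ := 1 / 1024)
    (by positivity) (by norm_num)
  obtain ⟨Net, hNetn, _, hNetcov, _, hNetcard⟩ := exists_net hn1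
    (ε := 1 / (n : ℝ) ^ 3) (ρ := 151 / 100) (by positivity) (by norm_num)
  have hTcard' : (128 : ℝ) ^ n ≤ T.card := by
    have e : (1 / 2 : ℝ) / (1 / 256) = 128 := by norm_num
    rw [e] at hTcard
    exact hTcard
  have hBcard' : ((m : ℝ) / 1024) ^ n ≤ B.card := by
    have e : (1 / 1024 : ℝ) / (1 / (m : ℝ)) = (m : ℝ) / 1024 := by field_simp
    rw [e] at hBcard
    exact hBcard
  have hunion : (Net.card : ℝ) ^ N₁ * (2 / 3 : ℝ) ^ (7 ^ n) ≤ 1 / 1000 := by
    refine le_trans ?_ C.hunion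
    apply mul_le_mul_of_nonneg_right _ (pow_nonneg (by norm_num) _)
    exact pow_le_pow_left₀ (Nat.cast_nonneg _) hNetcard N₁
  obtain ⟨U, hvol, hU⟩ := exists_U partP F P T B Net N₁ (7 ^ n) hTsep hTcard' hBn hBsep hBcard'
    C.hcnt C.hG hunion
  have hTne : T.Nonempty := by
    rw [← card_pos]
    have : (0 : ℝ) < T.card := lt_of_lt_of_le (by positivity) hTcard'
    exact_mod_cast this
  have hBne : B.Nonempty := by
    rw [← card_pos]
    have : (0 : ℝ) < B.card := lt_of_lt_of_le (by positivity) hBcard'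
    exact_mod_cast this
  refine ⟨Body F U, body_convexBody F U, ?_⟩
  exact lower_density F P T B Net N₁ (cc A * n * Real.log n) C.hD0 hTn hTsep hTne hBne hBn
    hNetcov le_rfl C.hdeep C.hN C.hη C.hmn C.hvolS C.hvolD U hvol hU

end Vale.Agent.P230
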