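import Mathlib
import Vale.Agent.P230.Defs

/-!
# P230: lattice covering densities of convex bodies (definitions of the problem)
-/

namespace Vale.Agent.P230

open MeasureTheory Filter
open scoped ENNReal Pointwise

/-- Lattice covering density `θ_L(K)`: the infimum of `vol(K) / det Λ` over all full-rank lattices
`Λ` (discrete subgroups spanning `ℝ^n`) with `K + Λ = ℝ^n`. -/
noncomputable def thetaL {n : ℕ} (K : Set (EE n)) : ℝ≥0∞ :=
  ⨅ (Λ : Submodule ℤ (EE n)) (_ : DiscreteTopology Λ) (_ : IsZLattice ℝ Λ)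
    (_ : K + (Λ : Set (EE n)) = Set.univ), volume K / ENNReal.ofReal (ZLattice.covolume Λ volume)

/-- `Θ_L(n)`: the supremum of `θ_L(K)` over all convex bodies in `ℝ^n`. -/
noncomputable def ThetaL (n : ℕ) : ℝ≥0∞ :=
  ⨆ (K : Set (EE n)) (_ : IsConvexBody K), thetaL K

end Vale.Agent.P230
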