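import Mathlib
import Vale.Agent.P230.Defs
import Vale.Agent.P230.LatDefs
import Vale.Agent.P230.PartD

/-!
# P230: `θ_T(K) ≤ θ_L(K)`
-/

namespace Vale.Agent.P230.Lat

open MeasureTheory Filter Metric Vale.Agent.P230 Vale.Agent.P230.AvgD
open scoped ENNReal Pointwise

variable {n : ℕ} (Λ : Submodule ℤ (EE n)) [DiscreteTopology Λ] [IsZLattice ℝ Λ]

omit [IsZLattice ℝ Λ] in
lemma locFin : LocFin (Λ : Set (EE n)) := by
  intro s hs
  have hcl : IsClosed (Λ : Set (EE n)) :=
    @AddSubgroup.isClosed_of_discrete _ _ _ _ _ Λ.toAddSubgroup (inferInstanceAs (DiscreteTopology Λ))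
  have hd : DiscreteTopology (Λ : Set (EE n)) := inferInstanceAs (DiscreteTopology Λ)
  have h1 := Metric.finite_isBounded_inter_isClosed hd.isDiscrete hs hcl
  rw [Set.inter_comm]
  exact h1

/-- counting lattice points in a cube -/
lemma count_le : ∃ d : ℝ, 0 < d ∧ ∀ R : ℝ, 0 ≤ R →
    (((Λ : Set (EE n)) ∩ cube n R).encard : ℝ≥0∞) * ENNReal.ofReal (ZLattice.covolume Λ volume)
      ≤ ENNReal.ofReal ((2 * (R + d)) ^ n) := by
  classical
  set b := Module.Free.chooseBasis ℤ Λ with hb
  set F := ZSpan.fundamentalDomain (b.ofZLatticeBasis ℝ Λ) with hF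
  have hfd : IsAddFundamentalDomain Λ F (volume : Measure (EE n)) :=
    ZLattice.isAddFundamentalDomain b volume
  have hcov : ZLattice.covolume Λ volume = volume.real F :=
    ZLattice.covolume_eq_measure_fundamentalDomain Λ volume hfd
  have hFb : Bornology.IsBounded F := ZSpan.fundamentalDomain_isBounded _
  have hFm : MeasurableSet F := ZSpan.fundamentalDomain_measurableSet _
  obtain ⟨d, hd0, hd⟩ := hFb.subset_closedBall_lt 0 0
  refine ⟨d, hd0, ?_⟩
  intro R hR
  have hfin : ((Λ : Set (EE n)) ∩ cube n R).Finite := locFin Λ _ (isBounded_cube n R)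
  set S : Finset Λ := (hfin.toFinset).subtype (fun x => x ∈ Λ) with hS
  have hScard : ((Λ : Set (EE n)) ∩ cube n R).encard = (S.card : ℕ∞) := by
    rw [hfin.encard_eq_coe_toFinset_card]
    congr 1
    rw [hS, Finset.card_subtype, Finset.filter_true_of_mem]
    intro x hx
    rw [Set.Finite.mem_toFinset] at hx
    exact hx.1
  have hmem : ∀ x ∈ S, (x : EE n) ∈ cube n R := by
    intro x hx
    rw [hS, Finset.mem_subtype, Set.Finite.mem_toFinset] at hx
    exact hx.2
  have hdisj : Set.Pairwise (S : Set Λ)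
      (Function.onFun (AEDisjoint (volume : Measure (EE n))) (fun x : Λ => x +ᵥ F)) := by
    intro x _ y _ hxy
    exact hfd.aedisjoint hxy
  have hmeas : ∀ x ∈ S, NullMeasurableSet (x +ᵥ F) (volume : Measure (EE n)) := by
    intro x _
    have : (x +ᵥ F) = (x : EE n) +ᵥ F := rfl
    rw [this]
    exact (hFm.const_vadd (x : EE n)).nullMeasurableSet
  have h1 : volume (⋃ x ∈ S, x +ᵥ F) = ∑ x ∈ S, volume (x +ᵥ F) :=
    measure_biUnion_finset₀ hdisj hmeas
  have h2 : ∀ x : Λ, volume (x +ᵥ F) = volume F := by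
    intro x
    have : (x +ᵥ F) = (x : EE n) +ᵥ F := rfl
    rw [this]
    exact measure_vadd volume (x : EE n) F
  have h3 : (⋃ x ∈ S, x +ᵥ F) ⊆ cube n (R + d) := by
    intro z hz
    simp only [Set.mem_iUnion] at hz
    obtain ⟨x, hx, hz⟩ := hz
    obtain ⟨f, hf, rfl⟩ := hz
    intro i
    have e1 : |(x : EE n) i| ≤ R := hmem x hx i
    have e2 : |f i| ≤ d := by
      have h := hd hf
      rw [mem_closedBall, dist_zero_right] at h
      exact (abs_coord_le n f i).trans h
    have e3 : (x +ᵥ f : EE n) i = (x : EE n) i + f i := rfl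
    show |(x +ᵥ f : EE n) i| ≤ R + d
    rw [e3]
    exact (abs_add_le _ _).trans (by linarith)
  have hFtop : volume F ≠ ⊤ := hFb.measure_lt_top.ne
  have h4 : ENNReal.ofReal (ZLattice.covolume Λ volume) = volume F := by
    rw [hcov, measureReal_def, ENNReal.ofReal_toReal hFtop]
  rw [h4, hScard]
  calc ((S.card : ℕ∞) : ℝ≥0∞) * volume F = ∑ x ∈ S, volume (x +ᵥ F) := by
        simp only [h2, Finset.sum_const, nsmul_eq_mul]
        simp
    _ = volume (⋃ x ∈ S, x +ᵥ F) := h1.symm
    _ ≤ volume (cube n (R + d)) := measure_mono h3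
    _ = ENNReal.ofReal ((2 * (R + d)) ^ n) := volume_cube n (by linarith)

lemma updens_le : updens (Λ : Set (EE n)) ≤ (ENNReal.ofReal (ZLattice.covolume Λ volume))⁻¹ := by
  obtain ⟨d, hd0, hcount⟩ := count_le Λ
  have hcpos : 0 < ZLattice.covolume Λ volume := ZLattice.covolume_pos Λ volume
  set C := ZLattice.covolume Λ volume with hC
  have hCpos : 0 < ENNReal.ofReal C := by simpa using hcpos
  have htend : Tendsto (fun R : ℝ => ENNReal.ofReal (((2 * (R + d)) / (2 * R)) ^ n / C)) atTop
      (nhds (ENNReal.ofReal (1 ^ n / C))) := by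
    apply ENNReal.tendsto_ofReal
    apply Tendsto.div_const
    apply Tendsto.pow
    have h1 : Tendsto (fun R : ℝ => 1 + d / R) atTop (nhds (1 + 0)) :=
      tendsto_const_nhds.add (tendsto_const_nhds.div_atTop tendsto_id)
    rw [add_zero] at h1
    refine h1.congr' ?_
    filter_upwards [eventually_gt_atTop (0 : ℝ)] with R hR
    field_simp
  have hlim : limsup (fun R : ℝ => ENNReal.ofReal (((2 * (R + d)) / (2 * R)) ^ n / C)) atTop
      = ENNReal.ofReal (1 ^ n / C) := htend.limsup_eq
  unfold updens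
  calc limsup (fun R : ℝ => (((Λ : Set (EE n)) ∩ cube n R).encard : ℝ≥0∞)
        / ENNReal.ofReal ((2 * R) ^ n)) atTop
      ≤ limsup (fun R : ℝ => ENNReal.ofReal (((2 * (R + d)) / (2 * R)) ^ n / C)) atTop := by
        apply limsup_le_limsup
        · filter_upwards [eventually_gt_atTop (0 : ℝ)] with R hR
          have h1 := hcount R hR.le
          have h2 : (((Λ : Set (EE n)) ∩ cube n R).encard : ℝ≥0∞)
              ≤ ENNReal.ofReal ((2 * (R + d)) ^ n) / ENNReal.ofReal C := by
            rw [ENNReal.le_div_iff_mul_le (Or.inl hCpos.ne') (Or.inl ENNReal.ofReal_ne_top)]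
            exact h1
          calc (((Λ : Set (EE n)) ∩ cube n R).encard : ℝ≥0∞) / ENNReal.ofReal ((2 * R) ^ n)
              ≤ (ENNReal.ofReal ((2 * (R + d)) ^ n) / ENNReal.ofReal C)
                  / ENNReal.ofReal ((2 * R) ^ n) := ENNReal.div_le_div_right h2 _
            _ = ENNReal.ofReal (((2 * (R + d)) / (2 * R)) ^ n / C) := by
                rw [← ENNReal.ofReal_div_of_pos hcpos, ← ENNReal.ofReal_div_of_pos (by positivity)]
                congr 1
                rw [div_pow]
                field_simp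
        · isBoundedDefault
        · isBoundedDefault
    _ = (ENNReal.ofReal C)⁻¹ := by
        rw [hlim, one_pow, one_div, ENNReal.ofReal_inv_of_pos hcpos]

theorem thetaT_le_thetaL (K : Set (EE n)) : thetaT K ≤ thetaL K := by
  unfold thetaL
  refine le_iInf fun Λ => le_iInf fun h1 => le_iInf fun h2 => le_iInf fun h3 => ?_
  unfold thetaT
  calc _ ≤ volume K * updens (Λ : Set (EE n)) :=
        iInf_le_of_le (Λ : Set (EE n)) (iInf_le_of_le (locFin Λ) (iInf_le_of_le h3 le_rfl))
    _ ≤ volume K * (ENNReal.ofReal (ZLattice.covolume Λ volume))⁻¹ :=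
        mul_le_mul' le_rfl (updens_le Λ)
    _ = _ := (div_eq_mul_inv _ _).symm

theorem ThetaT_le_ThetaL (n : ℕ) : ThetaT n ≤ ThetaL n := by
  unfold ThetaT ThetaL
  exact iSup₂_mono fun K _ => thetaT_le_thetaL K

end Vale.Agent.P230.Lat
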