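import Vale.Agent.P230.Interface

/-!
# P230, part G: caps of the ball, discretised random facets
-/

namespace Vale.Agent.P230

open Finset MeasureTheory Metric Filter
open scoped ENNReal Pointwise RealInnerProductSpace

namespace PG

/-- cap of the unit ball -/
def cap {n : ℕ} (v : EE n) (t : ℝ) : Set (EE n) := {w | ‖w‖ ≤ 1 ∧ t < ⟪w, v⟫}

theorem measurableSet_cap {n : ℕ} (v : EE n) (t : ℝ) : MeasurableSet (cap v t) := by
  have h1 : IsClosed {w : EE n | ‖w‖ ≤ 1} := isClosed_le continuous_norm continuous_const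
  have h2 : IsOpen {w : EE n | t < ⟪w, v⟫} :=
    isOpen_lt continuous_const (continuous_id.inner continuous_const)
  exact h1.measurableSet.inter h2.measurableSet

theorem cap_subset {n : ℕ} (v : EE n) (t : ℝ) : cap v t ⊆ closedBall 0 1 := fun w hw => by
  rw [mem_closedBall_zero_iff]; exact hw.1

theorem cap_ne_top {n : ℕ} (v : EE n) (t : ℝ) : volume (cap v t) ≠ ∞ :=
  ((measure_mono (cap_subset v t)).trans_lt
    (isCompact_closedBall (0 : EE n) 1).measure_lt_top).ne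

theorem cap_anti {n : ℕ} (v : EE n) {t t' : ℝ} (h : t ≤ t') : cap v t' ⊆ cap v t :=
  fun _ hw => ⟨hw.1, lt_of_le_of_lt h hw.2⟩

/-- invariance under rotations -/
theorem vol_cap_eq {n : ℕ} {v v' : EE n} (h : ‖v‖ = ‖v'‖) (t : ℝ) :
    volume (cap v t) = volume (cap v' t) := by
  set R := (Submodule.span ℝ {v - v'})ᗮ.reflection with hR
  have hRv : R v = v' := Submodule.reflection_sub h
  have hpre : cap v t = R ⁻¹' (cap v' t) := by
    ext w
    simp only [cap, Set.mem_preimage, Set.mem_ofPred_eq]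
    rw [LinearIsometryEquiv.norm_map, ← hRv, LinearIsometryEquiv.inner_map_map]
  rw [hpre]
  exact R.measurePreserving.measure_preimage (measurableSet_cap v' t).nullMeasurableSet

theorem cap_smul {n : ℕ} (v : EE n) {s : ℝ} (hs : 0 < s) (t : ℝ) :
    cap (s • v) t = cap v (t / s) := by
  ext w
  simp only [cap, Set.mem_ofPred_eq, real_inner_smul_right]
  rw [div_lt_iff₀' hs]

/-- reduction to a unit vector -/
theorem vol_cap {n : ℕ} {e v : EE n} (he : ‖e‖ = 1) (hv : v ≠ 0) (t : ℝ) :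
    volume (cap v t) = volume (cap e (t / ‖v‖)) := by
  have hpos : 0 < ‖v‖ := norm_pos_iff.2 hv
  rw [← cap_smul e hpos]
  apply vol_cap_eq
  rw [norm_smul, he, mul_one, norm_norm]

theorem cap_eq_empty {n : ℕ} {v : EE n} {t : ℝ} (h : ‖v‖ ≤ t) : cap v t = ∅ := by
  ext w
  simp only [cap, Set.mem_ofPred_eq, Set.mem_empty_iff_false, iff_false, not_and, not_lt]
  intro hw
  calc ⟪w, v⟫ ≤ ‖w‖ * ‖v‖ := real_inner_le_norm w v
    _ ≤ 1 * ‖v‖ := mul_le_mul_of_nonneg_right hw (norm_nonneg v)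
    _ ≤ t := by rw [one_mul]; exact h

/-- diagonal map -/
noncomputable def dmap {n : ℕ} (i0 : Fin n) (a b : ℝ) : EE n →ₗ[ℝ] EE n :=
  Matrix.toLpLin 2 2 (Matrix.diagonal fun i => if i = i0 then a else b)

theorem dmap_apply {n : ℕ} (i0 : Fin n) (a b : ℝ) (w : EE n) (i : Fin n) :
    (dmap i0 a b w) i = (if i = i0 then a else b) * w i := by
  unfold dmap
  rw [Matrix.toLpLin_apply]
  show (Matrix.diagonal fun i => if i = i0 then a else b).mulVec w.ofLp i = _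
  rw [Matrix.mulVec_diagonal]

theorem det_dmap {n : ℕ} (i0 : Fin n) (a b : ℝ) :
    LinearMap.det (dmap i0 a b) = a * b ^ (n - 1) := by
  unfold dmap
  rw [Matrix.toLpLin_eq_toLin, LinearMap.det_toLin, Matrix.det_diagonal,
    ← Finset.mul_prod_erase univ _ (Finset.mem_univ i0), if_pos rfl]
  congr 1
  rw [Finset.prod_congr rfl fun i hi => if_neg (Finset.ne_of_mem_erase hi), Finset.prod_const,
    Finset.card_erase_of_mem (Finset.mem_univ i0), Finset.card_univ, Fintype.card_fin]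

/-- basis vector -/
noncomputable def ev {n : ℕ} (i0 : Fin n) : EE n := EuclideanSpace.single i0 1

theorem norm_ev {n : ℕ} (i0 : Fin n) : ‖ev i0‖ = 1 := by
  unfold ev; simp

theorem inner_ev {n : ℕ} (i0 : Fin n) (w : EE n) : ⟪w, ev i0⟫ = w i0 := by
  unfold ev
  rw [EuclideanSpace.inner_single_right]
  simp

theorem coord_add {n : ℕ} (i0 : Fin n) (a b c : ℝ) (w : EE n) :
    ⟪dmap i0 a b w + c • ev i0, ev i0⟫ = a * w i0 + c := by
  rw [inner_ev, PiLp.add_apply, dmap_apply, if_pos rfl, PiLp.smul_apply]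
  have : (ev i0 : EE n) i0 = 1 := by unfold ev; simp
  rw [this, smul_eq_mul, mul_one]

theorem norm_sq_split {n : ℕ} (i0 : Fin n) (w : EE n) :
    ‖w‖ ^ 2 = (w i0) ^ 2 + ∑ i ∈ univ.erase i0, (w i) ^ 2 := by
  rw [EuclideanSpace.real_norm_sq_eq]
  exact (Finset.add_sum_erase univ _ (Finset.mem_univ i0)).symm

theorem norm_sq_add {n : ℕ} (i0 : Fin n) (a b c : ℝ) (w : EE n) :
    ‖dmap i0 a b w + c • ev i0‖ ^ 2 = (a * w i0 + c) ^ 2 + b ^ 2 * (‖w‖ ^ 2 - (w i0) ^ 2) := by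
  rw [norm_sq_split i0 (dmap i0 a b w + c • ev i0), norm_sq_split i0 w]
  have h1 : (dmap i0 a b w + c • ev i0) i0 = a * w i0 + c := by
    rw [← coord_add i0 a b c w, inner_ev]
  rw [h1]
  congr 1
  rw [add_sub_cancel_left, Finset.mul_sum]
  refine Finset.sum_congr rfl fun i hi => ?_
  have hi' : i ≠ i0 := Finset.ne_of_mem_erase hi
  have h2 : (dmap i0 a b w + c • ev i0) i = b * w i := by
    rw [PiLp.add_apply, dmap_apply, if_neg hi', PiLp.smul_apply]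
    have : (ev i0 : EE n) i = 0 := by unfold ev; simp [hi']
    rw [this, smul_zero, add_zero]
  rw [h2]
  ring

/-- comparison of the volumes under an affine diagonal map -/
theorem vol_image_le {n : ℕ} (i0 : Fin n) (a b c : ℝ) (ha : 0 ≤ a) (hb : 0 ≤ b) {s s' : Set (EE n)}
    (h : ∀ w ∈ s, dmap i0 a b w + c • ev i0 ∈ s') :
    ENNReal.ofReal (a * b ^ (n - 1)) * volume s ≤ volume s' := by
  have h1 := Measure.addHaar_image_linearMap (volume : Measure (EE n)) (dmap i0 a b) s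
  rw [det_dmap, abs_of_nonneg (mul_nonneg ha (pow_nonneg hb _))] at h1
  rw [← h1, ← measure_preimage_add_right volume (c • ev i0) s']
  refine measure_mono ?_
  rintro _ ⟨w, hw, rfl⟩
  exact h w hw

theorem vol_lower {n : ℕ} (i0 : Fin n) {t t' : ℝ} (htt : t ≤ t') (ht' : t' < 1) :
    ENNReal.ofReal ((1 - t') / (1 - t) * √((1 - t') / (1 - t)) ^ (n - 1)) * volume (cap (ev i0) t)
      ≤ volume (cap (ev i0) t') := by
  set ρ := (1 - t') / (1 - t) with hρ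
  have h1 : 0 < 1 - t := by linarith
  have h2 : 0 < 1 - t' := by linarith
  have hρ0 : 0 < ρ := div_pos h2 h1
  have hρ1 : ρ ≤ 1 := by rw [hρ, div_le_one h1]; linarith
  refine vol_image_le i0 ρ (√ρ) (1 - ρ) hρ0.le (Real.sqrt_nonneg _) fun w hw => ?_
  obtain ⟨hw1, hw2⟩ := hw
  rw [inner_ev] at hw2
  have hx : w i0 ≤ 1 := by
    have h3 := norm_sq_split i0 w
    have h4 : 0 ≤ ∑ i ∈ univ.erase i0, (w i) ^ 2 := Finset.sum_nonneg fun i _ => sq_nonneg _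
    have h5 := norm_nonneg w
    nlinarith
  have hw3 : ‖w‖ ^ 2 ≤ 1 := by
    have := norm_nonneg w
    nlinarith
  constructor
  · have h6 : ‖dmap i0 ρ (√ρ) w + (1 - ρ) • ev i0‖ ^ 2 ≤ 1 := by
      rw [norm_sq_add, Real.sq_sqrt hρ0.le]
      set x := w i0
      have h7 : ρ * (‖w‖ ^ 2 - x ^ 2) ≤ ρ * (1 - x ^ 2) :=
        mul_le_mul_of_nonneg_left (by linarith) hρ0.le
      have h8 : (ρ * x + (1 - ρ)) ^ 2 + ρ * (1 - x ^ 2) = 1 - ρ * (1 - ρ) * (1 - x) ^ 2 := by ring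
      have h9 : 0 ≤ ρ * (1 - ρ) * (1 - x) ^ 2 :=
        mul_nonneg (mul_nonneg hρ0.le (by linarith)) (sq_nonneg _)
      linarith
    have h10 := norm_nonneg (dmap i0 ρ (√ρ) w + (1 - ρ) • ev i0)
    nlinarith
  · rw [coord_add]
    have h11 : ρ * (1 - t) = 1 - t' := by rw [hρ]; field_simp
    have h12 : ρ * t < ρ * w i0 := mul_lt_mul_of_pos_left hw2 hρ0
    nlinarith

theorem vol_upper {n : ℕ} (i0 : Fin n) {t t' : ℝ} (h0 : 0 ≤ t) (htt : t ≤ t') (ht' : t' < 1) :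
    ENNReal.ofReal (1 * √((1 - t ^ 2) / (1 - t' ^ 2)) ^ (n - 1)) * volume (cap (ev i0) t')
      ≤ volume (cap (ev i0) t) := by
  have hD : 0 < 1 - t ^ 2 := by nlinarith
  have hD' : 0 < 1 - t' ^ 2 := by nlinarith
  have hDD : 1 - t' ^ 2 ≤ 1 - t ^ 2 := by nlinarith
  set σ := (1 - t ^ 2) / (1 - t' ^ 2) with hσ
  have hσ0 : 0 < σ := div_pos hD hD'
  refine vol_image_le i0 1 (√σ) (-(t' - t)) zero_le_one (Real.sqrt_nonneg _) fun w hw => ?_
  obtain ⟨hw1, hw2⟩ := hw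
  rw [inner_ev] at hw2
  have hw3 : ‖w‖ ^ 2 ≤ 1 := by
    have := norm_nonneg w
    nlinarith
  constructor
  · have h6 : ‖dmap i0 1 (√σ) w + (-(t' - t)) • ev i0‖ ^ 2 ≤ 1 := by
      rw [norm_sq_add, Real.sq_sqrt hσ0.le]
      set x := w i0
      have h7 : σ * (‖w‖ ^ 2 - x ^ 2) ≤ σ * (1 - x ^ 2) :=
        mul_le_mul_of_nonneg_left (by linarith) hσ0.le
      have h8 : σ * (1 - t' ^ 2) = 1 - t ^ 2 := by rw [hσ]; field_simp
      have hy : 0 < x - t' := by linarith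
      have h9 : (1 - t' ^ 2) * ((1 * x + -(t' - t)) ^ 2 + σ * (1 - x ^ 2)) ≤ (1 - t' ^ 2) * 1 := by
        have e : (1 - t' ^ 2) * ((1 * x + -(t' - t)) ^ 2 + σ * (1 - x ^ 2))
            = (1 - t' ^ 2) * (x - (t' - t)) ^ 2 + (σ * (1 - t' ^ 2)) * (1 - x ^ 2) := by ring
        rw [e, h8]
        have e2 : (1 - t' ^ 2) * (x - (t' - t)) ^ 2 + (1 - t ^ 2) * (1 - x ^ 2)
            = (1 - t' ^ 2) + 2 * (x - t') * ((1 - t' ^ 2) * t - (1 - t ^ 2) * t')
              + (x - t') ^ 2 * ((1 - t' ^ 2) - (1 - t ^ 2)) := by ring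
        rw [e2]
        have h10 : (1 - t' ^ 2) * t - (1 - t ^ 2) * t' ≤ 0 := by nlinarith
        have h11 : 2 * (x - t') * ((1 - t' ^ 2) * t - (1 - t ^ 2) * t') ≤ 0 :=
          mul_nonpos_of_nonneg_of_nonpos (by linarith) h10
        have h12 : (x - t') ^ 2 * ((1 - t' ^ 2) - (1 - t ^ 2)) ≤ 0 :=
          mul_nonpos_of_nonneg_of_nonpos (sq_nonneg _) (by linarith)
        linarith
      have h13 := le_of_mul_le_mul_left h9 hD'
      linarith
    have h10 := norm_nonneg (dmap i0 1 (√σ) w + (-(t' - t)) • ev i0)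
    nlinarith
  · rw [coord_add]
    linarith

/-- the reference cap has positive volume -/
theorem cap_pos {n : ℕ} (i0 : Fin n) {t : ℝ} (h0 : 0 ≤ t) (ht : t < 1) :
    0 < volume (cap (ev i0) t) := by
  have h3 : IsOpen {w : EE n | ‖w‖ < 1} := isOpen_lt continuous_norm continuous_const
  have h4 : IsOpen {w : EE n | t < ⟪w, ev i0⟫} :=
    isOpen_lt continuous_const (continuous_id.inner continuous_const)
  have h1 : IsOpen {w : EE n | ‖w‖ < 1 ∧ t < ⟪w, ev i0⟫} := h3.inter h4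
  have h2 : ({w : EE n | ‖w‖ < 1 ∧ t < ⟪w, ev i0⟫}).Nonempty := by
    refine ⟨((1 + t) / 2) • ev i0, ?_, ?_⟩
    · rw [norm_smul, norm_ev, mul_one, Real.norm_eq_abs, abs_of_nonneg (by linarith)]
      linarith
    · rw [real_inner_smul_left, inner_ev]
      have : (ev i0 : EE n) i0 = 1 := by unfold ev; simp
      rw [this]; linarith
  exact lt_of_lt_of_le (h1.measure_pos volume h2)
    (measure_mono fun w hw => ⟨hw.1.le, hw.2⟩)

/-- discretisation of the ball -/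
theorem exists_cells (n : ℕ) {δ : ℝ} (hδ : 0 < δ) :
    ∃ (N : ℕ) (u : Fin N → EE n) (D : Fin N → Set (EE n)),
      (∀ i, ‖u i‖ ≤ 1) ∧ (∀ i, MeasurableSet (D i)) ∧ (∀ i j, i ≠ j → Disjoint (D i) (D j)) ∧
      (⋃ i, D i = closedBall 0 1) ∧ (∀ i, ∀ w ∈ D i, ‖w - u i‖ ≤ δ) := by
  obtain ⟨t, htB, htf, hcov⟩ := (isCompact_closedBall (0 : EE n) 1).finite_cover_balls hδ
  classical
  set T := htf.toFinset with hT
  set f := T.equivFin with hf
  refine ⟨T.card, fun i => (f.symm i : EE n),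
    fun i => (closedBall 0 1 ∩ ball (f.symm i : EE n) δ) \ ⋃ j : {j : Fin T.card // j < i},
      ball (f.symm j.1 : EE n) δ, ?_, ?_, ?_, ?_, ?_⟩
  · intro i
    have h1 : (f.symm i : EE n) ∈ t := htf.mem_toFinset.1 (f.symm i).2
    exact mem_closedBall_zero_iff.1 (htB h1)
  · intro i
    exact (isClosed_closedBall.measurableSet.inter isOpen_ball.measurableSet).diff
      (MeasurableSet.iUnion fun j => isOpen_ball.measurableSet)
  · have key : ∀ i j : Fin T.card, i < j → Disjoint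
        ((closedBall 0 1 ∩ ball (f.symm i : EE n) δ) \ ⋃ j : {j : Fin T.card // j < i},
          ball (f.symm j.1 : EE n) δ)
        ((closedBall 0 1 ∩ ball (f.symm j : EE n) δ) \ ⋃ j' : {j' : Fin T.card // j' < j},
          ball (f.symm j'.1 : EE n) δ) := by
      intro i j hij
      rw [Set.disjoint_left]
      rintro w ⟨⟨_, h1⟩, _⟩ ⟨_, h2⟩
      exact h2 (Set.mem_iUnion.2 ⟨⟨i, hij⟩, h1⟩)
    intro i j hij
    rcases lt_or_gt_of_ne hij with h | h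
    · exact key i j h
    · exact (key j i h).symm
  · ext w
    constructor
    · intro hw
      obtain ⟨i, hi⟩ := Set.mem_iUnion.1 hw
      exact hi.1.1
    · intro hw
      have h1 := hcov hw
      simp only [Set.mem_iUnion] at h1
      obtain ⟨x, hx, hwx⟩ := h1
      have hxT : x ∈ T := htf.mem_toFinset.2 hx
      have hne : ∃ i : Fin T.card, w ∈ ball (f.symm i : EE n) δ :=
        ⟨f ⟨x, hxT⟩, by rw [Equiv.symm_apply_apply]; exact hwx⟩
      obtain ⟨i, hi, hmin⟩ := WellFounded.has_min (wellFounded_lt (α := Fin T.card))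
        {i | w ∈ ball (f.symm i : EE n) δ} hne
      refine Set.mem_iUnion.2 ⟨i, ⟨hw, hi⟩, fun hc => ?_⟩
      obtain ⟨j, hj⟩ := Set.mem_iUnion.1 hc
      exact hmin j.1 hj j.2
  · intro i w hw
    have := hw.1.2
    rw [mem_ball, dist_eq_norm] at this
    exact this.le

theorem sum_le_cap {n N : ℕ} {u : Fin N → EE n} {D : Fin N → Set (EE n)} {δ : ℝ} (hδ0 : 0 ≤ δ)
    (hDm : ∀ i, MeasurableSet (D i)) (hDd : ∀ i j, i ≠ j → Disjoint (D i) (D j))
    (hDU : ⋃ i, D i = closedBall 0 1) (hδ : ∀ i, ∀ w ∈ D i, ‖w - u i‖ ≤ δ)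
    (I : Finset (Fin N)) (v : EE n) (hv : ‖v‖ ≤ 2) (t : ℝ) (hI : ∀ i ∈ I, t < ⟪u i, v⟫) :
    ∑ i ∈ I, (volume (D i)).toReal ≤ (volume (cap v (t - 2 * δ))).toReal := by
  have hDf : ∀ i, volume (D i) ≠ ∞ := fun i =>
    ((measure_mono ((Set.subset_iUnion D i).trans hDU.le)).trans_lt
      (isCompact_closedBall (0 : EE n) 1).measure_lt_top).ne
  rw [← ENNReal.toReal_sum fun i _ => hDf i,
    ← measure_biUnion_finset (fun i _ j _ hij => hDd i j hij) fun i _ => hDm i]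
  refine ENNReal.toReal_mono (cap_ne_top _ _) (measure_mono ?_)
  intro w hw
  simp only [Set.mem_iUnion] at hw
  obtain ⟨i, hi, hw⟩ := hw
  have hwB : w ∈ closedBall (0 : EE n) 1 := hDU ▸ Set.mem_iUnion.2 ⟨i, hw⟩
  refine ⟨mem_closedBall_zero_iff.1 hwB, ?_⟩
  have h1 : ⟪u i - w, v⟫ ≤ 2 * δ := by
    calc ⟪u i - w, v⟫ ≤ ‖u i - w‖ * ‖v‖ := real_inner_le_norm _ _
      _ ≤ δ * 2 := by
          rw [norm_sub_rev]
          exact mul_le_mul (hδ i w hw) hv (norm_nonneg _) hδ0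
      _ = 2 * δ := mul_comm _ _
  rw [inner_sub_left] at h1
  linarith [hI i hi]

theorem cap_le_sum {n N : ℕ} {u : Fin N → EE n} {D : Fin N → Set (EE n)} {δ : ℝ} (hδ0 : 0 ≤ δ)
    (hDm : ∀ i, MeasurableSet (D i)) (hDd : ∀ i j, i ≠ j → Disjoint (D i) (D j))
    (hDU : ⋃ i, D i = closedBall 0 1) (hδ : ∀ i, ∀ w ∈ D i, ‖w - u i‖ ≤ δ)
    (I : Finset (Fin N)) (v : EE n) (hv : ‖v‖ ≤ 2) (t : ℝ) (hI : ∀ i, t < ⟪u i, v⟫ → i ∈ I) :
    (volume (cap v (t + 2 * δ))).toReal ≤ ∑ i ∈ I, (volume (D i)).toReal := by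
  have hDf : ∀ i, volume (D i) ≠ ∞ := fun i =>
    ((measure_mono ((Set.subset_iUnion D i).trans hDU.le)).trans_lt
      (isCompact_closedBall (0 : EE n) 1).measure_lt_top).ne
  rw [← ENNReal.toReal_sum fun i _ => hDf i,
    ← measure_biUnion_finset (fun i _ j _ hij => hDd i j hij) fun i _ => hDm i]
  refine ENNReal.toReal_mono ?_ (measure_mono ?_)
  · rw [measure_biUnion_finset (fun i _ j _ hij => hDd i j hij) fun i _ => hDm i]
    exact (ENNReal.sum_lt_top.2 fun i _ => (hDf i).lt_top).ne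
  · intro w hw
    have hwB : w ∈ ⋃ i, D i := by
      rw [hDU]; exact mem_closedBall_zero_iff.2 hw.1
    obtain ⟨i, hi⟩ := Set.mem_iUnion.1 hwB
    simp only [Set.mem_iUnion]
    refine ⟨i, hI i ?_, hi⟩
    have h1 : ⟪w - u i, v⟫ ≤ 2 * δ := by
      calc ⟪w - u i, v⟫ ≤ ‖w - u i‖ * ‖v‖ := real_inner_le_norm _ _
        _ ≤ δ * 2 := mul_le_mul (hδ i w hi) hv (norm_nonneg _) hδ0
        _ = 2 * δ := mul_comm _ _
    rw [inner_sub_left] at h1
    linarith [hw.2]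

theorem exp_le_one_sub {x : ℝ} (h0 : 0 ≤ x) (h1 : x ≤ 1 / 2) : Real.exp (-(2 * x)) ≤ 1 - x := by
  rw [Real.exp_neg]
  have h2 : 1 + 2 * x ≤ Real.exp (2 * x) := by
    have := Real.add_one_le_exp (2 * x)
    linarith
  have h3 : (Real.exp (2 * x))⁻¹ ≤ (1 + 2 * x)⁻¹ := inv_anti₀ (by linarith) h2
  refine h3.trans ?_
  rw [inv_le_iff_one_le_mul₀ (by linarith)]
  nlinarith

theorem rho_ge {ρ x : ℝ} {n : ℕ} (hn : 1 ≤ n) (h0 : 0 ≤ x) (h1 : x ≤ 1 / 2) (hρ : 1 - x ≤ ρ)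
    (hρ1 : ρ ≤ 1) : Real.exp (-(2 * n * x)) ≤ ρ * √ρ ^ (n - 1) := by
  have hρ0 : 0 < ρ := by linarith
  have h2 : ρ ≤ √ρ := Real.le_sqrt_of_sq_le (by nlinarith)
  have h3 : ρ ^ n ≤ ρ * √ρ ^ (n - 1) := by
    obtain ⟨k, rfl⟩ : ∃ k, n = k + 1 := ⟨n - 1, by omega⟩
    rw [Nat.add_sub_cancel, pow_succ, mul_comm]
    exact mul_le_mul_of_nonneg_left (pow_le_pow_left₀ hρ0.le h2 k) hρ0.le
  have h4 : Real.exp (-(2 * x)) ^ n ≤ ρ ^ n :=
    pow_le_pow_left₀ (Real.exp_pos _).le ((exp_le_one_sub h0 h1).trans hρ) n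
  refine le_trans (le_of_eq ?_) (h4.trans h3)
  rw [← Real.exp_nat_mul]
  congr 1
  ring

theorem vol_lower_real {n : ℕ} (hn : 1 ≤ n) (i0 : Fin n) {t t' x : ℝ} (htt : t ≤ t') (ht' : t' < 1)
    (hx1 : x ≤ 1 / 2) (hx : t' - t ≤ x * (1 - t)) :
    Real.exp (-(2 * n * x)) * (volume (cap (ev i0) t)).toReal
      ≤ (volume (cap (ev i0) t')).toReal := by
  have h1 : 0 < 1 - t := by linarith
  have h2 : 0 < 1 - t' := by linarith
  have hx0 : 0 ≤ x := by
    by_contra hc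
    push Not at hc
    nlinarith
  have h3 := ENNReal.toReal_mono (cap_ne_top _ _) (vol_lower i0 htt ht')
  rw [ENNReal.toReal_mul, ENNReal.toReal_ofReal (mul_nonneg (div_pos h2 h1).le
    (pow_nonneg (Real.sqrt_nonneg _) _))] at h3
  refine le_trans (mul_le_mul_of_nonneg_right (rho_ge hn hx0 hx1 ?_ ?_) ENNReal.toReal_nonneg) h3
  · rw [le_div_iff₀ h1]; nlinarith
  · rw [div_le_one h1]; linarith

theorem vol_upper_real {n : ℕ} (i0 : Fin n) {t t' y : ℝ} (h0 : 0 ≤ t) (htt : t ≤ t')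
    (ht' : t' < 1) (hy : 1 - t' ^ 2 ≤ (1 - t ^ 2) * (1 - y)) :
    Real.exp ((n - 1 : ℕ) * (y / 2)) * (volume (cap (ev i0) t')).toReal
      ≤ (volume (cap (ev i0) t)).toReal := by
  have hD : 0 < 1 - t ^ 2 := by nlinarith
  have hD' : 0 < 1 - t' ^ 2 := by nlinarith
  have h3 := ENNReal.toReal_mono (cap_ne_top _ _) (vol_upper i0 h0 htt ht')
  rw [ENNReal.toReal_mul, ENNReal.toReal_ofReal (mul_nonneg zero_le_one
    (pow_nonneg (Real.sqrt_nonneg _) _)), one_mul] at h3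
  refine le_trans (mul_le_mul_of_nonneg_right ?_ ENNReal.toReal_nonneg) h3
  rw [Real.exp_nat_mul]
  refine pow_le_pow_left₀ (Real.exp_pos _).le ?_ _
  have h4 : Real.exp y ≤ (1 - t ^ 2) / (1 - t' ^ 2) := by
    rw [le_div_iff₀ hD']
    have h5 : 1 - y ≤ Real.exp (-y) := by
      have := Real.add_one_le_exp (-y); linarith
    have h6 : 1 - t' ^ 2 ≤ (1 - t ^ 2) * Real.exp (-y) :=
      hy.trans (mul_le_mul_of_nonneg_left h5 hD.le)
    calc Real.exp y * (1 - t' ^ 2) ≤ Real.exp y * ((1 - t ^ 2) * Real.exp (-y)) :=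
          mul_le_mul_of_nonneg_left h6 (Real.exp_pos y).le
      _ = (1 - t ^ 2) * (Real.exp y * Real.exp (-y)) := by ring
      _ = 1 - t ^ 2 := by rw [← Real.exp_add]; simp
  have h7 : Real.exp (y / 2) = √(Real.exp y) := by
    rw [Real.exp_half]
  rw [h7]
  exact Real.sqrt_le_sqrt h4

theorem tau_eq : tau = 1 - 1 / 10 ^ 6 := rfl

theorem tau_pos : 0 < tau := by rw [tau_eq]; norm_num

theorem tau_lt : tau < 1 := by rw [tau_eq]; norm_num

theorem one_real {n : ℕ} (hn : 10 ≤ n) (i0 : Fin n) {η δ : ℝ}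
    (hnη : n * η ≤ 1 / 100) (hη2 : η ≤ 1 / 1000) (hδ0 : 0 < δ) (hδη : 10 ^ 8 * δ ≤ η)
    {v : EE n} (hv : ‖v‖ ≤ 1) :
    (volume (cap v (tau - 2 * δ))).toReal ≤ 2 * (volume (cap (ev i0) tau)).toReal := by
  have htau := tau_eq
  have hs0 : 0 ≤ tau - 2 * δ := by rw [htau]; linarith
  by_cases hv0 : v = 0
  · rw [cap_eq_empty (by rw [hv0, norm_zero]; exact hs0), measure_empty, ENNReal.toReal_zero]
    positivity
  · have hpos : 0 < ‖v‖ := norm_pos_iff.2 hv0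
    rw [vol_cap (norm_ev i0) hv0]
    have h1 : (volume (cap (ev i0) ((tau - 2 * δ) / ‖v‖))).toReal
        ≤ (volume (cap (ev i0) (tau - 2 * δ))).toReal := by
      refine ENNReal.toReal_mono (cap_ne_top _ _) (measure_mono (cap_anti _ ?_))
      rw [le_div_iff₀ hpos]
      nlinarith
    refine h1.trans ?_
    have h2 := vol_lower_real (by omega : 1 ≤ n) i0 (t := tau - 2 * δ) (t' := tau)
      (x := 2 * 10 ^ 6 * δ) (by linarith) tau_lt (by linarith) (by rw [htau]; nlinarith)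
    have h3 : 1 / 2 ≤ Real.exp (-(2 * n * (2 * 10 ^ 6 * δ))) := by
      have h4 := Real.add_one_le_exp (-(2 * n * (2 * 10 ^ 6 * δ)))
      have h5 : n * (10 ^ 8 * δ) ≤ n * η := mul_le_mul_of_nonneg_left hδη (by positivity)
      have h7 : (n : ℝ) * (10 ^ 8 * δ) = 10 ^ 8 * (n * δ) := by ring
      have h8 : 2 * (n : ℝ) * (2 * 10 ^ 6 * δ) = 4 * 10 ^ 6 * (n * δ) := by ring
      rw [h7] at h5
      rw [h8] at h4 ⊢
      norm_num at h5 h4 ⊢
      linarith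
    have h6 : (0 : ℝ) ≤ (volume (cap (ev i0) (tau - 2 * δ))).toReal := ENNReal.toReal_nonneg
    have h7 := (mul_le_mul_of_nonneg_right h3 h6).trans h2
    clear h2 h3
    linarith

theorem two_real {n : ℕ} (hn : 10 ≤ n) (i0 : Fin n) {η δ : ℝ} (hη0 : 0 < η)
    (hnη : n * η ≤ 1 / 100) (hη2 : η ≤ 1 / 1000) (hδ0 : 0 < δ) (hδη : 10 ^ 8 * δ ≤ η)
    {v : EE n} {a : ℝ} (ha : 0 ≤ a) (hv : ‖v‖ ≤ 1 + η) (hva : (1 + η - ‖v‖) + a ≤ 1 / 10 ^ 7) :
    Real.exp (-(10 ^ 8 * (1 + n * (1 + η - ‖v‖) + n * a))) * (volume (cap (ev i0) tau)).toReal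
      ≤ (volume (cap v (tau + η + a + 2 * δ))).toReal := by
  have htau := tau_eq
  have htau0 := tau_pos
  have htau1 := tau_lt
  set β := 1 + η - ‖v‖ with hβ
  have hβ0 : 0 ≤ β := by linarith
  have hvn : ‖v‖ = 1 + η - β := by rw [hβ]; ring
  have hvhalf : 1 / 2 ≤ ‖v‖ := by rw [hvn]; norm_num at hva ⊢; linarith
  have hvpos : 0 < ‖v‖ := by linarith
  have hv0 : v ≠ 0 := norm_pos_iff.1 hvpos
  rw [vol_cap (norm_ev i0) hv0]
  set t' := (tau + η + a + 2 * δ) / ‖v‖ with ht'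
  have htv : t' * ‖v‖ = tau + η + a + 2 * δ := by rw [ht']; field_simp
  have e1 : (t' - tau) * ‖v‖ = (1 - tau) * η + a + 2 * δ + tau * β := by
    rw [sub_mul, htv, hvn]; ring
  have htt : tau ≤ t' := by
    by_contra hc
    push Not at hc
    have h1 : (t' - tau) * ‖v‖ < 0 := mul_neg_of_neg_of_pos (by linarith) hvpos
    have h2 : 0 ≤ (1 - tau) * η + a + 2 * δ + tau * β := by
      have := mul_nonneg (sub_nonneg.2 htau1.le) hη0.le
      have := mul_nonneg htau0.le hβ0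
      linarith
    linarith
  have hx2 : t' - tau ≤ 2 * ((1 - tau) * η + a + 2 * δ + β) := by
    have h1 : (t' - tau) * (1 / 2) ≤ (t' - tau) * ‖v‖ :=
      mul_le_mul_of_nonneg_left hvhalf (by linarith)
    have h2 : tau * β ≤ β := by nlinarith
    linarith
  set x := 2 * 10 ^ 6 * ((1 - tau) * η + a + 2 * δ + β) with hx
  have hx3 : t' - tau ≤ x * (1 - tau) := by
    have : x * (1 - tau) = 2 * ((1 - tau) * η + a + 2 * δ + β) := by
      rw [hx, htau]; ring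
    linarith
  have hxle : x ≤ 1 / 2 := by
    rw [hx, htau]
    have h1 : β + a ≤ 1 / 10 ^ 7 := hva
    norm_num at h1 ⊢
    linarith
  have ht1 : t' < 1 := by
    have h1 : x * (1 - tau) ≤ 1 / 2 * (1 - tau) :=
      mul_le_mul_of_nonneg_right hxle (by linarith)
    linarith
  have h2 := vol_lower_real (by omega : 1 ≤ n) i0 htt ht1 hxle hx3
  refine le_trans (mul_le_mul_of_nonneg_right (Real.exp_le_exp.2 (neg_le_neg ?_))
    ENNReal.toReal_nonneg) h2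
  -- 2 n x ≤ A (1 + nβ + na)
  have h3 : 2 * (n : ℝ) * x = 4 * (n * η) + 4 * 10 ^ 6 * (n * a) + 8 * 10 ^ 6 * (n * δ)
      + 4 * 10 ^ 6 * (n * β) := by
    rw [hx, htau]; ring
  rw [h3]
  have h4 : n * (10 ^ 8 * δ) ≤ n * η := mul_le_mul_of_nonneg_left hδη (by positivity)
  have h7 : (n : ℝ) * (10 ^ 8 * δ) = 10 ^ 8 * (n * δ) := by ring
  rw [h7] at h4
  have h5 : 0 ≤ n * a := by positivity
  have h6 : 0 ≤ n * β := by positivity
  norm_num at h4 ⊢
  linarith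

/-- the threshold estimate used for pairs -/
theorem threshold {η d t' M : ℝ} (hη0 : 0 < η) (hη2 : η ≤ 1 / 1000)
    (hE : 0 < (1 + η) ^ 2 - d ^ 2 / 4) (hmn : M ^ 2 ≤ (1 + η) ^ 2 - d ^ 2 / 4)
    (h1 : (tau * (1 + η)) ^ 2 ≤ t' ^ 2 * M ^ 2) :
    tau ^ 2 * (1 + d ^ 2 / 5) ≤ t' ^ 2 := by
  have h1' : (tau * (1 + η)) ^ 2 ≤ t' ^ 2 * ((1 + η) ^ 2 - d ^ 2 / 4) :=
    h1.trans (mul_le_mul_of_nonneg_left hmn (sq_nonneg _))
  have h3 : (1 + d ^ 2 / 5) * ((1 + η) ^ 2 - d ^ 2 / 4) ≤ (1 + η) ^ 2 := by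
    have e : (1 + d ^ 2 / 5) * ((1 + η) ^ 2 - d ^ 2 / 4)
        = (1 + η) ^ 2 - d ^ 2 * (1 / 4 - (1 + η) ^ 2 / 5) - d ^ 2 * d ^ 2 / 20 := by ring
    rw [e]
    have h4 : 0 ≤ 1 / 4 - (1 + η) ^ 2 / 5 := by nlinarith
    have h5 : 0 ≤ d ^ 2 * (1 / 4 - (1 + η) ^ 2 / 5) := mul_nonneg (sq_nonneg _) h4
    have h6 : 0 ≤ d ^ 2 * d ^ 2 / 20 := by positivity
    linarith
  have h7 : (tau ^ 2 * (1 + d ^ 2 / 5)) * ((1 + η) ^ 2 - d ^ 2 / 4)
      ≤ t' ^ 2 * ((1 + η) ^ 2 - d ^ 2 / 4) := by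
    refine le_trans ?_ h1'
    calc (tau ^ 2 * (1 + d ^ 2 / 5)) * ((1 + η) ^ 2 - d ^ 2 / 4)
        = tau ^ 2 * ((1 + d ^ 2 / 5) * ((1 + η) ^ 2 - d ^ 2 / 4)) := by ring
      _ ≤ tau ^ 2 * (1 + η) ^ 2 := mul_le_mul_of_nonneg_left h3 (sq_nonneg _)
      _ = (tau * (1 + η)) ^ 2 := by ring
  exact le_of_mul_le_mul_right h7 hE

theorem three_real {n : ℕ} (hn : 10 ≤ n) (i0 : Fin n) {η δ d : ℝ} (hη0 : 0 < η)
    (hη2 : η ≤ 1 / 1000) (hδη : 10 ^ 8 * δ ≤ η)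
    {m : EE n} (hmn : ‖m‖ ^ 2 ≤ (1 + η) ^ 2 - d ^ 2 / 4) :
    (volume (cap m (tau + η - 2 * δ))).toReal
      ≤ Real.exp (-(1 * n * d ^ 2)) * (volume (cap (ev i0) tau)).toReal := by
  have htau := tau_eq
  have htau0 := tau_pos
  set s := tau + η - 2 * δ with hs
  have hs1 : tau * (1 + η) ≤ s := by
    rw [hs, htau]
    norm_num at hδη ⊢
    nlinarith
  have hs0 : 0 < s := lt_of_lt_of_le (by positivity) hs1
  by_cases hms : ‖m‖ ≤ s
  · rw [cap_eq_empty hms, measure_empty, ENNReal.toReal_zero]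
    positivity
  · push Not at hms
    have hmpos : 0 < ‖m‖ := hs0.trans hms
    have hm0 : m ≠ 0 := norm_pos_iff.1 hmpos
    rw [vol_cap (norm_ev i0) hm0]
    set t' := s / ‖m‖ with ht'
    have ht1 : t' < 1 := by rw [ht', div_lt_one hmpos]; exact hms
    have ht0 : 0 < t' := div_pos hs0 hmpos
    have hts : t' * ‖m‖ = s := by rw [ht']; field_simp
    have hE : 0 < (1 + η) ^ 2 - d ^ 2 / 4 := lt_of_lt_of_le (pow_pos hmpos 2) hmn
    have h2 : tau ^ 2 * (1 + d ^ 2 / 5) ≤ t' ^ 2 := by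
      refine threshold hη0 hη2 hE hmn ?_
      calc (tau * (1 + η)) ^ 2 ≤ s ^ 2 := pow_le_pow_left₀ (by positivity) hs1 2
        _ = t' ^ 2 * ‖m‖ ^ 2 := by rw [← hts]; ring
    have htt : tau ≤ t' := by
      have h3 : tau ^ 2 ≤ t' ^ 2 := by
        refine le_trans ?_ h2
        have h4 : 0 ≤ tau ^ 2 * (d ^ 2 / 5) := by positivity
        linarith
      exact le_of_sq_le_sq h3 ht0.le
    have hy : 1 - t' ^ 2 ≤ (1 - tau ^ 2) * (1 - 4 * d ^ 2) := by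
      have h3 : (1 - tau ^ 2) * (4 * d ^ 2) ≤ tau ^ 2 * (d ^ 2 / 5) := by
        have h4 : (1 - tau ^ 2) * 4 ≤ tau ^ 2 / 5 := by rw [htau]; norm_num
        have := mul_le_mul_of_nonneg_right h4 (sq_nonneg d)
        linarith
      linarith
    have h3 := vol_upper_real i0 htau0.le htt ht1 hy
    have h4 : Real.exp (1 * n * d ^ 2) ≤ Real.exp ((n - 1 : ℕ) * (4 * d ^ 2 / 2)) := by
      apply Real.exp_le_exp.2
      have h5 : ((n - 1 : ℕ) : ℝ) = n - 1 := by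
        rw [Nat.cast_sub (by omega)]; simp
      have hnR : (10 : ℝ) ≤ n := by exact_mod_cast hn
      rw [h5]
      nlinarith [sq_nonneg d]
    have h5 : Real.exp (1 * n * d ^ 2) * (volume (cap (ev i0) t')).toReal
        ≤ (volume (cap (ev i0) tau)).toReal :=
      le_trans (mul_le_mul_of_nonneg_right h4 ENNReal.toReal_nonneg) h3
    rw [Real.exp_neg, ← div_eq_inv_mul, le_div_iff₀ (Real.exp_pos _), mul_comm]
    exact h5

theorem mid_norm {n : ℕ} {η : ℝ} (v v' : EE n) (hv : ‖v‖ ≤ 1 + η) (hv' : ‖v'‖ ≤ 1 + η) :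
    ‖(1 / 2 : ℝ) • (v + v')‖ ^ 2 ≤ (1 + η) ^ 2 - ‖v - v'‖ ^ 2 / 4 := by
  have h1 := parallelogram_law_with_norm ℝ v v'
  have h2 : ‖(1 / 2 : ℝ) • (v + v')‖ ^ 2 = ‖v + v'‖ ^ 2 / 4 := by
    rw [norm_smul]; norm_num; ring
  have h3 : ‖v‖ ^ 2 ≤ (1 + η) ^ 2 := pow_le_pow_left₀ (norm_nonneg _) hv 2
  have h4 : ‖v'‖ ^ 2 ≤ (1 + η) ^ 2 := pow_le_pow_left₀ (norm_nonneg _) hv' 2
  rw [h2]
  linarith

theorem mid_inner {n : ℕ} (v v' w : EE n) (t : ℝ) (h1 : t < ⟪w, v⟫) (h2 : t < ⟪w, v'⟫) :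
    t < ⟪w, (1 / 2 : ℝ) • (v + v')⟫ := by
  rw [real_inner_smul_right, inner_add_right]
  linarith

theorem four_real {n : ℕ} {η : ℝ} (hη0 : 0 < η) (hη2 : η ≤ 1 / 1000) {v v' w : EE n}
    (hv : ‖v‖ ≤ 1 + η) (hv' : ‖v'‖ ≤ 1 + η) (hd : 1 / 256 ≤ ‖v - v'‖) (hw : ‖w‖ ≤ 1)
    (hi : tau + η < ⟪w, v⟫) (hi' : tau + η < ⟪w, v'⟫) : False := by
  have htau := tau_eq
  have htau0 := tau_pos
  set m := (1 / 2 : ℝ) • (v + v') with hm
  have hmn : ‖m‖ ^ 2 ≤ (1 + η) ^ 2 - ‖v - v'‖ ^ 2 / 4 := mid_norm v v' hv hv'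
  have h1 : tau + η < ⟪w, m⟫ := mid_inner v v' w _ hi hi'
  have h2 : ⟪w, m⟫ ≤ ‖m‖ := by
    calc ⟪w, m⟫ ≤ ‖w‖ * ‖m‖ := real_inner_le_norm _ _
      _ ≤ 1 * ‖m‖ := mul_le_mul_of_nonneg_right hw (norm_nonneg _)
      _ = ‖m‖ := one_mul _
  have h3 : (tau + η) ^ 2 ≤ ‖m‖ ^ 2 := pow_le_pow_left₀ (by positivity) (by linarith) 2
  have h4 : (1 / 256 : ℝ) ^ 2 ≤ ‖v - v'‖ ^ 2 := pow_le_pow_left₀ (by norm_num) hd 2
  rw [htau] at h3
  norm_num at h3 h4
  nlinarith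

end PG

open PG in
/-- Part G -/
theorem partG : Vale.Agent.P230.PartG := by
  refine ⟨10 ^ 8, 1, by norm_num, one_pos, ?_⟩
  filter_upwards [eventually_ge_atTop 10] with n hn η hη0 hη1
  have hn0 : 0 < n := by omega
  have hnR : (10 : ℝ) ≤ n := by exact_mod_cast hn
  have hnη : n * η ≤ 1 / 100 := by
    have h1 : (n : ℝ) * η ≤ n * (1 / (n : ℝ) ^ 3) := mul_le_mul_of_nonneg_left hη1 (by positivity)
    refine h1.trans ?_
    have h2 : (n : ℝ) * (1 / (n : ℝ) ^ 3) = 1 / (n : ℝ) ^ 2 := by field_simp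
    rw [h2]
    exact one_div_le_one_div_of_le (by norm_num) (by nlinarith)
  have hη2 : η ≤ 1 / 1000 := by nlinarith
  set i0 : Fin n := ⟨0, hn0⟩ with hi0
  obtain ⟨V, hV⟩ : ∃ V, V = (volume (cap (ev i0) tau)).toReal := ⟨_, rfl⟩
  have hVpos : 0 < V := by
    rw [hV]
    exact ENNReal.toReal_pos (cap_pos i0 tau_pos.le tau_lt).ne' (cap_ne_top _ _)
  obtain ⟨W, hW⟩ : ∃ W, W = (volume (closedBall (0 : EE n) 1)).toReal := ⟨_, rfl⟩
  have hW0 : 0 ≤ W := by rw [hW]; exact ENNReal.toReal_nonneg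
  obtain ⟨δ, hδ0, hδ1, hδW⟩ : ∃ δ : ℝ, 0 < δ ∧ δ ≤ η / 10 ^ 8 ∧ δ * W ≤ V / 2 := by
    refine ⟨min (η / 10 ^ 8) (V / (2 * (W + 1))), lt_min (by positivity) (by positivity),
      min_le_left _ _, ?_⟩
    have h1 : min (η / 10 ^ 8) (V / (2 * (W + 1))) * W ≤ V / (2 * (W + 1)) * (W + 1) :=
      mul_le_mul (min_le_right _ _) (by linarith) hW0 (by positivity)
    refine h1.trans (le_of_eq ?_)
    field_simp
  have hδη : 10 ^ 8 * δ ≤ η := by
    rw [le_div_iff₀ (by norm_num)] at hδ1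
    linarith
  obtain ⟨N, u, D, hu, hDm, hDd, hDU, hDδ⟩ := exists_cells n hδ0
  have hball : ∀ i, (volume (D i)).toReal ≤ V / 2 := by
    intro i
    have h1 : D i ⊆ closedBall (u i) δ := fun w hw => by
      rw [mem_closedBall, dist_eq_norm]; exact hDδ i w hw
    have h2 : (volume (D i)).toReal ≤ (volume (closedBall (u i) δ)).toReal :=
      ENNReal.toReal_mono (isCompact_closedBall _ _).measure_lt_top.ne (measure_mono h1)
    rw [Measure.addHaar_closedBall' volume (u i) hδ0.le, ENNReal.toReal_mul,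
      ENNReal.toReal_ofReal (pow_nonneg hδ0.le _), finrank_euclideanSpace_fin, ← hW] at h2
    refine h2.trans (le_trans (mul_le_mul_of_nonneg_right ?_ hW0) hδW)
    exact pow_le_of_le_one hδ0.le (by linarith) (by omega)
  have hup : ∀ (I : Finset (Fin N)) (v : EE n), ‖v‖ ≤ 2 → ∀ t : ℝ, (∀ i ∈ I, t < ⟪u i, v⟫) →
      ∑ i ∈ I, (volume (D i)).toReal / V ≤ (volume (cap v (t - 2 * δ))).toReal / V := by
    intro I v hv t hI
    rw [← Finset.sum_div]
    exact div_le_div_of_nonneg_right (sum_le_cap hδ0.le hDm hDd hDU hDδ I v hv t hI) hVpos.le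
  have hlo : ∀ (I : Finset (Fin N)) (v : EE n), ‖v‖ ≤ 2 → ∀ t : ℝ, (∀ i, t < ⟪u i, v⟫ → i ∈ I) →
      (volume (cap v (t + 2 * δ))).toReal / V ≤ ∑ i ∈ I, (volume (D i)).toReal / V := by
    intro I v hv t hI
    rw [← Finset.sum_div]
    exact div_le_div_of_nonneg_right (cap_le_sum hδ0.le hDm hDd hDU hDδ I v hv t hI) hVpos.le
  refine ⟨N, u, fun i => (volume (D i)).toReal / V, hu, fun i => by positivity, fun i => ?_,
    ?_, ?_, ?_, ?_⟩
  · show (volume (D i)).toReal / V ≤ 1 / 2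
    rw [div_le_iff₀ hVpos]
    linarith [hball i]
  · -- (1)
    intro v hv
    refine (hup _ v (by linarith) tau fun i hi => (Finset.mem_filter.1 hi).2).trans ?_
    rw [div_le_iff₀ hVpos, hV]
    exact one_real hn i0 hnη hη2 hδ0 hδη hv
  · -- (2)
    intro v a ha hv hva
    refine le_trans ?_ (hlo _ v (by linarith) (tau + η + a)
      fun i hi => Finset.mem_filter.2 ⟨Finset.mem_univ _, hi⟩)
    rw [le_div_iff₀ hVpos, hV]
    exact two_real hn i0 hη0 hnη hη2 hδ0 hδη ha hv hva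
  · -- (3)
    intro v v' hv hv'
    have hmn := mid_norm v v' hv hv'
    have hm2 : ‖(1 / 2 : ℝ) • (v + v')‖ ≤ 2 := by
      have := norm_nonneg ((1 / 2 : ℝ) • (v + v'))
      nlinarith [sq_nonneg ‖v - v'‖]
    refine (hup _ _ hm2 (tau + η) fun i hi => ?_).trans ?_
    · obtain ⟨h1, h2⟩ := (Finset.mem_filter.1 hi).2
      exact mid_inner v v' (u i) _ h1 h2
    rw [div_le_iff₀ hVpos, hV]
    exact three_real hn i0 hη0 hη2 hδη hmn
  · -- (4)
    rintro v v' hv hv' hd i ⟨hi, hi'⟩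
    exact four_real hη0 hη2 hv hv' hd (hu i) hi hi'

end Vale.Agent.P230
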